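import Vale.Agent.P116A.MLSets

/-!
Flow boxes and the monotone part.

`anchor_mem`: w is strictly increasing along the segment (derivative of s -> w (am + s u) is
positive, `strictMonoOn_of_deriv_pos`). For t < w z the segment from z to ap is preconnected inside
{w > t} minus K, so z is in Vt (`IsPreconnected.subset_connectedComponentIn`), hence not in Ut
(`Ut_subset`). For t > w z the segment from am to z lies in the open set {w < t} minus K, which
misses Vt and therefore its closure; so it lies in Ut.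

`dichotomy`: for p with 0 < D w p u choose r, d > 0 such that the closed rectangle
R = {|cs p u| <= r, |ct p u| <= d} misses K, D w z u > 0 on R, and lo < w p < hi where w <= lo on
the side cs = -r and hi <= w on the side cs = r (first r, then d by continuity). For lo < c < hi the
sets R+ c = {z in R, w z > c} and R- c are preconnected (join z to the side cs = r, resp. -r, by the
segment in direction u, along which w is increasing; the side is convex). Put top = p + r u,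
bot = p - r u, In c := top in Vt c (antitone in c, `Vt_anti`), Lo c := bot in Ut c (monotone,
`Ut_mono`). In c gives R+ c inside Vt c; not In c gives R+ c disjoint from Vt c; Lo c gives R- c
inside Ut c; a point of R- c in Ut c gives Lo c. Exceptional levels of the box: the frontier points
of the two intervals {c | In c}, {c | Lo c} (sSup, sInf inside [lo, hi]). If t is not exceptional
then In and Lo are constant near t. In and Lo: first alternative (use monotonicity in the level for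
membership in Bs). not Lo: a point z of Bs with w z < tau near t is in Ut tau, giving Lo tau.
Lo and not In: the interior of R misses the closure of Vt tau and meets Ut tau, so it lies in
Ut tau, which contradicts z in Bs for tau < w z. The open sets interior R inter {lo < w < hi} cover
{z not in K, 0 < D w z u}; take a countable subcover
(`TopologicalSpace.countable_cover_nhdsWithin` or `IsLindelof`); N = all exceptional levels.
-/

namespace Vale.P116A

open Set Filter Topology Metric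

namespace MLBoxA

lemma sub_comp {F S : Set ℂ} {a x : ℂ} (hS : IsPreconnected S) (hF : S ⊆ F) (hx : x ∈ S)
    (ha : x ∈ connectedComponentIn F a) : S ⊆ connectedComponentIn F a := by
  rw [connectedComponentIn_eq ha]
  exact hS.subset_connectedComponentIn hx hF

lemma contOn {K : Set ℂ} {w : ℂ → ℝ} (hw : ∀ z, z ∉ K → ContDiffAt ℝ 1 w z) :
    ContinuousOn w Kᶜ := fun z hz => (hw z hz).continuousAt.continuousWithinAt

lemma low_sub {K : Set ℂ} (hK : IsClosed K) {w : ℂ → ℝ} (hw : ContinuousOn w Kᶜ) (ap : ℂ)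
    {c : ℝ} {z : ℂ} (hz : z ∉ K) (h : w z < c) : z ∈ Kᶜ \ closure (Vt K w ap c) := by
  refine ⟨hz, fun hc => ?_⟩
  obtain ⟨y, hy, hy'⟩ := mem_closure_iff.1 hc _
    (hw.isOpen_inter_preimage hK.isOpen_compl (isOpen_Iio (a := c))) ⟨hz, h⟩
  exact lt_asymm (Vt_subset K w ap c hy').2 hy.2

lemma not_Ut {K : Set ℂ} {w : ℂ → ℝ} {ap am z : ℂ} {c : ℝ} (h : z ∈ Vt K w ap c) :
    z ∉ Ut K w ap am c := fun h' => (Ut_subset K w ap am c h').2 (subset_closure h)

lemma mono_line {K : Set ℂ} {w : ℂ → ℝ} (hw : ∀ z, z ∉ K → ContDiffAt ℝ 1 w z) {q u : ℂ}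
    {I : Set ℝ} (hI : Convex ℝ I)
    (hs : ∀ s ∈ I, q + (s : ℝ) * u ∉ K ∧ 0 < fderiv ℝ w (q + (s : ℝ) * u) u) :
    StrictMonoOn (fun s : ℝ => w (q + s * u)) I := by
  have hd : ∀ s ∈ I, HasDerivAt (fun s : ℝ => w (q + s * u)) (fderiv ℝ w (q + s * u) u) s :=
    fun s h => by
      have h1 : HasDerivAt (fun s : ℝ => q + s * u) u s := by
        simpa using ((Complex.ofRealCLM.hasDerivAt (x := s)).mul_const u).const_add q
      exact ((hw _ (hs s h).1).differentiableAt one_ne_zero).hasFDerivAt.comp_hasDerivAt s h1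
  refine strictMonoOn_of_deriv_pos hI (fun s h => (hd s h).continuousAt.continuousWithinAt)
    fun s h => ?_
  rw [(hd s (interior_subset h)).deriv]
  exact (hs s (interior_subset h)).2

lemma exc (S : ℝ → Prop) (h : ∀ a b, a ≤ b → S a → S b) :
    {t : ℝ | ¬ ∃ η > 0, (∀ τ, |τ - t| < η → S τ) ∨ ∀ τ, |τ - t| < η → ¬ S τ}.Countable := by
  have k : ∀ a b : ℝ, a < b →
      (∃ η > 0, (∀ τ, |τ - a| < η → S τ) ∨ ∀ τ, |τ - a| < η → ¬ S τ) ∨
      ∃ η > 0, (∀ τ, |τ - b| < η → S τ) ∨ ∀ τ, |τ - b| < η → ¬ S τ := fun a b hab => by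
    by_cases hm : S ((a + b) / 2)
    · exact Or.inr ⟨(b - a) / 2, by linarith, Or.inl fun τ hτ =>
        h _ _ (by linarith [(abs_lt.1 hτ).1]) hm⟩
    · exact Or.inl ⟨(b - a) / 2, by linarith, Or.inr fun τ hτ hS =>
        hm (h _ _ (by linarith [(abs_lt.1 hτ).2]) hS)⟩
  refine Set.Subsingleton.countable fun a ha b hb => ?_
  rcases lt_trichotomy a b with h1 | h1 | h1
  · exact ((k a b h1).elim ha hb).elim
  · exact h1
  · exact ((k b a h1).elim hb ha).elim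

/-- the local alternative -/
def Good (K : Set ℂ) (w : ℂ → ℝ) (ap am : ℂ) (t1 t2 t : ℝ) (p : ℂ) : Prop :=
  ∃ ρ : ℝ, 0 < ρ ∧ ∃ η : ℝ, 0 < η ∧
    ((∀ z ∈ ball p ρ, (|w z - t| < η → z ∈ Bs K w ap am t1 t2) ∧ ∀ τ, |τ - t| < η →
        (τ < w z → z ∈ Vt K w ap τ) ∧ (w z < τ → z ∈ Ut K w ap am τ)) ∨
      ∀ z ∈ ball p ρ, |w z - t| < η → z ∉ Bs K w ap am t1 t2)

lemma core {K : Set ℂ} (hK : IsClosed K) {w : ℂ → ℝ} (hw : ContinuousOn w Kᶜ) (ap am : ℂ)
    (t1 t2 : ℝ) {R : Set ℂ} (hO : IsOpen R) (hR : R ⊆ Kᶜ) (hc : IsPreconnected R) {lo hi : ℝ}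
    {top bot : ℂ} (ht : top ∈ R) (hb : bot ∈ R) (ht' : hi ≤ w top) (hb' : w bot ≤ lo)
    (hp : ∀ c, c < hi → IsPreconnected {z | z ∈ R ∧ c < w z})
    (hm : ∀ c, lo < c → IsPreconnected {z | z ∈ R ∧ w z < c}) :
    ∃ N : Set ℝ, N.Countable ∧ ∀ t, t ∉ N → t1 < t → t < t2 → lo < t → t < hi → ∀ p ∈ R,
      Good K w ap am t1 t2 t p := by
  have A : ∀ c, c < hi → ∀ x ∈ R, x ∈ Vt K w ap c → ∀ z ∈ R, c < w z → z ∈ Vt K w ap c :=
    fun c h x hx hx' z hz hz' => sub_comp (F := {z | z ∉ K ∧ c < w z}) (hp c h)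
      (fun y hy => ⟨hR hy.1, hy.2⟩) ⟨hx, (Vt_subset K w ap c hx').2⟩ hx' ⟨hz, hz'⟩
  have B : ∀ c, lo < c → ∀ x ∈ R, w x < c → x ∈ Ut K w ap am c → ∀ z ∈ R, w z < c →
      z ∈ Ut K w ap am c := fun c h x hx hx1 hx' z hz hz' =>
    sub_comp (hm c h) (fun y hy => low_sub hK hw ap (hR hy.1) hy.2) ⟨hx, hx1⟩ hx' ⟨hz, hz'⟩
  refine ⟨_ ∪ _, (exc (fun c => top ∉ Vt K w ap c) fun a b h ha h' => ha (Vt_anti K w ap h h')).union
    (exc (fun c => bot ∈ Ut K w ap am c) fun a b h ha => Ut_mono K w ap am h ha),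
    fun t hN h1 h2 h3 h4 p hpR => ?_⟩
  rw [mem_union, not_or, mem_ofPred_eq, mem_ofPred_eq, not_not, not_not] at hN
  obtain ⟨⟨η1, e1, k1⟩, η2, e2, k2⟩ := hN
  obtain ⟨ρ, hρ, hball⟩ := Metric.isOpen_iff.1 hO p hpR
  obtain ⟨η, hη, a1, a2, a3, a4, a5, a6⟩ : ∃ η > 0, η ≤ η1 ∧ η ≤ η2 ∧ η ≤ t - t1 ∧ η ≤ t2 - t ∧
      η ≤ t - lo ∧ η ≤ hi - t := by
    refine ⟨min (min (min η1 η2) (min (t - t1) (t2 - t))) (min (t - lo) (hi - t)),
      by simp only [gt_iff_lt, lt_min_iff, sub_pos]; tauto, ?_⟩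
    simp only [min_le_iff, le_refl, true_or, or_true, and_self]
  refine ⟨ρ, hρ, η, hη, ?_⟩
  rcases k2 with k2 | k2
  · rcases k1 with k1 | k1
    · refine Or.inr fun z hz hz' hB => ?_
      have b1 := abs_lt.1 hz'
      have b2 : |(w z + t - η) / 2 - t| < η := abs_lt.2 ⟨by linarith, by linarith⟩
      refine hB.2.2.2.1 ((w z + t - η) / 2) (by linarith)
        (sub_comp (F := Kᶜ \ closure (Vt K w ap ((w z + t - η) / 2))) hc
          (fun y hy => ⟨hR hy, fun hcl => ?_⟩) hb (k2 _ (b2.trans_le a2)) (hball hz))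
      obtain ⟨x, hx, hx'⟩ := mem_closure_iff.1 hcl R hO hy
      exact k1 _ (b2.trans_le a1) (A _ (by linarith) x hx hx' top ht (by linarith))
    · have C : ∀ z ∈ ball p ρ, ∀ τ, |τ - t| < η →
          (τ < w z → z ∈ Vt K w ap τ) ∧ (w z < τ → z ∈ Ut K w ap am τ) := fun z hz τ hτ => by
        have b1 := abs_lt.1 hτ
        exact ⟨A τ (by linarith) top ht (not_not.1 (k1 τ (hτ.trans_le a1))) z (hball hz),
          B τ (by linarith) bot hb (by linarith) (k2 τ (hτ.trans_le a2)) z (hball hz)⟩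
      refine Or.inl fun z hz => ⟨fun hz' => ?_, C z hz⟩
      have b1 := abs_lt.1 hz'
      refine ⟨hR (hball hz), by linarith, by linarith, fun τ hτ => not_Ut ?_, fun τ hτ => ?_⟩
      · have b2 : max τ ((w z + t - η) / 2) < w z := max_lt hτ (by linarith)
        have b3 := le_max_right τ ((w z + t - η) / 2)
        exact Vt_anti K w ap (le_max_left _ _)
          ((C z hz _ (abs_lt.2 ⟨by linarith, by linarith⟩)).1 b2)
      · have b2 : w z < min τ ((w z + t + η) / 2) := lt_min hτ (by linarith)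
        have b3 := min_le_right τ ((w z + t + η) / 2)
        exact Ut_mono K w ap am (min_le_left _ _)
          ((C z hz _ (abs_lt.2 ⟨by linarith, by linarith⟩)).2 b2)
  · refine Or.inr fun z hz hz' hB => ?_
    have b1 := abs_lt.1 hz'
    have b2 : |(w z + t + η) / 2 - t| < η := abs_lt.2 ⟨by linarith, by linarith⟩
    exact k2 _ (b2.trans_le a2) (B _ (by linarith) z (hball hz) (by linarith)
      (hB.2.2.2.2 _ (by linarith)) bot hb (by linarith))

/-- the point with coordinates `s`, `b` -/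
noncomputable def pt (p u : ℂ) (s b : ℝ) : ℂ := p + b * Complex.I * u + s * u

lemma pt_eq {u : ℂ} (hu : ‖u‖ = 1) (p z : ℂ) : pt p u (cs p u z) (ct p u z) = z := by
  conv_rhs => rw [eq_of_cs_ct hu p z]
  unfold pt
  ring

lemma pt_mul {u : ℂ} (hu : ‖u‖ = 1) (p : ℂ) (s b : ℝ) :
    (pt p u s b - p) * (starRingEnd ℂ) u = s + b * Complex.I := by
  have e : (pt p u s b - p) * (starRingEnd ℂ) u =
      (s + b * Complex.I) * (u * (starRingEnd ℂ) u) := by
    unfold pt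
    ring
  rw [e, mul_conj_self_of_norm hu, mul_one]

lemma cs_pt {u : ℂ} (hu : ‖u‖ = 1) (p : ℂ) (s b : ℝ) : cs p u (pt p u s b) = s := by
  rw [cs, pt_mul hu]
  simp

lemma ct_pt {u : ℂ} (hu : ‖u‖ = 1) (p : ℂ) (s b : ℝ) : ct p u (pt p u s b) = b := by
  rw [ct, pt_mul hu]
  simp

lemma pre {u : ℂ} (hu : ‖u‖ = 1) (p : ℂ) {r d s0 : ℝ} (hd : 0 < d) (hs : |s0| < r)
    (Q : ℂ → Prop) (h1 : ∀ b, |b| < d → Q (pt p u s0 b))
    (h2 : ∀ s b s', |s| < r → |b| < d → |s'| < r → s' ∈ uIcc s s0 → Q (pt p u s b) →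
      Q (pt p u s' b)) :
    IsPreconnected {z | (|cs p u z| < r ∧ |ct p u z| < d) ∧ Q z} := by
  refine isPreconnected_of_forall (pt p u s0 0) fun y hy => ?_
  have c1 : Continuous fun b => pt p u s0 b := by unfold pt; fun_prop
  have c2 : Continuous fun s => pt p u s (ct p u y) := by unfold pt; fun_prop
  refine ⟨(fun b => pt p u s0 b) '' Ioo (-d) d ∪
    (fun s => pt p u s (ct p u y)) '' uIcc (cs p u y) s0, ?_,
    Or.inl ⟨0, ⟨by linarith, hd⟩, rfl⟩, Or.inr ⟨_, left_mem_uIcc, pt_eq hu p y⟩,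
    IsPreconnected.union (pt p u s0 (ct p u y)) ⟨_, abs_lt.1 hy.1.2, rfl⟩ ⟨_, right_mem_uIcc, rfl⟩
      (isPreconnected_Ioo.image _ c1.continuousOn) (isPreconnected_uIcc.image _ c2.continuousOn)⟩
  rintro z (⟨b, hb, rfl⟩ | ⟨s, hs', rfl⟩)
  · exact ⟨by simpa only [cs_pt hu, ct_pt hu] using ⟨hs, abs_lt.2 hb⟩, h1 b (abs_lt.2 hb)⟩
  · have h3 : |s| < r := abs_lt.2 (ordConnected_Ioo.uIcc_subset (abs_lt.1 hy.1.1) (abs_lt.1 hs) hs')
    exact ⟨by simpa only [cs_pt hu, ct_pt hu] using ⟨h3, hy.1.2⟩,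
      h2 _ _ _ hy.1.1 hy.1.2 h3 hs' (by rw [pt_eq hu]; exact hy.2)⟩

lemma box {K : Set ℂ} (hK : IsClosed K) {w : ℂ → ℝ}
    (hw : ∀ z, z ∉ K → ContDiffAt ℝ 1 w z) (ap am : ℂ) (t1 t2 : ℝ) {u : ℂ} (hu : ‖u‖ = 1)
    {p : ℂ} (hp : p ∉ K) (hD : 0 < fderiv ℝ w p u) :
    ∃ O ∈ 𝓝 p, ∃ N : Set ℝ, N.Countable ∧ ∀ t, t ∉ N → t1 < t → t < t2 → ∀ q ∈ O, w q = t →
      Good K w ap am t1 t2 t q := by
  have hc : ContinuousAt (fun z => fderiv ℝ w z u) p :=
    ((hw p hp).continuousAt_fderiv one_ne_zero).clm_apply continuousAt_const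
  obtain ⟨ε, hε, hG⟩ := Metric.eventually_nhds_iff_ball.1
    ((hK.isOpen_compl.eventually_mem hp).and (hc.eventually (lt_mem_nhds hD)))
  have hin : ∀ z, |cs p u z| < ε / 2 → |ct p u z| < ε / 2 → z ∉ K ∧ 0 < fderiv ℝ w z u :=
    fun z h1 h2 => hG z (by
      rw [mem_ball, dist_eq_norm]
      linarith [norm_sub_le_cs_ct hu p z])
  have hin' : ∀ s b, |s| < ε / 2 → |b| < ε / 2 → pt p u s b ∉ K ∧ 0 < fderiv ℝ w (pt p u s b) u :=
    fun s b h1 h2 => hin _ (by rwa [cs_pt hu]) (by rwa [ct_pt hu])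
  have hmono : ∀ b, |b| < ε / 2 → StrictMonoOn (fun s => w (pt p u s b)) (Ioo (-(ε / 2)) (ε / 2)) :=
    fun b hb => mono_line hw (convex_Ioo _ _) fun s hs => hin' s b (abs_lt.2 hs) hb
  have z0 : |(0 : ℝ)| < ε / 2 := by rw [abs_zero]; linarith
  have z1 : |ε / 4| < ε / 2 := abs_lt.2 ⟨by linarith, by linarith⟩
  have z2 : |-(ε / 4)| < ε / 2 := by rwa [abs_neg]
  have p0 : pt p u 0 0 = p := by simp [pt]
  have m1 : w p < w (pt p u (ε / 4) 0) := by
    simpa only [p0] using hmono 0 z0 (abs_lt.1 z0) (abs_lt.1 z1) (by linarith)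
  have m2 : w (pt p u (-(ε / 4)) 0) < w p := by
    simpa only [p0] using hmono 0 z0 (abs_lt.1 z2) (abs_lt.1 z0) (by linarith)
  obtain ⟨hi, i1, i2⟩ := exists_between m1
  obtain ⟨lo, l1, l2⟩ := exists_between m2
  have cb : ∀ s, |s| < ε / 2 → ContinuousAt (fun b => w (pt p u s b)) 0 := fun s hs =>
    ContinuousAt.comp (f := fun b => pt p u s b) (hw _ (hin' s 0 hs z0).1).continuousAt
      (by unfold pt; fun_prop)
  obtain ⟨d, hd, hd'⟩ := Metric.eventually_nhds_iff.1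
    ((((cb _ z1).eventually (lt_mem_nhds i2)).and ((cb _ z2).eventually (gt_mem_nhds l1))).and
      (continuous_abs.continuousAt.eventually (gt_mem_nhds z0)))
  simp only [Real.dist_eq, sub_zero] at hd'
  have d0 : |(0 : ℝ)| < d := by rwa [abs_zero]
  have dd : ∀ b, |b| < d → |b| < ε / 2 := fun b h => (hd' h).2
  have hO : IsOpen {z | |cs p u z| < ε / 2 ∧ |ct p u z| < d} :=
    (isOpen_lt (continuous_cs p u).abs continuous_const).inter
      (isOpen_lt (continuous_ct p u).abs continuous_const)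
  have mem : ∀ s, |s| < ε / 2 → pt p u s 0 ∈ {z | |cs p u z| < ε / 2 ∧ |ct p u z| < d} :=
    fun s hs => by simpa only [mem_ofPred_eq, cs_pt hu, ct_pt hu] using ⟨hs, d0⟩
  obtain ⟨N, hN, h⟩ := core hK (contOn hw) ap am t1 t2 hO (fun z hz => (hin z hz.1 (dd _ hz.2)).1)
    (by simpa using pre hu p hd z0 (fun _ => True) (fun _ _ => trivial) fun _ _ _ _ _ _ _ h => h)
    (mem _ z1) (mem _ z2) i2.le l1.le
    (fun c hc => pre hu p hd z1 (fun z => c < w z) (fun b hb => hc.trans (hd' hb).1.1)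
      fun s b s' h1 h2 h3 h4 h5 => by
        rcases mem_uIcc.1 h4 with h6 | h6
        · exact h5.trans_le ((hmono b (dd b h2)).monotoneOn (abs_lt.1 h1) (abs_lt.1 h3) h6.1)
        · exact (hc.trans (hd' h2).1.1).trans_le
            ((hmono b (dd b h2)).monotoneOn (abs_lt.1 z1) (abs_lt.1 h3) h6.1))
    (fun c hc => pre hu p hd z2 (fun z => w z < c) (fun b hb => (hd' hb).1.2.trans hc)
      fun s b s' h1 h2 h3 h4 h5 => by
        rcases mem_uIcc.1 h4 with h6 | h6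
        · exact ((hmono b (dd b h2)).monotoneOn (abs_lt.1 h3) (abs_lt.1 z2) h6.2).trans_lt
            ((hd' h2).1.2.trans hc)
        · exact ((hmono b (dd b h2)).monotoneOn (abs_lt.1 h3) (abs_lt.1 h1) h6.2).trans_lt h5)
  refine ⟨_, inter_mem (hO.mem_nhds (by simpa only [p0] using mem 0 z0))
    ((hw p hp).continuousAt.eventually (Ioo_mem_nhds l2 i1)), N, hN, fun t ht h1 h2 q hq e => ?_⟩
  exact h t ht h1 h2 (e ▸ hq.2.1) (e ▸ hq.2.2) q hq.1

end MLBoxA

theorem anchor_mem {K : Set ℂ} (hK : IsClosed K) {w : ℂ → ℝ}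
    (hw : ∀ z, z ∉ K → ContDiffAt ℝ 1 w z) {am u : ℂ} {l t1 t2 : ℝ}
    (hs : ∀ s ∈ Icc 0 l, am + s * u ∉ K ∧ 0 < fderiv ℝ w (am + s * u) u) {s : ℝ}
    (h : s ∈ Icc 0 l) (h1 : t1 < w (am + s * u)) (h2 : w (am + s * u) < t2) :
    am + s * u ∈ Bs K w (am + l * u) am t1 t2 := by
  have hm := (MLBoxA.mono_line hw (convex_Icc 0 l) hs).monotoneOn
  have hc : Continuous fun s : ℝ => am + s * u := by fun_prop
  refine ⟨(hs s h).1, h1, h2, fun t ht => MLBoxA.not_Ut ?_, fun t ht => ?_⟩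
  · refine (isPreconnected_Icc.image _ hc.continuousOn).subset_connectedComponentIn
      (x := am + l * u) ⟨l, right_mem_Icc.2 h.2, rfl⟩ ?_ ⟨s, left_mem_Icc.2 h.2, rfl⟩
    rintro _ ⟨σ, hσ, rfl⟩
    have h3 : σ ∈ Icc 0 l := ⟨h.1.trans hσ.1, hσ.2⟩
    exact ⟨(hs σ h3).1, ht.trans_le (hm h h3 hσ.1)⟩
  · refine (isPreconnected_Icc.image _ hc.continuousOn).subset_connectedComponentIn
      (x := am) ⟨0, left_mem_Icc.2 h.1, by simp⟩ ?_ ⟨s, right_mem_Icc.2 h.1, rfl⟩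
    rintro _ ⟨σ, hσ, rfl⟩
    have h3 : σ ∈ Icc 0 l := ⟨hσ.1, hσ.2.trans h.2⟩
    exact MLBoxA.low_sub hK (MLBoxA.contOn hw) _ (hs σ h3).1 ((hm h3 h hσ.2).trans_lt ht)

theorem dichotomy {K : Set ℂ} (hK : IsClosed K) {w : ℂ → ℝ}
    (hw : ∀ z, z ∉ K → ContDiffAt ℝ 1 w z) (ap am : ℂ) (t1 t2 : ℝ) {u : ℂ} (hu : ‖u‖ = 1) :
    ∃ N : Set ℝ, N.Countable ∧ ∀ t, t ∉ N → t1 < t → t < t2 → ∀ p, p ∉ K → w p = t →
      0 < fderiv ℝ w p u → ∃ ρ : ℝ, 0 < ρ ∧ ∃ η : ℝ, 0 < η ∧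
        ((∀ z ∈ ball p ρ, (|w z - t| < η → z ∈ Bs K w ap am t1 t2) ∧ ∀ τ, |τ - t| < η →
            (τ < w z → z ∈ Vt K w ap τ) ∧ (w z < τ → z ∈ Ut K w ap am τ)) ∨
          ∀ z ∈ ball p ρ, |w z - t| < η → z ∉ Bs K w ap am t1 t2) := by
  have h := fun p : {z // z ∉ K ∧ 0 < fderiv ℝ w z u} =>
    MLBoxA.box hK hw ap am t1 t2 hu p.2.1 p.2.2
  choose O hO N hN h using h
  obtain ⟨T, hT, hc⟩ := TopologicalSpace.countable_cover_nhds
    (f := fun p => Subtype.val ⁻¹' O p) fun p => continuous_subtype_val.continuousAt (hO p)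
  refine ⟨⋃ p ∈ T, N p, hT.biUnion fun p _ => hN p, fun t ht h1 h2 p hp e hD => ?_⟩
  obtain ⟨q, hq, hq'⟩ := mem_iUnion₂.1 (hc.ge (mem_univ ⟨p, hp, hD⟩))
  exact h q t (fun h' => ht (mem_iUnion₂.2 ⟨q, hq, h'⟩)) h1 h2 p hq' e

end Vale.P116A
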