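import Vale.Agent.P116A.MLFlux2

/-!
Cells defined by a locally constant labelling: flux formula and balance.
-/

namespace Vale.P116A

open Set Filter Topology Metric MeasureTheory
open scoped NNReal ContDiff

/-- Stokes formula for wired functions with the weight `lam`. -/
def Stk (K B : Set ℂ) (w : ℂ → ℝ) (lam : ℝ → ℝ) : Prop :=
  ∀ a : ℂ → ℝ, ContDiff ℝ ∞ a → (∀ z ∈ K, ∀ᶠ z' in 𝓝 z, a z' = a z) →
    (∃ c, ∀ᶠ z in cocompact ℂ, a z = c) → ∫ z in B, lam (w z) * wdg a w z = 0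

/-- `χ` agrees with the indicator of `Y` near `K` and near infinity. -/
def CutOf (K Y : Set ℂ) (χ : ℂ → ℝ) : Prop :=
  ContDiff ℝ ∞ χ ∧ (∀ z ∈ K, ∀ᶠ z' in 𝓝 z, χ z' = Y.indicator 1 z') ∧
    ∀ᶠ z in cocompact ℂ, χ z = Y.indicator 1 z

lemma Stk.cs {K B : Set ℂ} {w : ℂ → ℝ} {lam : ℝ → ℝ} (h : Stk K B w lam) (a : ℂ → ℝ)
    (ha : ∀ z, z ∉ K → ContDiffAt ℝ ∞ a z) (hc : HasCompactSupport a) (hK : tsupport a ⊆ Kᶜ) :
    ∫ z in B, lam (w z) * wdg a w z = 0 := by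
  have h0 : ∀ z ∈ K, a =ᶠ[𝓝 z] 0 := fun z hz =>
    notMem_tsupport_iff_eventuallyEq.1 fun h' => hK h' hz
  refine h a (contDiff_iff_contDiffAt.2 fun z => ?_) (fun z hz => ?_) ⟨0, ?_⟩
  · by_cases hz : z ∈ K
    · exact (contDiffAt_const (c := (0 : ℝ))).congr_of_eventuallyEq (h0 z hz)
    · exact ha z hz
  · filter_upwards [h0 z hz] with x hx
    rw [hx, (h0 z hz).eq_of_nhds]; rfl
  · filter_upwards [hc.isCompact.compl_mem_cocompact] with z hz
    exact image_eq_zero_of_notMem_tsupport hz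

lemma exists_cutOf {K Y : Set ℂ} (hK : IsCompact K) (hY : IsOpen Y)
    (hloc : ∀ z ∈ K, ∀ᶠ z' in 𝓝 z, (z' ∈ Y ↔ z ∈ Y))
    (hinf : (∀ᶠ z in cocompact ℂ, z ∈ Y) ∨ ∀ᶠ z in cocompact ℂ, z ∉ Y) :
    ∃ χ, CutOf K Y χ ∧ ∀ z, χ z ∈ Icc (0 : ℝ) 1 := by
  have h1 : IsCompact (K \ Y) := hK.diff hY
  have h2 : IsCompact (K \ interior Yᶜ) := hK.diff isOpen_interior
  have h3 : K \ interior Yᶜ = K ∩ Y := by
    ext z
    refine ⟨fun h => ⟨h.1, by_contra fun h' => h.2 (mem_interior_iff_mem_nhds.2 ?_)⟩,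
      fun h => ⟨h.1, fun h' => interior_subset h' h.2⟩⟩
    filter_upwards [hloc z h.1] with x hx hx' using h' (hx.1 hx')
  rw [h3] at h2
  rcases hinf with hi | hi
  · obtain ⟨θ, hθ, hc, hs, hb, he⟩ := ml_exists_cut h1 h2.isClosed.isOpen_compl
      (fun z hz h => hz.2 h.2)
    refine ⟨fun z => 1 - θ z, ⟨contDiff_const.sub hθ, fun z hz => ?_, ?_⟩,
      fun z => ⟨by linarith [(hb z).2], by linarith [(hb z).1]⟩⟩
    · by_cases hzY : z ∈ Y
      · filter_upwards [notMem_tsupport_iff_eventuallyEq.1 fun h => hs h ⟨hz, hzY⟩,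
          hY.mem_nhds hzY] with x e1 e2
        simp [e1, e2]
      · filter_upwards [he.filter_mono (nhds_le_nhdsSet (show z ∈ K \ Y from ⟨hz, hzY⟩)),
          hloc z hz] with x e1 e2
        have : x ∉ Y := fun h => hzY (e2.1 h)
        simp [e1, this]
    · filter_upwards [hc.isCompact.compl_mem_cocompact, hi] with z e1 e2
      simp [image_eq_zero_of_notMem_tsupport e1, e2]
  · obtain ⟨θ, hθ, hc, hs, hb, he⟩ := ml_exists_cut h2 h1.isClosed.isOpen_compl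
      (fun z hz h => h.2 hz.2)
    refine ⟨θ, ⟨hθ, fun z hz => ?_, ?_⟩, hb⟩
    · by_cases hzY : z ∈ Y
      · filter_upwards [he.filter_mono (nhds_le_nhdsSet (show z ∈ K ∩ Y from ⟨hz, hzY⟩)),
          hY.mem_nhds hzY] with x e1 e2
        simp [e1, e2]
      · filter_upwards [notMem_tsupport_iff_eventuallyEq.1 fun h => hs h ⟨hz, hzY⟩, hloc z hz]
          with x e1 e2
        have : x ∉ Y := fun h => hzY (e2.1 h)
        simp [e1, this]
    · filter_upwards [hc.isCompact.compl_mem_cocompact, hi] with z e1 e2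
      simp [image_eq_zero_of_notMem_tsupport e1, e2]

lemma integrable_wdg_of_loc {K : Set ℂ} {a w : ℂ → ℝ} {lam : ℝ → ℝ} (hc : Continuous lam)
    (ha : ContDiff ℝ ∞ a) (hw : ∀ z, z ∉ K → ContDiffAt ℝ ∞ w z)
    (h1 : ∀ z ∈ K, ∀ᶠ z' in 𝓝 z, a z' = a z) {c : ℝ} (h2 : ∀ᶠ z in cocompact ℂ, a z = c) :
    Integrable fun z => lam (w z) * wdg a w z := by
  obtain ⟨S, hS, hS'⟩ := mem_cocompact.1 h2
  set O : Set ℂ := {z | ∀ᶠ z' in 𝓝 z, a z' = a z} with hO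
  have hOo : IsOpen O := by
    refine isOpen_iff_mem_nhds.2 fun z hz => ?_
    filter_upwards [eventually_eventually_nhds.2 hz, hz] with x e1 e2
    filter_upwards [e1] with x' e3 using e3.trans e2.symm
  refine IntegrableOn.integrable_of_forall_notMem_eq_zero (s := S \ O)
    (ContinuousOn.integrableOn_compact (hS.diff hOo) fun z hz => ?_) fun z hz => ?_
  · have hzK : z ∉ K := fun h => hz.2 (h1 z h)
    exact ((hc.continuousAt.comp (hw z hzK).continuousAt).mul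
      (continuousAt_wdg ha.contDiffAt (hw z hzK))).continuousWithinAt
  · have hzO : z ∈ O := by
      by_contra h
      have hzS : z ∉ S := fun h' => hz ⟨h', h⟩
      refine h ?_
      filter_upwards [hS.isClosed.isOpen_compl.mem_nhds hzS] with x hx
      rw [hS' hx, hS' hzS]
    rw [wdg_eq_zero_left, mul_zero]
    rw [EventuallyEq.fderiv_eq (f := fun _ => a z) hzO]; simp

/-- The cell of the labels satisfying `T`. -/
def cell {σ : Type} (N : ℂ → σ) (T : σ → Prop) : Set ℂ := interior {z | T (N z)}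

lemma ev_cell {σ : Type} {N : ℂ → σ} (T : σ → Prop) {z : ℂ} (h : ∀ᶠ z' in 𝓝 z, N z' = N z) :
    ∀ᶠ z' in 𝓝 z, (z' ∈ cell N T ↔ T (N z)) := by
  filter_upwards [eventually_eventually_nhds.2 h, h] with x e1 e2
  refine ⟨fun h' => e2 ▸ (interior_subset (s := {z | T (N z)}) h' : T (N x)),
    fun h' => mem_interior_iff_mem_nhds.2 ?_⟩
  filter_upwards [e1] with x' e3
  show T (N x')
  rwa [e3]

lemma mem_cell {σ : Type} {N : ℂ → σ} (T : σ → Prop) {z : ℂ} (h : ∀ᶠ z' in 𝓝 z, N z' = N z) :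
    z ∈ cell N T ↔ T (N z) := (ev_cell T h).self_of_nhds

/-- Everything needed at one level. -/
structure Lev {σ : Type} (K B : Set ℂ) (w : ℂ → ℝ) (t : ℝ) (P : Finset ℂ) (u : ℂ → ℂ)
    (N NL NR : ℂ → σ) : Prop where
  pts : ∀ p ∈ P, p ∉ K ∧ w p = t ∧ ‖u p‖ = 1 ∧ 0 < fderiv ℝ w p (u p) ∧
    ∃ ρ : ℝ, 0 < ρ ∧ ∃ η : ℝ, 0 < η ∧ ∀ z ∈ ball p ρ, |w z - t| < η → z ∈ B
  bad : ∃ Bad O : Set ℂ, IsCompact Bad ∧ Bad ⊆ Kᶜ ∧ IsOpen O ∧
    (∃ η : ℝ, 0 < η ∧ ∀ z ∈ O, z ∈ B → η ≤ |w z - t|) ∧ (∀ z ∈ Bad, w z = t → z ∈ P ∨ z ∈ O) ∧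
    ∀ z, z ∉ Bad → ∀ᶠ z' in 𝓝 z, N z' = N z
  side : ∀ p ∈ P, ∀ᶠ z in 𝓝 p, (0 < ct p (u p) z → N z = NL p) ∧ (ct p (u p) z < 0 → N z = NR p)
  inf : ∃ s, ∀ᶠ z in cocompact ℂ, N z = s

variable {σ : Type} {K B : Set ℂ} {w : ℂ → ℝ} {t : ℝ} {P : Finset ℂ} {u : ℂ → ℂ}
  {N NL NR : ℂ → σ}

lemma Lev.locK (h : Lev K B w t P u N NL NR) {z : ℂ} (hz : z ∈ K) : ∀ᶠ z' in 𝓝 z, N z' = N z := by
  obtain ⟨Bad, O, -, h2, -, -, -, h6⟩ := h.bad
  exact h6 z fun h' => h2 h' hz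

lemma ev_inf_cell {s : σ} (h : ∀ᶠ z in cocompact ℂ, N z = s) (T : σ → Prop) :
    ∀ᶠ z in cocompact ℂ, (z ∈ cell N T ↔ T s) := by
  obtain ⟨S, hS, hS'⟩ := mem_cocompact.1 h
  filter_upwards [hS.compl_mem_cocompact] with z hz
  have e : N z = s := hS' hz
  rw [mem_cell T, e]
  filter_upwards [hS.isClosed.isOpen_compl.mem_nhds hz] with x hx
  rw [e]; exact hS' hx

lemma Lev.cut (h : Lev K B w t P u N NL NR) (hK : IsCompact K) (T : σ → Prop) :
    ∃ χ, CutOf K (cell N T) χ ∧ ∀ z, χ z ∈ Icc (0 : ℝ) 1 := by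
  refine exists_cutOf hK isOpen_interior (fun z hz => ?_) ?_
  · filter_upwards [ev_cell T (h.locK hz)] with x hx
    rw [hx, mem_cell T (h.locK hz)]
  · obtain ⟨s, hs⟩ := h.inf
    by_cases hT : T s
    · exact Or.inl ((ev_inf_cell hs T).mono fun z hz => hz.2 hT)
    · exact Or.inr ((ev_inf_cell hs T).mono fun z hz h' => hT (hz.1 h'))

open Classical in
theorem Lev.flux (h : Lev K B w t P u N NL NR) (hK : IsClosed K)
    (hw : ∀ z, z ∉ K → ContDiffAt ℝ ∞ w z) (hBm : MeasurableSet B) (hBK : B ⊆ Kᶜ) {ψ : ℂ → ℝ}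
    (hψ : ∀ z, z ∉ K → ContDiffAt ℝ ∞ ψ z) {ε : ℝ} (hε : 0 < ε) :
    ∃ η : ℝ, 0 < η ∧ ∀ (T : σ → Prop) (lam : ℝ → ℝ), Continuous lam →
      (∀ x, η ≤ |x - t| → lam x = 0) → Stk K B w lam → ∀ χ, CutOf K (cell N T) χ →
      IntegrableOn (fun z => lam (w z) * wdg (fun z => ψ z * χ z) w z) B →
      IntegrableOn (fun z => lam (w z) * wdg ψ w z) B →
      |(∫ z in B, lam (w z) * wdg (fun z => ψ z * χ z) w z) - (∫ x, lam x) *
          ∑ p ∈ P, ((if T (NR p) then (1 : ℝ) else 0) - if T (NL p) then 1 else 0) * ψ p| ≤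
        (∫ z in cell N T ∩ B, |lam (w z) * wdg ψ w z|) + ε * ∫ x, |lam x| := by
  obtain ⟨Bad, O, h1, h2, h3, ⟨η1, hη1, h4⟩, h5, h6⟩ := h.bad
  have h7 : ∀ᶠ r in 𝓝[>] (0 : ℝ), ∀ p ∈ P, ball p (3 * r) ⊆
      {z | (0 < ct p (u p) z → N z = NL p) ∧ (ct p (u p) z < 0 → N z = NR p)} :=
    (Finset.eventually_all P).2 fun p hp => ev_ball (h.side p hp)
  obtain ⟨r, hr, hr0⟩ := (h7.and self_mem_nhdsWithin).exists
  replace hr0 : 0 < r := hr0
  obtain ⟨η, hη, key⟩ := P116A.flux hK hw hψ hBm hBK h.pts h1 h2 h3 hη1 h4 h5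
    (show 0 < 3 * r by linarith) hε
  refine ⟨η, hη, fun T lam hc h0 hS χ hχ hI1 hI2 => ?_⟩
  refine key (cell N T) ((cell N T).indicator 1) (fun p => if T (NL p) then 1 else 0)
    (fun p => if T (NR p) then 1 else 0) isOpen_interior.measurableSet (fun z => ?_)
    (fun z hz => indicator_of_notMem hz _) (fun p _ => ?_) (fun p _ => ?_) (fun p hp z hz => ?_)
    (fun z hz => ?_) lam hc h0 χ hχ.1 (fun z hz => (hχ.2.1 z hz).mono fun _ e _ => e) hχ.2.2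
    hS.cs hI1 hI2
  · by_cases hz : z ∈ cell N T <;> simp [hz]
  · split_ifs <;> simp
  · split_ifs <;> simp
  · constructor
    · intro hz'
      have e : ∀ᶠ x in 𝓝 z, N x = N z := by
        filter_upwards [isOpen_ball.mem_nhds hz,
          (continuous_ct p (u p)).continuousAt.eventually (lt_mem_nhds hz')] with x e1 e2
        rw [(hr p hp e1).1 e2, (hr p hp hz).1 hz']
      simp only [indicator_apply, mem_cell T e, (hr p hp hz).1 hz', Pi.one_apply]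
    · intro hz'
      have e : ∀ᶠ x in 𝓝 z, N x = N z := by
        filter_upwards [isOpen_ball.mem_nhds hz,
          (continuous_ct p (u p)).continuousAt.eventually (gt_mem_nhds hz')] with x e1 e2
        rw [(hr p hp e1).2 e2, (hr p hp hz).2 hz']
      simp only [indicator_apply, mem_cell T e, (hr p hp hz).2 hz', Pi.one_apply]
  · filter_upwards [ev_cell T (h6 z hz)] with x hx
    simp only [indicator_apply, hx, mem_cell T (h6 z hz), Pi.one_apply]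

open Classical in
theorem Lev.parity (h : Lev K B w t P u N NL NR) (hK : IsCompact K)
    (hw : ∀ z, z ∉ K → ContDiffAt ℝ ∞ w z) (hBm : MeasurableSet B) (hBK : B ⊆ Kᶜ)
    (hex : ∀ η > 0, ∃ lam : ℝ → ℝ, Continuous lam ∧ (∀ x, η ≤ |x - t| → lam x = 0) ∧
      (∀ x, 0 ≤ lam x) ∧ 0 < ∫ x, lam x ∧ Stk K B w lam) (T : σ → Prop) :
    ∑ p ∈ P, (if T (NR p) then (1 : ℝ) else 0) = ∑ p ∈ P, if T (NL p) then (1 : ℝ) else 0 := by
  rw [← sub_eq_zero, ← Finset.sum_sub_distrib, ← abs_nonpos_iff]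
  refine le_of_forall_pos_le_add fun ε hε => ?_
  obtain ⟨η, hη, key⟩ := h.flux hK.isClosed hw hBm hBK (ψ := fun _ => 1)
    (fun _ _ => contDiffAt_const) hε
  obtain ⟨lam, hc, h0, hp, hI, hS⟩ := hex η hη
  obtain ⟨χ, hχ, -⟩ := h.cut hK T
  have e1 : ∀ z ∈ K, ∀ᶠ z' in 𝓝 z, χ z' = χ z := by
    intro z hz
    filter_upwards [hχ.2.1 z hz, ev_cell T (h.locK hz)] with x e e'
    rw [e, (hχ.2.1 z hz).self_of_nhds]
    simp only [indicator_apply, e', mem_cell T (h.locK hz), Pi.one_apply]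
  obtain ⟨s, hs⟩ := h.inf
  have e2 : ∀ᶠ z in cocompact ℂ, χ z = if T s then 1 else 0 := by
    filter_upwards [hχ.2.2, ev_inf_cell hs T] with z e e'
    simp only [e, indicator_apply, e', Pi.one_apply]
  have e3 : ∀ z, wdg (fun _ => (1 : ℝ)) w z = 0 := fun z => wdg_eq_zero_left (by simp)
  have := key T lam hc h0 hS χ hχ (by
    simpa using (integrable_wdg_of_loc hc hχ.1 hw e1 e2).integrableOn) (by simp [e3])
  simp only [one_mul, hS χ hχ.1 e1 ⟨_, e2⟩, e3, mul_zero, abs_zero, integral_zero, zero_add,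
    zero_sub, abs_neg, mul_one, abs_mul, abs_of_nonneg (hp _), abs_of_pos hI] at this
  rw [zero_add]
  exact le_of_mul_le_mul_left (by linarith) hI

end Vale.P116A
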