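import Mathlib

/-!
A permutation of a finite set with index functions is one cycle; telescoping along the cycle.

`cyc_of_index`: suppose q is not in the forward orbit of p (so p /= q). Let m >= 1 be the first
return time of p (injectivity on the finite set P gives a return; `Nat.find`). By induction
L (pi^[k] p) = L p for k < m, hence R p = R (pi^[m] p) = L (pi^[m-1] p) = L p, a contradiction.

`tele`: take the least k with pi^[k] p0 = p1; the points pi^[i] p0, i < k, are distinct (otherwise a
shorter k exists), lie in P and differ from p1; telescope (`dist_le_range_sum_dist` or induction)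
and compare sums with `Finset.sum_image` / `Finset.sum_le_sum_of_subset_of_nonneg`. For the second
claim take the least j with pi^[j] (pi p1) = p0; if pi^[i] (pi p1) = p1 for some i < j then
pi^[j - (i + 1)] (pi p1) = p0, contradicting minimality.
-/

namespace Vale.P116A

open Set

theorem cyc_of_index {α : Type*} [DecidableEq α] (P : Finset α) (π : α → α)
    (hπ : ∀ p ∈ P, π p ∈ P) (hinj : InjOn π P)
    (hidx : ∀ p ∈ P, ∀ q ∈ P, p ≠ q → ∃ L R : α → ℤ, (∀ x ∈ P, L x = R (π x)) ∧
      (∀ x ∈ P, x ≠ p → x ≠ q → L x = R x) ∧ L p ≠ R p) :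
    ∀ p ∈ P, ∀ q ∈ P, ∃ k : ℕ, π^[k] p = q := by
  intro p hp q hq
  by_contra hn
  have hn' : ∀ k, π^[k] p ≠ q := fun k h => hn ⟨k, h⟩
  have hm : MapsTo π (P : Set α) P := hπ
  have hk : ∀ k, π^[k] p ∈ P := fun k => hm.iterate k hp
  have hex : ∃ m, π^[m + 1] p = p := by
    obtain ⟨i, j, hij, e⟩ := P.finite_toSet.exists_lt_map_eq_of_forall_mem (f := fun k => π^[k] p) hk
    obtain ⟨d, rfl⟩ := Nat.exists_eq_add_of_lt hij
    refine ⟨d, ((hinj.iterate hm i) hp (hk _) ?_).symm⟩
    rw [← Function.iterate_add_apply, ← add_assoc]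
    exact e
  obtain ⟨L, R, h1, h2, h3⟩ := hidx p hp q hq (hn' 0)
  have key : ∀ k ≤ Nat.find hex, L (π^[k] p) = L p := by
    intro k
    induction k with
    | zero => exact fun _ => rfl
    | succ k ih =>
      intro hle
      rw [h2 _ (hk _) (Nat.find_min hex (by omega)) (hn' _), Function.iterate_succ_apply',
        ← h1 _ (hk _), ih (by omega)]
  have h4 := Nat.find_spec hex
  rw [Function.iterate_succ_apply'] at h4
  exact h3 (by rw [← key _ le_rfl, h1 _ (hk _), h4])

theorem tele_aux {α : Type*} [DecidableEq α] (P : Finset α) (π : α → α)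
    (hπ : ∀ p ∈ P, π p ∈ P) {a b c : α} (ha : a ∈ P) (f : α → ℝ) {k : ℕ} (hk : π^[k] a = b)
    (hb : ∀ i < k, π^[i] a ≠ b) (hc : ∀ i < k, π^[i] a ≠ c) :
    |f b - f a| ≤ ∑ p ∈ P.erase c, |f (π p) - f p| := by
  have hm : MapsTo π (P : Set α) P := hπ
  have h1 : ∀ i j, i < j → j < k → π^[i] a ≠ π^[j] a := fun i j hij hj e =>
    hb (k - j + i) (by omega) (by
      rw [Function.iterate_add_apply, e, ← Function.iterate_add_apply, Nat.sub_add_cancel hj.le, hk])
  have h2 : InjOn (fun i => π^[i] a) (Finset.range k) := fun i hi j hj e => by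
    have hi' := Finset.mem_range.1 (Finset.mem_coe.1 hi)
    have hj' := Finset.mem_range.1 (Finset.mem_coe.1 hj)
    rcases lt_trichotomy i j with h | h | h
    · exact absurd e (h1 i j h hj')
    · exact h
    · exact absurd e.symm (h1 j i h hi')
  have h3 := Finset.sum_range_sub (fun i => f (π^[i] a)) k
  simp only [Function.iterate_succ_apply', Function.iterate_zero, id, hk] at h3
  rw [← h3]
  refine (Finset.abs_sum_le_sum_abs _ _).trans ?_
  rw [← Finset.sum_image (f := fun p => |f (π p) - f p|) h2]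
  refine Finset.sum_le_sum_of_subset_of_nonneg (fun x hx => ?_) fun _ _ _ => abs_nonneg _
  obtain ⟨i, hi, rfl⟩ := Finset.mem_image.1 hx
  exact Finset.mem_erase.2 ⟨hc i (Finset.mem_range.1 hi), hm.iterate i ha⟩

theorem tele {α : Type*} [DecidableEq α] (P : Finset α) (π : α → α)
    (hπ : ∀ p ∈ P, π p ∈ P) (hcyc : ∀ p ∈ P, ∀ q ∈ P, ∃ k : ℕ, π^[k] p = q) {p0 p1 : α}
    (h0 : p0 ∈ P) (h1 : p1 ∈ P) (f : α → ℝ) :
    |f p1 - f p0| ≤ ∑ p ∈ P.erase p1, |f (π p) - f p| ∧
      |f (π p1) - f p0| ≤ ∑ p ∈ P.erase p1, |f (π p) - f p| := by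
  constructor
  · have h := hcyc p0 h0 p1 h1
    exact tele_aux P π hπ h0 f (Nat.find_spec h) (fun i hi => Nat.find_min h hi)
      fun i hi => Nat.find_min h hi
  · have h := hcyc (π p1) (hπ _ h1) p0 h0
    rw [abs_sub_comm]
    refine tele_aux P π hπ (hπ _ h1) f (Nat.find_spec h) (fun i hi => Nat.find_min h hi)
      fun i hi e => Nat.find_min h (m := Nat.find h - (i + 1)) (by omega) ?_
    have e2 : π^[i + 1] (π p1) = π p1 := by rw [Function.iterate_succ_apply', e]
    have e3 := Function.iterate_add_apply π (Nat.find h - (i + 1)) (i + 1) (π p1)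
    rw [e2, Nat.sub_add_cancel hi, Nat.find_spec h] at e3
    exact e3.symm

end Vale.P116A
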