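import Mathlib

/-!
Coordinates along and across a direction `u` at a point `p` (master lemma block).
-/

namespace Vale.P116A

open ComplexConjugate

/-- Coordinate of `z` along the unit direction `u`, origin `p`. -/
noncomputable def cs (p u z : ℂ) : ℝ := ((z - p) * conj u).re

/-- Coordinate of `z` across the unit direction `u` (positive on the left), origin `p`. -/
noncomputable def ct (p u z : ℂ) : ℝ := ((z - p) * conj u).im

lemma continuous_cs (p u : ℂ) : Continuous (cs p u) := by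
  unfold cs; fun_prop

lemma continuous_ct (p u : ℂ) : Continuous (ct p u) := by
  unfold ct; fun_prop

lemma mul_conj_self_of_norm {u : ℂ} (hu : ‖u‖ = 1) : u * conj u = 1 := by
  rw [Complex.mul_conj, Complex.normSq_eq_norm_sq, hu]; simp

lemma eq_of_cs_ct {u : ℂ} (hu : ‖u‖ = 1) (p z : ℂ) :
    z = p + ((cs p u z : ℂ) + (ct p u z : ℂ) * Complex.I) * u := by
  unfold cs ct
  rw [Complex.re_add_im, mul_assoc, mul_comm (conj u) u, mul_conj_self_of_norm hu]; ring

lemma cs_line {u : ℂ} (hu : ‖u‖ = 1) (p : ℂ) (s : ℝ) : cs p u (p + s * u) = s := by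
  unfold cs
  rw [add_sub_cancel_left, mul_assoc, mul_conj_self_of_norm hu]; simp

lemma ct_line {u : ℂ} (hu : ‖u‖ = 1) (p : ℂ) (s : ℝ) : ct p u (p + s * u) = 0 := by
  unfold ct
  rw [add_sub_cancel_left, mul_assoc, mul_conj_self_of_norm hu]; simp

lemma eq_line_of_ct {u : ℂ} (hu : ‖u‖ = 1) {p z : ℂ} (h : ct p u z = 0) :
    z = p + (cs p u z : ℂ) * u := by
  have := eq_of_cs_ct hu p z
  rw [h] at this; simpa using this

lemma norm_sub_le_cs_ct {u : ℂ} (hu : ‖u‖ = 1) (p z : ℂ) :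
    ‖z - p‖ ≤ |cs p u z| + |ct p u z| := by
  have h : ‖z - p‖ = ‖(z - p) * conj u‖ := by rw [norm_mul, Complex.norm_conj, hu, mul_one]
  rw [h]; exact Complex.norm_le_abs_re_add_abs_im _

lemma abs_cs_le {u : ℂ} (hu : ‖u‖ = 1) (p z : ℂ) : |cs p u z| ≤ ‖z - p‖ := by
  have h : ‖z - p‖ = ‖(z - p) * conj u‖ := by rw [norm_mul, Complex.norm_conj, hu, mul_one]
  rw [h]; exact Complex.abs_re_le_norm _

lemma abs_ct_le {u : ℂ} (hu : ‖u‖ = 1) (p z : ℂ) : |ct p u z| ≤ ‖z - p‖ := by
  have h : ‖z - p‖ = ‖(z - p) * conj u‖ := by rw [norm_mul, Complex.norm_conj, hu, mul_one]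
  rw [h]; exact Complex.abs_im_le_norm _

lemma ct_neg (p u z : ℂ) : ct p (-u) z = - ct p u z := by
  unfold ct; simp

lemma cs_neg (p u z : ℂ) : cs p (-u) z = - cs p u z := by
  unfold cs; simp

end Vale.P116A
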