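import Vale.Agent.P116A.MLStrip2

/-!
The flux formula: the pairing of `psi * chi` with the levels of `w` near `t` inside a set `B`,
in terms of the values of `psi` at the points where the level set crosses the boundary of a set.
-/

namespace Vale.P116A

open Set Filter Topology Metric MeasureTheory
open scoped NNReal ContDiff
open ComplexConjugate

lemma contDiff_ct (p u : ℂ) : ContDiff ℝ ∞ (ct p u) := by
  unfold ct
  exact Complex.imCLM.contDiff.comp ((contDiff_id.sub contDiff_const).mul contDiff_const)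

lemma wdg_eq_zero_left {a b : ℂ → ℝ} {z : ℂ} (h : fderiv ℝ a z = 0) : wdg a b z = 0 := by
  simp [wdg, h]

lemma continuousAt_wdg {a b : ℂ → ℝ} {z : ℂ} (ha : ContDiffAt ℝ ∞ a z) (hb : ContDiffAt ℝ ∞ b z) :
    ContinuousAt (wdg a b) z := by
  have h1 := ha.continuousAt_fderiv (by simp)
  have h2 := hb.continuousAt_fderiv (by simp)
  unfold wdg
  exact ((h1.clm_apply continuousAt_const).mul (h2.clm_apply continuousAt_const)).sub
    ((h1.clm_apply continuousAt_const).mul (h2.clm_apply continuousAt_const))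

lemma integrable_wdg_of_compact {K : Set ℂ} {a w : ℂ → ℝ} {lam : ℝ → ℝ} (hc : Continuous lam)
    (ha : ∀ z, z ∉ K → ContDiffAt ℝ ∞ a z) (hw : ∀ z, z ∉ K → ContDiffAt ℝ ∞ w z)
    (hac : HasCompactSupport a) (haK : tsupport a ⊆ Kᶜ) :
    Integrable fun z => lam (w z) * wdg a w z := by
  refine IntegrableOn.integrable_of_forall_notMem_eq_zero (s := tsupport a)
    (ContinuousOn.integrableOn_compact hac fun z hz => ?_) fun z hz => ?_
  · exact ((hc.continuousAt.comp (hw z (haK hz)).continuousAt).mul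
      (continuousAt_wdg (ha z (haK hz)) (hw z (haK hz)))).continuousWithinAt
  · rw [wdg_eq_zero_left, mul_zero]
    rw [(notMem_tsupport_iff_eventuallyEq.1 hz).fderiv_eq]; simp

lemma ml_exists_cut {A O : Set ℂ} (hA : IsCompact A) (hO : IsOpen O) (h : A ⊆ O) :
    ∃ ψ : ℂ → ℝ, ContDiff ℝ ∞ ψ ∧ HasCompactSupport ψ ∧ tsupport ψ ⊆ O ∧
      (∀ z, 0 ≤ ψ z ∧ ψ z ≤ 1) ∧ ∀ᶠ z in 𝓝ˢ A, ψ z = 1 := by
  obtain ⟨L, hL, h1, h2⟩ := exists_compact_between hA hO h
  obtain ⟨f, f1, f2, f3⟩ := exists_contMDiffMap_one_nhds_of_subset_interior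
    (modelWithCornersSelf ℝ ℂ) (n := ⊤) hA.isClosed h1
  have h3 : tsupport f ⊆ L :=
    closure_minimal (fun x hx => by_contra fun hx' => hx (f2 x hx')) hL.isClosed
  exact ⟨f, f.contMDiff.contDiff, hL.of_isClosed_subset (isClosed_tsupport _) h3, h3.trans h2,
    fun z => f3 z, f1⟩

lemma exists_level_cut (t : ℝ) {η : ℝ} (hη : 0 < η) : ∃ k : ℝ → ℝ, ContDiff ℝ ∞ k ∧
    (∀ x, |x - t| < 2 * η → k x = 1) ∧ ∀ x, 3 * η < |x - t| → k x = 0 := by
  let f : ContDiffBump t := ⟨2 * η, 3 * η, by linarith, by linarith⟩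
  refine ⟨f, f.contDiff, fun x hx => f.one_of_mem_closedBall ?_, fun x hx => f.zero_of_le_dist ?_⟩
  · rw [mem_closedBall, Real.dist_eq]; exact hx.le
  · rw [Real.dist_eq]; exact hx.le

theorem flux_core {K : Set ℂ} (hK : IsClosed K) {w ψ : ℂ → ℝ}
    (hw : ∀ z, z ∉ K → ContDiffAt ℝ ∞ w z) (hψ : ∀ z, z ∉ K → ContDiffAt ℝ ∞ ψ z) {B : Set ℂ}
    (hBm : MeasurableSet B) (hBK : B ⊆ Kᶜ) {t : ℝ} {P : Finset ℂ} {u : ℂ → ℂ} {r δ η : ℝ}
    {L Lw : ℝ≥0} (hδ : 0 < δ) (hδr : 2 * δ ≤ r) (hη : 0 < η) (hu : ∀ p ∈ P, ‖u p‖ = 1)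
    (hball : ∀ p ∈ P, ball p (3 * r) ⊆ Kᶜ)
    (hLψ : ∀ p ∈ P, LipschitzOnWith L ψ (ball p (3 * r)))
    (hLw : ∀ p ∈ P, LipschitzOnWith Lw w (ball p (3 * r)))
    (hdisj : ∀ p ∈ P, ∀ q ∈ P, p ≠ q → Disjoint (ball p (3 * r)) (ball q (3 * r)))
    (hlo : ∀ p ∈ P, ∀ z, |ct p (u p) z| ≤ 2 * δ → -r ≤ cs p (u p) z → cs p (u p) z ≤ -(r / 2) →
      w z ≤ t - 4 * η)
    (hhi : ∀ p ∈ P, ∀ z, |ct p (u p) z| ≤ 2 * δ → r / 2 ≤ cs p (u p) z → cs p (u p) z ≤ r →
      t + 4 * η ≤ w z)
    (hPB : ∀ p ∈ P, ∀ z ∈ ball p (3 * r), |w z - t| < 4 * η → z ∈ B)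
    {O C : Set ℂ} (hO : IsOpen O) (hC0 : IsCompact C) (hCO : C ⊆ O ∩ Kᶜ)
    (hOB : ∀ z ∈ O, z ∈ B → 4 * η ≤ |w z - t|)
    {Y : Set ℂ} (hYm : MeasurableSet Y) {ι : ℂ → ℝ}
    (hι : ∀ z, |ι z| ≤ 1) (hιY : ∀ z, z ∉ Y → ι z = 0) {α β : ℂ → ℝ}
    (hα : ∀ p ∈ P, |α p| ≤ 1) (hβ : ∀ p ∈ P, |β p| ≤ 1)
    (hside : ∀ p ∈ P, ∀ z ∈ ball p (3 * r),
      (0 < ct p (u p) z → ι z = α p) ∧ (ct p (u p) z < 0 → ι z = β p))
    (hloc : ∀ z, z ∉ K → |w z - t| < 4 * η → z ∉ C → (∀ p ∈ P, z ∉ ball p δ) →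
      ∀ᶠ z' in 𝓝 z, ι z' = ι z)
    {lam : ℝ → ℝ} (hc : Continuous lam) (h0 : ∀ x, η ≤ |x - t| → lam x = 0)
    {χ : ℂ → ℝ} (hχ : ContDiff ℝ ∞ χ) (hχK : ∀ z ∈ K, ∀ᶠ z' in 𝓝 z, z' ∉ K → χ z' = ι z')
    (hχi : ∀ᶠ z in cocompact ℂ, χ z = ι z)
    (hSt : ∀ a : ℂ → ℝ, (∀ z, z ∉ K → ContDiffAt ℝ ∞ a z) → HasCompactSupport a →
      tsupport a ⊆ Kᶜ → ∫ z in B, lam (w z) * wdg a w z = 0)
    (hI1 : IntegrableOn (fun z => lam (w z) * wdg (fun z => ψ z * χ z) w z) B)
    (hI2 : IntegrableOn (fun z => lam (w z) * wdg ψ w z) B) :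
    |(∫ z in B, lam (w z) * wdg (fun z => ψ z * χ z) w z) -
        (∫ x, lam x) * ∑ p ∈ P, (β p - α p) * ψ p| ≤
      (∫ z in Y ∩ B, |lam (w z) * wdg ψ w z|) + 12 * P.card * (∫ x, |lam x|) * L * r := by
  classical
  have hr : 0 < r := by linarith
  obtain ⟨R, ρ, Lρ, hRc, hRd, hρL, hρ0, hρs, hρ1, hR0, hR1, hRb⟩ := exists_ramp hδ
  set D : ℝ := ∫ x, lam x with hD
  set D' : ℝ := ∫ x, |lam x| with hD'
  set rect : ℂ → Set ℂ := fun p => {z | |cs p (u p) z| < r ∧ |ct p (u p) z| < 2 * δ} with hrect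
  set crect : ℂ → Set ℂ := fun p => {z | |cs p (u p) z| ≤ r ∧ |ct p (u p) z| ≤ δ} with hcrect
  have hro : ∀ p, IsOpen (rect p) := fun p =>
    (isOpen_lt (continuous_cs _ _).abs continuous_const).inter
      (isOpen_lt (continuous_ct _ _).abs continuous_const)
  have hrc : ∀ p, IsClosed (crect p) := fun p =>
    (isClosed_le (continuous_cs _ _).abs continuous_const).inter
      (isClosed_le (continuous_ct _ _).abs continuous_const)
  have hrb : ∀ p ∈ P, rect p ⊆ ball p (3 * r) := fun p hp z hz =>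
    mem_ball_of_cs_ct (hu p hp) hr hz.1.le (by linarith [hz.2])
  have hcb : ∀ p ∈ P, crect p ⊆ ball p (3 * r) := fun p hp z hz =>
    mem_ball_of_cs_ct (hu p hp) hr hz.1 (by linarith [hz.2])
  have hbc : ∀ p ∈ P, ball p δ ⊆ crect p := fun p hp z hz => by
    rw [mem_ball_iff_norm] at hz
    exact ⟨by linarith [abs_cs_le (hu p hp) p z], by linarith [abs_ct_le (hu p hp) p z]⟩
  set F : ℂ → ℝ → ℝ := fun p τ => α p * R τ + β p * R (-τ) with hF
  have hFd : ∀ p τ, HasDerivAt (F p) (α p * ρ τ - β p * ρ (-τ)) τ := by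
    intro p τ
    have h1 := (hRd τ).const_mul (α p)
    have h2 := (((hRd (-τ)).comp τ (hasDerivAt_neg τ)).const_mul (β p))
    have h3 : α p * ρ τ - β p * ρ (-τ) = α p * ρ τ + β p * (ρ (-τ) * -1) := by ring
    rw [h3]
    exact h1.add h2
  have hFc : ∀ p, ContDiff ℝ ∞ (F p) := fun p =>
    (contDiff_const.mul hRc).add (contDiff_const.mul (hRc.comp contDiff_neg))
  set lm : ℂ → ℝ := fun z => ι z + ∑ p ∈ P, (rect p).indicator
    (fun z => F p (ct p (u p) z) - ι z) z with hlam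
  -- local form inside a rectangle
  have hA : ∀ p ∈ P, ∀ z ∈ rect p, lm =ᶠ[𝓝 z] fun x => F p (ct p (u p) x) := by
    intro p hp z hz
    filter_upwards [(hro p).mem_nhds hz] with x hx
    simp only [hlam]
    rw [Finset.sum_eq_single_of_mem p hp]
    · rw [indicator_of_mem hx]; ring
    · intro q hq hqp
      refine indicator_of_notMem (fun hxq => ?_) _
      exact Set.disjoint_left.1 (hdisj q hq p hp hqp) (hrb q hq hxq) (hrb p hp hx)
  have hB0 : ∀ z, (∀ p ∈ P, z ∉ crect p) → lm z = ι z := by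
    intro z hz
    simp only [hlam]
    rw [Finset.sum_eq_zero, add_zero]
    intro p hp
    by_cases hzp : z ∈ rect p
    · rw [indicator_of_mem hzp]
      have h1 : δ < |ct p (u p) z| := by
        by_contra h
        exact hz p hp ⟨hzp.1.le, not_lt.1 h⟩
      have hs := hside p hp z (hrb p hp hzp)
      rcases lt_abs.1 h1 with h | h
      · rw [hs.1 (by linarith)]
        simp only [hF, hR1 _ h.le, hR0 _ (show -ct p (u p) z ≤ 0 by linarith)]; ring
      · rw [hs.2 (by linarith)]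
        simp only [hF, hR1 _ h.le, hR0 _ (show ct p (u p) z ≤ 0 by linarith)]; ring
    · exact indicator_of_notMem hzp _
  have hB1 : ∀ z, (∀ p ∈ P, z ∉ crect p) → lm =ᶠ[𝓝 z] ι := by
    intro z h2
    have h3 : ∀ᶠ x in 𝓝 z, ∀ p ∈ P, x ∉ crect p :=
      (Finset.eventually_all P).2 fun p hp => (hrc p).isOpen_compl.mem_nhds (h2 p hp)
    filter_upwards [h3] with x hx using hB0 x hx
  have hB : ∀ z, z ∉ K → |w z - t| < 4 * η → z ∉ C → (∀ p ∈ P, z ∉ crect p) →
      lm =ᶠ[𝓝 z] fun _ => ι z := by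
    intro z hz h1 hzC h2
    filter_upwards [hB1 z h2, hloc z hz h1 hzC fun p hp h => h2 p hp (hbc p hp h)] with x hx hx'
    rw [hx, hx']
  have hC : ∀ z, |w z - t| < 4 * η → (∀ p ∈ P, z ∉ rect p) → ∀ p ∈ P, z ∉ crect p := by
    intro z h1 h2 p hp hz
    have h3 : |cs p (u p) z| = r := by
      by_contra h
      exact h2 p hp ⟨lt_of_le_of_ne hz.1 h, by linarith [hz.2]⟩
    have h4 : |ct p (u p) z| ≤ 2 * δ := by linarith [hz.2]
    rw [abs_lt] at h1
    rcases (abs_eq hr.le).1 h3 with h | h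
    · linarith [hhi p hp z h4 (by linarith) h.le]
    · linarith [hlo p hp z h4 h.ge (by linarith)]
  have hlamι : ∀ z, |lm z| ≤ |ι z| := by
    intro z
    by_cases h : ∃ p ∈ P, z ∈ rect p
    · obtain ⟨p, hp, hz⟩ := h
      rw [(hA p hp z hz).eq_of_nhds]
      have hs := hside p hp z (hrb p hp hz)
      rcases lt_trichotomy (ct p (u p) z) 0 with h | h | h
      · rw [hs.2 h]
        simp only [hF, hR0 _ h.le, mul_zero, zero_add, abs_mul, abs_of_nonneg (hRb _).1]
        exact mul_le_of_le_one_right (abs_nonneg _) (hRb _).2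
      · simp [hF, h, hR0 0 le_rfl]
      · rw [hs.1 h]
        simp only [hF, hR0 _ (show -ct p (u p) z ≤ 0 by linarith), mul_zero, add_zero, abs_mul,
          abs_of_nonneg (hRb _).1]
        exact mul_le_of_le_one_right (abs_nonneg _) (hRb _).2
    · push Not at h
      simp only [hlam]
      rw [Finset.sum_eq_zero (fun p hp => indicator_of_notMem (h p hp) _), add_zero]
  -- the cutoffs
  obtain ⟨k, hkc, hk1, hk0⟩ := exists_level_cut t hη
  obtain ⟨θ, hθc, -, hθs, -, hθ1⟩ := ml_exists_cut hC0 (hO.inter hK.isOpen_compl) hCO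
  set a0 : ℂ → ℝ := fun z => (1 - θ z) * (k (w z) * (ψ z * (χ z - lm z))) with ha0
  set a : ℂ → ℝ := Kᶜ.indicator a0 with ha
  have haa : ∀ z, z ∉ K → a =ᶠ[𝓝 z] a0 := fun z hz => by
    filter_upwards [hK.isOpen_compl.mem_nhds hz] with x hx using indicator_of_mem hx _
  have hwc : ∀ z, z ∉ K → ContinuousAt (fun x => |w x - t|) z := fun z hz =>
    ((hw z hz).continuousAt.sub continuousAt_const).abs
  have haL : ∀ z, z ∉ K → ContDiffAt ℝ ∞ a z := by
    intro z hz
    refine ContDiffAt.congr_of_eventuallyEq ?_ (haa z hz)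
    by_cases hzC : z ∈ C
    · refine (contDiffAt_const (c := (0 : ℝ))).congr_of_eventuallyEq ?_
      filter_upwards [hθ1.filter_mono (nhds_le_nhdsSet hzC)] with x hx
      simp only [ha0, hx, sub_self, zero_mul]
    by_cases h1 : |w z - t| < 4 * η
    · refine (contDiffAt_const.sub hθc.contDiffAt).mul ((hkc.contDiffAt.comp z (hw z hz)).mul
        ((hψ z hz).mul (hχ.contDiffAt.sub ?_)))
      by_cases h : ∃ p ∈ P, z ∈ rect p
      · obtain ⟨p, hp, hzp⟩ := h
        exact ((hFc p).comp (contDiff_ct p (u p))).contDiffAt.congr_of_eventuallyEq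
          (hA p hp z hzp)
      · push Not at h
        exact contDiffAt_const.congr_of_eventuallyEq (hB z hz h1 hzC (hC z h1 h))
    · refine (contDiffAt_const (c := (0 : ℝ))).congr_of_eventuallyEq ?_
      have : ∀ᶠ x in 𝓝 z, 3 * η < |w x - t| :=
        (hwc z hz).eventually (lt_mem_nhds (by linarith [not_lt.1 h1]))
      filter_upwards [this] with x hx
      simp only [ha0, hk0 _ hx, zero_mul, mul_zero]
  have hazero : ∀ z, (z ∉ K → χ z = lm z) → a z = 0 := by
    intro z h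
    by_cases hz : z ∈ K
    · exact indicator_of_notMem (notMem_compl_iff.2 hz) _
    · rw [(haa z hz).eq_of_nhds]; simp [ha0, h hz]
  have hac : HasCompactSupport a := by
    have hbd : Bornology.IsBounded (⋃ p ∈ P, ball p (3 * r)) :=
      (Bornology.isBounded_biUnion_finset P).2 fun p _ => isBounded_ball
    obtain ⟨S, hS, hS'⟩ := mem_cocompact.1 hχi
    refine HasCompactSupport.intro (hS.union hbd.isCompact_closure) fun z hz => hazero z fun _ => ?_
    rw [mem_union, not_or] at hz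
    rw [hB0 z fun p hp h => hz.2 (subset_closure (mem_iUnion₂.2 ⟨p, hp, hcb p hp h⟩))]
    exact hS' hz.1
  have haK : tsupport a ⊆ Kᶜ := by
    intro z hz hzK
    refine (notMem_tsupport_iff_eventuallyEq.2 ?_) hz
    filter_upwards [hχK z hzK, hB1 z fun p hp h => hball p hp (hcb p hp h) hzK] with x h1 h2
    exact hazero x fun hx => by rw [h1 hx, h2]
  have hIa : IntegrableOn (fun z => lam (w z) * wdg a w z) B :=
    (integrable_wdg_of_compact hc haL hw hac haK).integrableOn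
  have hSa := hSt a haL hac haK
  -- the strip terms
  have hst : ∀ p ∈ P, ∀ ρ' : ℝ → ℝ, LipschitzWith Lρ ρ' → (∀ τ, 0 ≤ ρ' τ) →
      (∀ τ, δ ≤ |τ| → ρ' τ = 0) → ∫ τ, ρ' τ = 1 →
      IntegrableOn (fun z => lam (w z) * (ψ z * ρ' (ct p (u p) z) * fderiv ℝ w z (u p)))
        {z | |cs p (u p) z| < r} ∧
      |(∫ z in {z | |cs p (u p) z| < r},
        lam (w z) * (ψ z * ρ' (ct p (u p) z) * fderiv ℝ w z (u p))) - D * ψ p| ≤
        6 * D' * L * r := by
    intro p hp ρ' h1 h2 h3 h4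
    refine strip_signed p (hu p hp) hδ (by linarith) (hLψ p hp) (hLw p hp)
      (fun z hz => (hw z (hball p hp hz)).differentiableAt (by simp)) h1 h2 h3 h4 hη ?_ ?_ hc h0
    · intro z h5 h6 h7
      linarith [hlo p hp z (by linarith) h6 h7]
    · intro z h5 h6 h7
      linarith [hhi p hp z (by linarith) h6 h7]
  have hneg : LipschitzWith Lρ (fun τ => ρ (-τ)) := by
    refine LipschitzWith.of_dist_le_mul fun x y => ?_
    simpa using hρL.dist_le_mul (-x) (-y)
  have hst1 := fun p hp => hst p hp ρ hρL hρ0 hρs hρ1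
  have hst2 := fun p hp => hst p hp (fun τ => ρ (-τ)) hneg (fun τ => hρ0 _)
    (fun τ h => hρs _ (by rwa [abs_neg])) (by rw [integral_neg_eq_self]; exact hρ1)
  have hSm : ∀ p, MeasurableSet {z | |cs p (u p) z| < r} := fun p =>
    (isOpen_lt (continuous_cs _ _).abs continuous_const).measurableSet
  set E : ℂ → ℂ → ℝ := fun p => {z | |cs p (u p) z| < r}.indicator fun z =>
    β p * (lam (w z) * (ψ z * ρ (-ct p (u p) z) * fderiv ℝ w z (u p))) -
      α p * (lam (w z) * (ψ z * ρ (ct p (u p) z) * fderiv ℝ w z (u p))) with hE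
  have hEi : ∀ p ∈ P, Integrable (E p) := fun p hp =>
    (integrable_indicator_iff (hSm p)).2
      (((hst2 p hp).1.const_mul _).sub ((hst1 p hp).1.const_mul _))
  have hE0 : ∀ p ∈ P, ∀ z, z ∉ rect p → E p z = 0 := by
    intro p hp z hz
    by_cases h : |cs p (u p) z| < r
    · have h1 : δ ≤ |ct p (u p) z| := by
        by_contra h'
        exact hz ⟨h, by linarith [not_le.1 h']⟩
      simp only [hE]
      rw [indicator_of_mem (show z ∈ {z | |cs p (u p) z| < r} from h), hρs _ h1,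
        hρs _ (by rwa [abs_neg])]
      ring
    · exact indicator_of_notMem (show z ∉ {z | |cs p (u p) z| < r} from h) _
  have hE1 : ∀ p, ∀ z, lam (w z) = 0 → E p z = 0 := by
    intro p z h
    simp only [hE]
    rw [indicator_apply]
    simp [h]
  have hEb : ∀ p ∈ P, |(∫ z in B, E p z) - D * ((β p - α p) * ψ p)| ≤ 12 * D' * L * r := by
    intro p hp
    rw [setIntegral_eq_integral_of_forall_compl_eq_zero (fun z hz => by
      by_cases h : z ∈ rect p
      · refine hE1 p z (h0 _ ?_)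
        by_contra h'
        exact hz (hPB p hp z (hrb p hp h) (by linarith [not_le.1 h']))
      · exact hE0 p hp z h)]
    simp only [hE]
    rw [integral_indicator (hSm p), integral_sub ((hst2 p hp).1.const_mul _)
      ((hst1 p hp).1.const_mul _), integral_const_mul, integral_const_mul]
    have h1 := (hst1 p hp).2
    have h2 := (hst2 p hp).2
    set I1 := ∫ z in {z | |cs p (u p) z| < r},
      lam (w z) * (ψ z * ρ (ct p (u p) z) * fderiv ℝ w z (u p))
    set I2 := ∫ z in {z | |cs p (u p) z| < r},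
      lam (w z) * (ψ z * ρ (-ct p (u p) z) * fderiv ℝ w z (u p))
    rw [show β p * I2 - α p * I1 - D * ((β p - α p) * ψ p) =
      β p * (I2 - D * ψ p) - α p * (I1 - D * ψ p) by ring]
    refine (abs_sub _ _).trans ?_
    rw [abs_mul, abs_mul]
    have h3 := mul_le_mul (hβ p hp) h2 (abs_nonneg _) zero_le_one
    have h4 := mul_le_mul (hα p hp) h1 (abs_nonneg _) zero_le_one
    linarith
  -- the pointwise identity
  set H : ℂ → ℝ := fun z => lam (w z) * wdg (fun z => ψ z * χ z) w z - lam (w z) * wdg a w z -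
    ∑ p ∈ P, E p z with hH
  have hHb : ∀ z, z ∈ B → |H z| ≤ Y.indicator (fun z => |lam (w z) * wdg ψ w z|) z := by
    intro z hzB
    have hz : z ∉ K := hBK hzB
    have hψz : DifferentiableAt ℝ ψ z := (hψ z hz).differentiableAt (by simp)
    have hχz : DifferentiableAt ℝ χ z := hχ.differentiable (by simp) z
    have hfin : H z = lm z * (lam (w z) * wdg ψ w z) →
        |H z| ≤ Y.indicator (fun z => |lam (w z) * wdg ψ w z|) z := by
      intro h
      rw [h, abs_mul]
      by_cases hzY : z ∈ Y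
      · rw [indicator_of_mem hzY]
        exact mul_le_of_le_one_left (abs_nonneg _) ((hlamι z).trans (hι z))
      · rw [indicator_of_notMem hzY]
        have := hlamι z
        rw [hιY z hzY, abs_zero] at this
        rw [le_antisymm this (abs_nonneg _), zero_mul]
    apply hfin
    by_cases h1 : η ≤ |w z - t|
    · simp only [hH, h0 _ h1, zero_mul, mul_zero]
      rw [Finset.sum_eq_zero fun p _ => hE1 p z (h0 _ h1)]
      simp
    · have h2 : |w z - t| < 2 * η := by linarith [not_le.1 h1]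
      have hzO : z ∉ O := fun h => by linarith [hOB z h hzB]
      have hθ0 : θ =ᶠ[𝓝 z] 0 := notMem_tsupport_iff_eventuallyEq.1 fun h => hzO (hθs h).1
      have h3 : a =ᶠ[𝓝 z] fun x => ψ x * (χ x - lm x) := by
        filter_upwards [haa z hz, (hwc z hz).eventually (gt_mem_nhds h2), hθ0] with x e hx e'
        simp only [e, ha0, hk1 _ hx, one_mul, e', Pi.zero_apply, sub_zero]
      by_cases h : ∃ p ∈ P, z ∈ rect p
      · obtain ⟨p, hp, hzp⟩ := h
        have h4 : a =ᶠ[𝓝 z] fun x => ψ x * (χ x - F p (ct p (u p) x)) := by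
          filter_upwards [h3, hA p hp z hzp] with x e1 e2
          rw [e1, e2]
        simp only [hH]
        rw [wdg_congr_left h4, wdg_mul_sub hψz hχz (hFd p _), (hA p hp z hzp).eq_of_nhds,
          Finset.sum_eq_single_of_mem p hp]
        · simp only [hE]
          rw [indicator_of_mem (show z ∈ {z | |cs p (u p) z| < r} from hzp.1)]
          ring
        · intro q hq hqp
          exact hE0 q hq z fun hzq =>
            Set.disjoint_left.1 (hdisj q hq p hp hqp) (hrb q hq hzq) (hrb p hp hzp)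
      · push Not at h
        have h5 := hB z hz (by linarith) (fun h' => hzO (hCO h').1) (hC z (by linarith) h)
        have h4 : a =ᶠ[𝓝 z] fun x => ψ x * (χ x - (fun _ : ℝ => ι z) (ct 0 1 x)) := by
          filter_upwards [h3, h5] with x e1 e2
          rw [e1, e2]
        simp only [hH]
        rw [wdg_congr_left h4, wdg_mul_sub (F := fun _ => ι z) (p := 0) (u := 1) hψz hχz
          (hasDerivAt_const _ _), h5.eq_of_nhds,
          Finset.sum_eq_zero fun p hp => hE0 p hp z (h p hp)]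
        ring
  have hEi' : ∀ p ∈ P, Integrable (E p) (volume.restrict B) := fun p hp =>
    (hEi p hp).integrableOn
  have hHI : ∫ z in B, H z = (∫ z in B, lam (w z) * wdg (fun z => ψ z * χ z) w z) -
      ∑ p ∈ P, ∫ z in B, E p z := by
    simp only [hH]
    have h1 : Integrable (fun z => lam (w z) * wdg (fun z => ψ z * χ z) w z -
      lam (w z) * wdg a w z) (volume.restrict B) := hI1.sub hIa
    rw [integral_sub h1 (integrable_finsetSum P hEi'), integral_sub hI1 hIa, hSa,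
      integral_finsetSum P hEi', sub_zero]
  have hHle : |∫ z in B, H z| ≤ ∫ z in Y ∩ B, |lam (w z) * wdg ψ w z| := by
    rw [← Real.norm_eq_abs, ← Measure.restrict_restrict hYm, ← integral_indicator hYm]
    refine norm_integral_le_of_norm_le (hI2.abs.indicator hYm) ?_
    exact (ae_restrict_iff' hBm).2 (Eventually.of_forall hHb)
  have hsum : |(∑ p ∈ P, ∫ z in B, E p z) - D * ∑ p ∈ P, (β p - α p) * ψ p| ≤
      12 * P.card * D' * L * r := by
    rw [Finset.mul_sum, ← Finset.sum_sub_distrib]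
    refine (Finset.abs_sum_le_sum_abs _ _).trans ((Finset.sum_le_sum hEb).trans ?_)
    rw [Finset.sum_const, nsmul_eq_mul]; apply le_of_eq; ring
  rw [hHI] at hHle
  calc _ = |((∫ z in B, lam (w z) * wdg (fun z => ψ z * χ z) w z) - ∑ p ∈ P, ∫ z in B, E p z) +
        ((∑ p ∈ P, ∫ z in B, E p z) - D * ∑ p ∈ P, (β p - α p) * ψ p)| := by congr 1; ring
    _ ≤ _ := (abs_add_le _ _).trans (add_le_add hHle hsum)

end Vale.P116A
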