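import Vale.Agent.P116A.MLFlux

/-!
The flux formula with the constants chosen.
-/

namespace Vale.P116A

open Set Filter Topology Metric MeasureTheory
open scoped NNReal ContDiff

lemma ev_ball {p : ℂ} {s : Set ℂ} (hs : s ∈ 𝓝 p) : ∀ᶠ r in 𝓝[>] (0 : ℝ), ball p (3 * r) ⊆ s := by
  obtain ⟨ε, hε, h⟩ := Metric.mem_nhds_iff.1 hs
  filter_upwards [Ioo_mem_nhdsGT (show (0 : ℝ) < ε / 3 by linarith)] with r hr
  exact (ball_subset_ball (by linarith [hr.2])).trans h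

lemma ev_le {c : ℝ} (hc : 0 < c) : ∀ᶠ r in 𝓝[>] (0 : ℝ), r ≤ c := by
  filter_upwards [Ioo_mem_nhdsGT hc] with r hr using hr.2.le

lemma line_mem_ball {p u : ℂ} (hu : ‖u‖ = 1) {s R : ℝ} (h : |s| < R) : p + s * u ∈ ball p R := by
  rw [mem_ball_iff_norm, add_sub_cancel_left, norm_mul, hu, mul_one, Complex.norm_real]
  exact h

lemma strictMonoOn_line {w : ℂ → ℝ} {p u : ℂ} {a b : ℝ}
    (h : ∀ s ∈ Icc a b, DifferentiableAt ℝ w (p + s * u) ∧ 0 < fderiv ℝ w (p + s * u) u) :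
    StrictMonoOn (fun s : ℝ => w (p + s * u)) (Icc a b) := by
  have hd : ∀ s ∈ Icc a b, HasDerivAt (fun s : ℝ => w (p + s * u))
      (fderiv ℝ w (p + s * u) u) s := by
    intro s hs
    have h1 : HasDerivAt (fun s : ℝ => p + s * u) u s := by
      simpa using ((Complex.ofRealCLM.hasDerivAt (x := s)).mul_const u).const_add p
    exact (h s hs).1.hasFDerivAt.comp_hasDerivAt s h1
  refine strictMonoOn_of_deriv_pos (convex_Icc a b)
    (fun s hs => (hd s hs).continuousAt.continuousWithinAt) fun s hs => ?_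
  rw [(hd s (interior_subset hs)).deriv]
  exact (h s (interior_subset hs)).2

lemma ev_fderiv_pos {w : ℂ → ℝ} {p u : ℂ} (hw : ContDiffAt ℝ ∞ w p) (h : 0 < fderiv ℝ w p u) :
    ∀ᶠ z in 𝓝 p, 0 < fderiv ℝ w z u :=
  ((hw.continuousAt_fderiv (by simp)).clm_apply continuousAt_const).eventually (lt_mem_nhds h)

theorem flux {K : Set ℂ} (hK : IsClosed K) {w ψ : ℂ → ℝ}
    (hw : ∀ z, z ∉ K → ContDiffAt ℝ ∞ w z) (hψ : ∀ z, z ∉ K → ContDiffAt ℝ ∞ ψ z) {B : Set ℂ}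
    (hBm : MeasurableSet B) (hBK : B ⊆ Kᶜ) {t : ℝ} {P : Finset ℂ} {u : ℂ → ℂ}
    (hP : ∀ p ∈ P, p ∉ K ∧ w p = t ∧ ‖u p‖ = 1 ∧ 0 < fderiv ℝ w p (u p) ∧
      ∃ ρ : ℝ, 0 < ρ ∧ ∃ η : ℝ, 0 < η ∧ ∀ z ∈ ball p ρ, |w z - t| < η → z ∈ B)
    {Bad O : Set ℂ} (hBad : IsCompact Bad) (hBadK : Bad ⊆ Kᶜ) (hO : IsOpen O) {η1 : ℝ}
    (hη1 : 0 < η1) (hOB : ∀ z ∈ O, z ∈ B → η1 ≤ |w z - t|)
    (hBt : ∀ z ∈ Bad, w z = t → z ∈ P ∨ z ∈ O) {ρ0 : ℝ} (hρ0 : 0 < ρ0) {ε : ℝ} (hε : 0 < ε) :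
    ∃ η : ℝ, 0 < η ∧ ∀ (Y : Set ℂ) (ι α β : ℂ → ℝ), MeasurableSet Y → (∀ z, |ι z| ≤ 1) →
      (∀ z, z ∉ Y → ι z = 0) → (∀ p ∈ P, |α p| ≤ 1) → (∀ p ∈ P, |β p| ≤ 1) →
      (∀ p ∈ P, ∀ z ∈ ball p ρ0,
        (0 < ct p (u p) z → ι z = α p) ∧ (ct p (u p) z < 0 → ι z = β p)) →
      (∀ z, z ∉ Bad → ∀ᶠ z' in 𝓝 z, ι z' = ι z) →
      ∀ lam : ℝ → ℝ, Continuous lam → (∀ x, η ≤ |x - t| → lam x = 0) →
      ∀ χ : ℂ → ℝ, ContDiff ℝ ∞ χ → (∀ z ∈ K, ∀ᶠ z' in 𝓝 z, z' ∉ K → χ z' = ι z') →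
      (∀ᶠ z in cocompact ℂ, χ z = ι z) →
      (∀ a : ℂ → ℝ, (∀ z, z ∉ K → ContDiffAt ℝ ∞ a z) → HasCompactSupport a →
        tsupport a ⊆ Kᶜ → ∫ z in B, lam (w z) * wdg a w z = 0) →
      IntegrableOn (fun z => lam (w z) * wdg (fun z => ψ z * χ z) w z) B →
      IntegrableOn (fun z => lam (w z) * wdg ψ w z) B →
      |(∫ z in B, lam (w z) * wdg (fun z => ψ z * χ z) w z) -
          (∫ x, lam x) * ∑ p ∈ P, (β p - α p) * ψ p| ≤
        (∫ z in Y ∩ B, |lam (w z) * wdg ψ w z|) + ε * ∫ x, |lam x| := by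
  classical
  have h1 : ∀ p ∈ P, ∃ L : ℝ≥0, ∀ᶠ r in 𝓝[>] (0 : ℝ), LipschitzOnWith L ψ (ball p (3 * r)) ∧
      LipschitzOnWith L w (ball p (3 * r)) := by
    intro p hp
    obtain ⟨L1, s1, hs1, hL1⟩ := ((hψ p (hP p hp).1).of_le (m := 1)
      (by simp)).exists_lipschitzOnWith
    obtain ⟨L2, s2, hs2, hL2⟩ := ((hw p (hP p hp).1).of_le (m := 1)
      (by simp)).exists_lipschitzOnWith
    refine ⟨max L1 L2, ?_⟩
    filter_upwards [ev_ball hs1, ev_ball hs2] with r e1 e2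
    exact ⟨(hL1.mono e1).weaken (le_max_left _ _), (hL2.mono e2).weaken (le_max_right _ _)⟩
  choose! Lf hLf using h1
  set L : ℝ≥0 := P.sup Lf with hL
  choose! ρB hρB ηB hηB hB using fun p hp => (hP p hp).2.2.2.2
  have h2 : ∀ᶠ r in 𝓝[>] (0 : ℝ), ∀ p ∈ P, (LipschitzOnWith L ψ (ball p (3 * r)) ∧
      LipschitzOnWith L w (ball p (3 * r))) ∧ ball p (3 * r) ⊆ Kᶜ ∧
      ball p (3 * r) ⊆ {z | 0 < fderiv ℝ w z (u p)} ∧ ball p (3 * r) ⊆ ball p (ρB p) ∧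
      ∀ q ∈ P, p ≠ q → r ≤ dist p q / 6 := by
    refine (Finset.eventually_all P).2 fun p hp => ?_
    have h3 : ∀ᶠ r in 𝓝[>] (0 : ℝ), ∀ q ∈ P, p ≠ q → r ≤ dist p q / 6 := by
      refine (Finset.eventually_all P).2 fun q _ => ?_
      by_cases h : p = q
      · exact Eventually.of_forall fun _ h' => (h' h).elim
      · filter_upwards [ev_le (show 0 < dist p q / 6 by have := dist_pos.2 h; linarith)]
          with r hr _ using hr
    filter_upwards [hLf p hp, ev_ball (hK.isOpen_compl.mem_nhds (hP p hp).1),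
      ev_ball (ev_fderiv_pos (hw p (hP p hp).1) (hP p hp).2.2.2.1),
      ev_ball (ball_mem_nhds p (hρB p hp)), h3] with r e1 e2 e3 e4 e5
    exact ⟨⟨e1.1.weaken (Finset.le_sup hp), e1.2.weaken (Finset.le_sup hp)⟩, e2, e3, e4, e5⟩
  have hc0 : (0 : ℝ) < ε / (12 * P.card * L + 1) := by positivity
  obtain ⟨r, ⟨⟨hr, hrε⟩, hrρ⟩, hr0⟩ := (((h2.and (ev_le hc0)).and
    (ev_le (show 0 < ρ0 / 3 by linarith))).and self_mem_nhdsWithin).exists
  replace hr0 : 0 < r := hr0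
  have hu : ∀ p ∈ P, ‖u p‖ = 1 := fun p hp => (hP p hp).2.2.1
  have hmono : ∀ p ∈ P, StrictMonoOn (fun s : ℝ => w (p + s * u p)) (Icc (-r) r) := by
    intro p hp
    refine strictMonoOn_line fun s hs => ?_
    have hb : p + s * u p ∈ ball p (3 * r) :=
      line_mem_ball (hu p hp) (by rw [abs_lt]; constructor <;> linarith [hs.1, hs.2])
    exact ⟨(hw _ ((hr p hp).2.1 hb)).differentiableAt (by simp), (hr p hp).2.2.1 hb⟩
  have h4 : ∀ᶠ m in 𝓝[>] (0 : ℝ), ∀ p ∈ P, m ≤ w (p + (r / 2 : ℝ) * u p) - t ∧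
      m ≤ t - w (p + (-(r / 2) : ℝ) * u p) ∧ m ≤ ηB p := by
    refine (Finset.eventually_all P).2 fun p hp => ?_
    have e0 : w (p + (0 : ℝ) * u p) = t := by simpa using (hP p hp).2.1
    have e1 := hmono p hp (a := 0) (b := r / 2) ⟨by linarith, by linarith⟩
      ⟨by linarith, by linarith⟩ (by linarith)
    have e2 := hmono p hp (a := -(r / 2)) (b := 0) ⟨by linarith, by linarith⟩
      ⟨by linarith, by linarith⟩ (by linarith)
    simp only [e0] at e1 e2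
    exact (ev_le (by linarith)).and ((ev_le (by linarith)).and (ev_le (hηB p hp)))
  obtain ⟨m, hm, hm0⟩ := (h4.and self_mem_nhdsWithin).exists
  replace hm0 : 0 < m := hm0
  obtain ⟨δ, ⟨hδ1, hδ2⟩, hδ⟩ := (((ev_le (show 0 < r / 2 by linarith)).and
    (ev_le (show 0 < m / (4 * L + 1) by positivity))).and self_mem_nhdsWithin).exists
  replace hδ : 0 < δ := hδ
  have hLδ : L * (2 * δ) ≤ m / 2 := by
    rw [le_div_iff₀ (by positivity)] at hδ2
    nlinarith [L.coe_nonneg]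
  have hnear : ∀ p ∈ P, ∀ z, |ct p (u p) z| ≤ 2 * δ → |cs p (u p) z| ≤ r →
      |w z - w (p + (cs p (u p) z : ℝ) * u p)| ≤ m / 2 := by
    intro p hp z e1 e2
    have hz := mem_ball_of_cs_ct (hu p hp) hr0 e2 (by linarith)
    have hz' : p + (cs p (u p) z : ℝ) * u p ∈ ball p (3 * r) :=
      line_mem_ball (hu p hp) (by linarith)
    have e3 := (hr p hp).1.2.dist_le_mul z hz _ hz'
    have e4 : dist z (p + (cs p (u p) z : ℝ) * u p) = |ct p (u p) z| := by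
      rw [dist_eq_norm]
      nth_rw 1 [eq_of_cs_ct (hu p hp) p z]
      rw [show p + ((cs p (u p) z : ℂ) + (ct p (u p) z : ℂ) * Complex.I) * u p -
        (p + (cs p (u p) z : ℝ) * u p) = (ct p (u p) z : ℂ) * Complex.I * u p by ring]
      simp [hu p hp]
    rw [e4, Real.dist_eq] at e3
    exact e3.trans ((mul_le_mul_of_nonneg_left e1 L.coe_nonneg).trans hLδ)
  have hwc : ContinuousOn w Kᶜ := fun z hz => (hw z hz).continuousAt.continuousWithinAt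
  have hUo : IsOpen (⋃ p ∈ P, ball p δ) := isOpen_biUnion fun _ _ => isOpen_ball
  obtain ⟨m', hm'0, hm'⟩ := (hBad.diff (hUo.union hO)).exists_forall_le'
    (f := fun z => |w z - t|) (a := 0)
    (((hwc.mono (sdiff_subset.trans hBadK)).sub continuousOn_const).abs) (by
      intro z hz
      refine abs_pos.2 (sub_ne_zero.2 fun h => hz.2 ?_)
      rcases hBt z hz.1 h with h' | h'
      · exact Or.inl (mem_iUnion₂.2 ⟨z, h', mem_ball_self hδ⟩)
      · exact Or.inr h')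
  obtain ⟨η, ⟨⟨hη2, hη3⟩, hη4⟩, hη⟩ := ((((ev_le (show 0 < m / 8 by linarith)).and
    (ev_le (show 0 < m' / 5 by linarith))).and (ev_le (show 0 < η1 / 4 by linarith))).and
    self_mem_nhdsWithin).exists
  replace hη : 0 < η := hη
  set C : Set ℂ := (Bad \ ⋃ p ∈ P, ball p δ) ∩ w ⁻¹' Icc (t - 4 * η) (t + 4 * η) with hC
  have hCc : IsCompact C := (hBad.diff hUo).of_isClosed_subset
    ((hwc.mono (sdiff_subset.trans hBadK)).preimage_isClosed_of_isClosed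
      (hBad.diff hUo).isClosed isClosed_Icc) inter_subset_left
  have hCO : C ⊆ O ∩ Kᶜ := by
    intro z hz
    refine ⟨by_contra fun h => ?_, hBadK hz.1.1⟩
    have := hm' z ⟨hz.1.1, fun h' => h'.elim hz.1.2 h⟩
    have h' : |w z - t| ≤ 4 * η := abs_le.2 ⟨by linarith [hz.2.1], by linarith [hz.2.2]⟩
    linarith
  refine ⟨η, hη, fun Y ι α β hYm hι hιY hα hβ hside hloc lam hc h0 χ hχ hχK hχi hSt hI1 hI2 => ?_⟩
  have key := flux_core hK hw hψ hBm hBK (t := t) (P := P) (u := u) (L := L) (Lw := L) hδ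
    (by linarith : 2 * δ ≤ r) hη hu (fun p hp => (hr p hp).2.1) (fun p hp => (hr p hp).1.1)
    (fun p hp => (hr p hp).1.2)
    (fun p hp q hq hpq => ball_disjoint_ball (by linarith [(hr p hp).2.2.2.2 q hq hpq]))
    (fun p hp z e1 e2 e3 => by
      have e4 := abs_le.1 (hnear p hp z e1 (abs_le.2 ⟨e2, by linarith⟩))
      have e5 := (hmono p hp).monotoneOn (a := cs p (u p) z) (b := -(r / 2))
        ⟨e2, by linarith⟩ ⟨by linarith, by linarith⟩ e3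
      have e6 := (hm p hp).2.1
      linarith [e4.2])
    (fun p hp z e1 e2 e3 => by
      have e4 := abs_le.1 (hnear p hp z e1 (abs_le.2 ⟨by linarith, e3⟩))
      have e5 := (hmono p hp).monotoneOn (a := r / 2) (b := cs p (u p) z)
        ⟨by linarith, by linarith⟩ ⟨by linarith, e3⟩ e2
      have e6 := (hm p hp).1
      linarith [e4.1])
    (fun p hp z hz e => hB p hp z ((hr p hp).2.2.2.1 hz) (by linarith [(hm p hp).2.2]))
    hO hCc hCO (fun z hz hzB => by linarith [hOB z hz hzB]) hYm hι hιY hα hβ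
    (fun p hp z hz => hside p hp z (ball_subset_ball (by linarith) hz))
    (fun z _ e1 e2 e3 => hloc z fun h => e2 ⟨⟨h, fun h' => by
      obtain ⟨p, hp, h''⟩ := mem_iUnion₂.1 h'
      exact e3 p hp h''⟩, by linarith [(abs_lt.1 e1).1], by linarith [(abs_lt.1 e1).2]⟩)
    hc h0 hχ hχK hχi hSt hI1 hI2
  refine key.trans (add_le_add le_rfl ?_)
  have hI : 0 ≤ ∫ x, |lam x| := integral_nonneg fun x => abs_nonneg _
  rw [le_div_iff₀ (by positivity)] at hrε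
  have : 12 * P.card * L * r ≤ ε := by nlinarith
  calc 12 * P.card * (∫ x, |lam x|) * L * r = (12 * P.card * L * r) * ∫ x, |lam x| := by ring
    _ ≤ _ := mul_le_mul_of_nonneg_right this hI

end Vale.P116A
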