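import Vale.Agent.P116A.MLDefs

/-!
A grid neighbourhood of a relatively clopen part J of a compact set K.

Take d > 0 with cthickening d J inside V and disjoint from K \ J
(`IsCompact.exists_cthickening_subset_open` for the open set V \ (K \ J)), h = d / 4 and
U = {z | exists y in J, floor (z.re / h) <= y.re / h <= floor (z.re / h) + 1 and the same for im}.
Membership in U depends only on (floor (z.re / h), floor (z.im / h)); U lies in cthickening d J
(closed). For z in J and z' near z: floor x' <= x iff x' < floor x + 1 suffices, and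
x <= floor x' + 1 holds when x' > ceil x - 1, both open conditions at x' = x. If neither z.re / h
nor z.im / h is an integer both floors are locally constant, so z is not in the frontier. If exactly
one is an integer, the other floor is locally constant and the integer one takes one value on each
side (ct z 1 z' = z'.im - z.im, ct z I z' = z.re - z'.re).
-/

namespace Vale.P116A

open Set Filter Topology Metric

/-- the floor takes one value on each side of a point -/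
lemma grid_side {h : ℝ} (hh : 0 < h) (x : ℝ) : ∃ ε > 0, ∃ a b : ℤ, ∀ x', |x' - x| < ε →
    (x < x' → ⌊x' / h⌋ = a) ∧ (x' < x → ⌊x' / h⌋ = b) := by
  have h1 := Int.lt_floor_add_one (x / h)
  have h2 := Int.floor_le (x / h)
  have h3 := Int.ceil_lt_add_one (x / h)
  have h4 := Int.le_ceil (x / h)
  refine ⟨min (⌊x / h⌋ + 1 - x / h) (x / h + 1 - ⌈x / h⌉) * h,
    mul_pos (lt_min (by linarith) (by linarith)) hh, ⌊x / h⌋, ⌈x / h⌉ - 1, fun x' hx => ?_⟩
  have h5 : |x' / h - x / h| < min (⌊x / h⌋ + 1 - x / h) (x / h + 1 - ⌈x / h⌉) := by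
    rwa [← sub_div, abs_div, abs_of_pos hh, div_lt_iff₀ hh]
  rw [lt_min_iff, abs_lt, abs_lt] at h5
  refine ⟨fun hl => ?_, fun hl => ?_⟩
  · have := div_lt_div_of_pos_right hl hh
    rw [Int.floor_eq_iff]
    constructor <;> linarith [h5.1.2]
  · have := div_lt_div_of_pos_right hl hh
    rw [Int.floor_eq_iff]
    push_cast
    constructor <;> linarith [h5.2.1]

/-- the floor is locally constant off the grid -/
lemma grid_const {h : ℝ} (hh : 0 < h) {x : ℝ} (hx : ¬ ∃ m : ℤ, x = m * h) :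
    ∃ ε > 0, ∃ a : ℤ, ∀ x', |x' - x| < ε → ⌊x' / h⌋ = a := by
  have h1 := Int.lt_floor_add_one (x / h)
  have h2 : (⌊x / h⌋ : ℝ) < x / h := (Int.floor_le (x / h)).lt_of_ne fun e =>
    hx ⟨⌊x / h⌋, by rw [e, div_mul_cancel₀ _ hh.ne']⟩
  refine ⟨min (⌊x / h⌋ + 1 - x / h) (x / h - ⌊x / h⌋) * h,
    mul_pos (lt_min (by linarith) (by linarith)) hh, ⌊x / h⌋, fun x' hx => ?_⟩
  have h5 : |x' / h - x / h| < min (⌊x / h⌋ + 1 - x / h) (x / h - ⌊x / h⌋) := by
    rwa [← sub_div, abs_div, abs_of_pos hh, div_lt_iff₀ hh]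
  rw [lt_min_iff, abs_lt, abs_lt] at h5
  rw [Int.floor_eq_iff]
  constructor <;> linarith [h5.1.2, h5.2.1]

lemma grid_near {h : ℝ} (hh : 0 < h) {x y : ℝ} (hx : |x - y| < h) : |y / h - ⌊x / h⌋| < 2 := by
  have h1 := Int.lt_floor_add_one (x / h)
  have h2 := Int.floor_le (x / h)
  have h5 : |x / h - y / h| < 1 := by
    rwa [← sub_div, abs_div, abs_of_pos hh, div_lt_one hh]
  rw [abs_lt] at h5 ⊢
  constructor <;> linarith [h5.1, h5.2]

lemma grid_far {h : ℝ} (hh : 0 < h) {x y : ℝ} (hx : |y / h - ⌊x / h⌋| < 2) : |x - y| ≤ 3 * h := by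
  have h1 := Int.lt_floor_add_one (x / h)
  have h2 := Int.floor_le (x / h)
  have h5 : |x / h - y / h| ≤ 3 := by
    rw [abs_lt] at hx
    rw [abs_le]
    constructor <;> linarith [hx.1, hx.2]
  rwa [← sub_div, abs_div, abs_of_pos hh, div_le_iff₀ hh] at h5

lemma grid_re {z z' : ℂ} {ρ ε : ℝ} (h : z' ∈ ball z ρ) (hρ : ρ ≤ ε) : |z'.re - z.re| < ε := by
  rw [← Complex.sub_re]
  exact (Complex.abs_re_le_norm _).trans_lt ((mem_ball_iff_norm.1 h).trans_le hρ)

lemma grid_im {z z' : ℂ} {ρ ε : ℝ} (h : z' ∈ ball z ρ) (hρ : ρ ≤ ε) : |z'.im - z.im| < ε := by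
  rw [← Complex.sub_im]
  exact (Complex.abs_im_le_norm _).trans_lt ((mem_ball_iff_norm.1 h).trans_le hρ)

theorem exists_grid {K J V : Set ℂ} (hJ : IsCompact J) (hJ' : IsClosed (K \ J)) (hV : IsOpen V)
    (hJV : J ⊆ V) :
    ∃ (U : Set ℂ) (h : ℝ), 0 < h ∧ Bornology.IsBounded U ∧ closure U ⊆ V ∧
      (∀ z ∈ J, U ∈ 𝓝 z) ∧ (∀ z ∈ K \ J, Uᶜ ∈ 𝓝 z) ∧
      ∀ z ∈ frontier U, (∃ m n : ℤ, z.re = m * h ∧ z.im = n * h) ∨
        ∃ u : ℂ, ((u = 1 ∧ ∃ n : ℤ, z.im = n * h) ∨ (u = Complex.I ∧ ∃ m : ℤ, z.re = m * h)) ∧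
          ∃ ρ : ℝ, 0 < ρ ∧ ∃ α β : Prop, ∀ z' ∈ ball z ρ,
            (0 < ct z u z' → (z' ∈ U ↔ α)) ∧ (ct z u z' < 0 → (z' ∈ U ↔ β)) := by
  obtain ⟨d, hd, hdV⟩ := hJ.exists_cthickening_subset_open (hV.sdiff hJ')
    fun z hz => ⟨hJV hz, fun h => h.2 hz⟩
  have hh : 0 < d / 6 := by positivity
  generalize hdh : d / 6 = h at hh
  let P : ℤ → ℤ → Prop := fun a b => ∃ y ∈ J, |y.re / h - a| < 2 ∧ |y.im / h - b| < 2
  let U : Set ℂ := {z | P ⌊z.re / h⌋ ⌊z.im / h⌋}
  have hU : ∀ z, z ∈ U ↔ P ⌊z.re / h⌋ ⌊z.im / h⌋ := fun z => Iff.rfl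
  have hsub : U ⊆ cthickening d J := by
    rintro z ⟨y, hy, h1, h2⟩
    refine mem_cthickening_of_dist_le z y d J hy ?_
    have h3 := grid_far hh h1
    have h4 := grid_far hh h2
    have h5 := Complex.norm_le_abs_re_add_abs_im (z - y)
    rw [Complex.sub_re, Complex.sub_im] at h5
    rw [dist_eq_norm]
    linarith
  have hcl : closure U ⊆ V \ (K \ J) :=
    (closure_minimal hsub isClosed_cthickening).trans hdV
  refine ⟨U, h, hh, hJ.isBounded.cthickening.subset hsub, hcl.trans sdiff_subset, fun z hz => ?_,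
    fun z hz => ?_, fun z hz => ?_⟩
  · exact mem_of_superset (ball_mem_nhds z hh) fun z' hz' =>
      ⟨z, hz, grid_near hh (grid_re hz' le_rfl), grid_near hh (grid_im hz' le_rfl)⟩
  · exact mem_of_superset (isClosed_closure.isOpen_compl.mem_nhds fun h => (hcl h).2 hz)
      (compl_subset_compl.2 subset_closure)
  by_cases hre : ∃ m : ℤ, z.re = m * h <;> by_cases him : ∃ n : ℤ, z.im = n * h
  · obtain ⟨m, hm⟩ := hre
    obtain ⟨n, hn⟩ := him
    exact Or.inl ⟨m, n, hm, hn⟩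
  · obtain ⟨ε, hε, a, b, hab⟩ := grid_side hh z.re
    obtain ⟨ε', hε', c, hc⟩ := grid_const hh him
    refine Or.inr ⟨Complex.I, Or.inr ⟨rfl, hre⟩, min ε ε', lt_min hε hε', P b c, P a c,
      fun z' hz' => ?_⟩
    have e : ct z Complex.I z' = z.re - z'.re := by simp [ct]
    have h1 := hab _ (grid_re hz' (min_le_left _ _))
    rw [e, hU, hc _ (grid_im hz' (min_le_right _ _))]
    exact ⟨fun hl => by rw [h1.2 (by linarith)], fun hl => by rw [h1.1 (by linarith)]⟩
  · obtain ⟨ε, hε, a, b, hab⟩ := grid_side hh z.im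
    obtain ⟨ε', hε', c, hc⟩ := grid_const hh hre
    refine Or.inr ⟨1, Or.inl ⟨rfl, him⟩, min ε ε', lt_min hε hε', P c a, P c b,
      fun z' hz' => ?_⟩
    have e : ct z 1 z' = z'.im - z.im := by simp [ct]
    have h1 := hab _ (grid_im hz' (min_le_left _ _))
    rw [e, hU, hc _ (grid_re hz' (min_le_right _ _))]
    exact ⟨fun hl => by rw [h1.1 (by linarith)], fun hl => by rw [h1.2 (by linarith)]⟩
  · exfalso
    obtain ⟨ε, hε, a, ha⟩ := grid_const hh hre
    obtain ⟨ε', hε', c, hc⟩ := grid_const hh him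
    have h0 : 0 < min ε ε' := lt_min hε hε'
    have h1 : ∀ z' ∈ ball z (min ε ε'), (z' ∈ U ↔ P a c) := fun z' hz' => by
      rw [hU, ha _ (grid_re hz' (min_le_left _ _)), hc _ (grid_im hz' (min_le_right _ _))]
    obtain ⟨y, hy, hyU⟩ := mem_closure_iff.1 hz.1 _ isOpen_ball (mem_ball_self h0)
    exact hz.2 (mem_interior_iff_mem_nhds.2 (mem_of_superset (ball_mem_nhds z h0)
      fun z' hz' => (h1 z' hz').2 ((h1 y hy).1 hyU)))

end Vale.P116A
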