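import Mathlib

/-!
Local to global in the level variable.

`null_levels`: locally null is enough (`measure_null_of_locally_null`). At z with D w z /= 0 one of
the maps z -> (w z, z.im), z -> (w z, z.re) (values in R x R or C) has an invertible derivative, so
it is a local C^1 diffeomorphism (`ContDiffAt.toOpenPartialHomeomorph`, `ContDiffAt.to_localInverse`);
the set is locally the image of a subset of the null set N x R under the differentiable inverse
(`MeasureTheory.addHaar_image_eq_zero_of_differentiableOn_of_addHaar_eq_zero`).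

`exists_level_measure`: mu = map w ((volume.restrict G).withDensity (enorm f)); w is continuous on
G hence a.e. measurable; `integral_map`, `integral_withDensity_eq_integral_toReal_smul` or similar.
Absolute continuity from `null_levels` (`Measure.AbsolutelyContinuous.mk`).

`l2g`: the bad set (tsupport lam minus T) is Lebesgue null, so mu-null; take an open O containing it
with (sup lam) * mu O < eps (outer regularity, `Set.exists_isOpen_lt_of_lt`). The compact set
tsupport lam minus O is contained in T and covered by finitely many balls ball c (eta c). Take a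
continuous partition of unity on tsupport lam subordinate to these balls and O
(`exists_continuous_sum_one_of_isOpen_isCompact` or `PartitionOfUnity.exists_isSubordinate`) and
multiply by lam.
-/

namespace Vale.P116A

open Set Filter Topology Metric MeasureTheory

/-- a nonzero functional is the real part of an isomorphism -/
lemma l2g_equiv {D : ℂ →L[ℝ] ℝ} (hD : D ≠ 0) : ∃ E : ℂ ≃L[ℝ] ℂ, ∀ v, (E v).re = D v := by
  have e : ∀ v : ℂ, D v = v.re * D 1 + v.im * D Complex.I := fun v => by
    rw [← smul_eq_mul, ← smul_eq_mul, ← map_smul, ← map_smul, ← map_add]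
    congr 1
    simp
  have hc : (⟨D 1, -D Complex.I⟩ : ℂ) ≠ 0 := fun h => hD (ContinuousLinearMap.ext fun v => by
    have h1 : D 1 = 0 := congrArg Complex.re h
    have h2 : -D Complex.I = 0 := congrArg Complex.im h
    rw [e, h1, neg_eq_zero.1 h2]
    simp)
  refine ⟨((LinearEquiv.smulOfNeZero ℂ ℂ _ hc).restrictScalars ℝ).toContinuousLinearEquiv,
    fun v => ?_⟩
  show ((⟨D 1, -D Complex.I⟩ : ℂ) * v).re = D v
  rw [e v, Complex.mul_re]
  ring

theorem null_levels {G : Set ℂ} {w : ℂ → ℝ} (hw : ∀ z ∈ G, ContDiffAt ℝ 1 w z) {N : Set ℝ}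
    (hN : volume N = 0) : volume {z | z ∈ G ∧ w z ∈ N ∧ fderiv ℝ w z ≠ 0} = 0 := by
  refine measure_null_of_locally_null _ fun z hz => ?_
  obtain ⟨E, hE⟩ := l2g_equiv hz.2.2
  have hwz := hw z hz.1
  let Φ : ℂ → ℂ := fun ζ => E ζ + Complex.ofRealCLM (w ζ - fderiv ℝ w z ζ)
  have h1 : ContDiffAt ℝ 1 Φ z := E.contDiff.contDiffAt.add
    (Complex.ofRealCLM.contDiff.contDiffAt.comp z (hwz.sub (fderiv ℝ w z).contDiff.contDiffAt))
  have h2 : HasFDerivAt Φ (E : ℂ →L[ℝ] ℂ) z := by
    have h3 := E.hasFDerivAt.add (Complex.ofRealCLM.hasFDerivAt.comp z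
      ((hwz.differentiableAt one_ne_zero).hasFDerivAt.sub (fderiv ℝ w z).hasFDerivAt))
    rw [sub_self, ContinuousLinearMap.comp_zero, add_zero] at h3
    exact h3
  have h3 := (h1.to_localInverse h2 one_ne_zero).eventually (by simp)
  have h4 : ∀ᶠ x in 𝓝 z, h1.localInverse h2 one_ne_zero (Φ x) = x :=
    (h1.hasStrictFDerivAt' h2 one_ne_zero).eventually_left_inverse
  generalize h1.localInverse h2 one_ne_zero = g at h3 h4
  have h5 : volume (Complex.measurableEquivRealProd ⁻¹' (Prod.fst ⁻¹' N)) = 0 :=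
    Complex.volume_preserving_equiv_real_prod.quasiMeasurePreserving.preimage_null
      (Measure.quasiMeasurePreserving_fst.preimage_null hN)
  refine ⟨g '' ({y | ContDiffAt ℝ 1 g y} ∩ Complex.measurableEquivRealProd ⁻¹' (Prod.fst ⁻¹' N)),
    ?_, addHaar_image_eq_zero_of_differentiableOn_of_addHaar_eq_zero volume
      (fun y hy => (ContDiffAt.differentiableAt (n := 1) (f := g) (x := y) hy.1
        one_ne_zero).differentiableWithinAt)
      (measure_mono_null inter_subset_right h5)⟩
  filter_upwards [self_mem_nhdsWithin, mem_nhdsWithin_of_mem_nhds h4,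
    mem_nhdsWithin_of_mem_nhds (h1.continuousAt.eventually h3)] with x hx a b
  refine ⟨Φ x, ⟨b, ?_⟩, a⟩
  show (Φ x).re ∈ N
  simp only [Φ, Complex.add_re, hE, Complex.ofRealCLM_apply, Complex.ofReal_re, add_sub_cancel]
  exact hx.2.1

theorem exists_level_measure {G : Set ℂ} (hG : IsOpen G) {w : ℂ → ℝ}
    (hw : ∀ z ∈ G, ContDiffAt ℝ 1 w z) {f : ℂ → ℝ} (hf : IntegrableOn f G)
    (hf0 : ∀ z ∈ G, fderiv ℝ w z = 0 → f z = 0) :
    ∃ μ : Measure ℝ, IsFiniteMeasure μ ∧ μ ≪ volume ∧ ∀ l : ℝ → ℝ, Continuous l →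
      ∫ t, l t ∂μ = ∫ z in G, l (w z) * |f z| := by
  have h1 : AEMeasurable w (volume.restrict G) :=
    ContinuousOn.aemeasurable (fun z hz => (hw z hz).continuousAt.continuousWithinAt)
      hG.measurableSet
  have h2 : AEMeasurable (fun z => ‖f z‖ₑ) (volume.restrict G) := hf.1.enorm
  have h3 : AEMeasurable w ((volume.restrict G).withDensity fun z => ‖f z‖ₑ) :=
    h1.mono_ac (withDensity_absolutelyContinuous _ _)
  have : IsFiniteMeasure ((volume.restrict G).withDensity fun z => ‖f z‖ₑ) :=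
    isFiniteMeasure_withDensity hf.2.ne
  refine ⟨Measure.map w ((volume.restrict G).withDensity fun z => ‖f z‖ₑ), inferInstance,
    Measure.AbsolutelyContinuous.mk fun N hN h0 => ?_, fun l hl => ?_⟩
  · rw [Measure.map_apply_of_aemeasurable h3 hN, withDensity_apply_eq_zero' h2,
      Measure.restrict_apply' hG.measurableSet]
    refine measure_mono_null (fun z hz => ?_) (null_levels hw h0)
    exact ⟨hz.2, hz.1.2, fun h => hz.1.1 (by rw [hf0 z hz.2 h, enorm_zero])⟩
  · rw [integral_map h3 hl.aestronglyMeasurable, integral_withDensity_eq_integral_toReal_smul₀ h2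
      (Eventually.of_forall fun _ => enorm_lt_top)]
    simp only [toReal_enorm, smul_eq_mul, Real.norm_eq_abs, mul_comm]

theorem l2g (μ : Measure ℝ) [IsFiniteMeasure μ] (hμ : μ ≪ volume) {T : Set ℝ} (η : ℝ → ℝ)
    (hη : ∀ t ∈ T, 0 < η t) {lam : ℝ → ℝ} (hc : Continuous lam) (hs : HasCompactSupport lam)
    (h0 : ∀ t, 0 ≤ lam t) (hT : ∀ᵐ t, t ∈ tsupport lam → t ∈ T) {ε : ℝ} (hε : 0 < ε) :
    ∃ (n : ℕ) (c : Fin n → ℝ) (l : Fin n → ℝ → ℝ) (l0 : ℝ → ℝ),
      (∀ i, c i ∈ T ∧ Continuous (l i) ∧ (∀ t, 0 ≤ l i t) ∧ ∀ t, η (c i) ≤ |t - c i| → l i t = 0) ∧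
      Continuous l0 ∧ (∀ t, 0 ≤ l0 t) ∧ (∀ t, lam t = l0 t + ∑ i, l i t) ∧ ∫ t, l0 t ∂μ ≤ ε := by
  obtain ⟨M0, hM0⟩ := hc.bounded_above_of_compact_support hs
  obtain ⟨M, hM, hlM⟩ : ∃ M, 0 < M ∧ ∀ t, lam t ≤ M :=
    ⟨max M0 1, lt_max_of_lt_right one_pos, fun t =>
      ((le_abs_self _).trans (hM0 t)).trans (le_max_left _ _)⟩
  obtain ⟨O, hO1, hO, hO2⟩ := Set.exists_isOpen_lt_of_lt (μ := μ)
    {t | ¬(t ∈ tsupport lam → t ∈ T)} (ENNReal.ofReal (ε / M))
    (by rw [hμ (ae_iff.1 hT)]; exact ENNReal.ofReal_pos.2 (by positivity))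
  have hKT : ∀ t ∈ tsupport lam \ O, t ∈ T := fun t ht => by
    by_contra h
    exact ht.2 (hO1 fun h' => h (h' ht.1))
  obtain ⟨S, hS1, hS2⟩ := (hs.isCompact.diff hO).elim_nhds_subcover (fun c => ball c (η c))
    fun c hc => ball_mem_nhds c (hη c (hKT c hc))
  let c : Fin S.card → ℝ := fun i => S.equivFin.symm i
  obtain ⟨f, f1, f2, f3, -⟩ := exists_continuous_sum_one_of_isOpen_isCompact
    (s := Fin.cons O fun i => ball (c i) (η (c i)))
    (fun i => Fin.cases hO (fun _ => isOpen_ball) i) hs.isCompact (fun t ht => by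
      by_cases h : t ∈ O
      · exact mem_iUnion.2 ⟨0, h⟩
      · obtain ⟨x, hx, hxt⟩ := mem_iUnion₂.1 (hS2 ⟨ht, h⟩)
        refine mem_iUnion.2 ⟨(S.equivFin ⟨x, hx⟩).succ, ?_⟩
        simpa only [Fin.cons_succ, c, Equiv.symm_apply_apply] using hxt)
  have hl0 : Continuous fun t => lam t * f 0 t := hc.mul (f 0).continuous
  refine ⟨S.card, c, fun i t => lam t * f i.succ t, fun t => lam t * f 0 t, fun i =>
    ⟨hKT _ (hS1 _ (S.equivFin.symm i).2), hc.mul (f _).continuous,
      fun t => mul_nonneg (h0 t) (f3 _ t).1, fun t ht => ?_⟩, hl0,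
    fun t => mul_nonneg (h0 t) (f3 _ t).1, fun t => ?_, ?_⟩
  · have h : t ∉ tsupport (f i.succ) := fun h => by
      have h1 := f1 i.succ h
      rw [Fin.cons_succ, mem_ball, Real.dist_eq] at h1
      exact absurd h1 (not_lt.2 ht)
    simp only [image_eq_zero_of_notMem_tsupport h, mul_zero]
  · rw [← Finset.mul_sum, ← mul_add, ← Fin.sum_univ_succ fun i => f i t]
    by_cases h : t ∈ tsupport lam
    · have h1 := f2 h
      simp only [Finset.sum_apply, Pi.one_apply] at h1
      rw [h1, mul_one]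
    · rw [image_eq_zero_of_notMem_tsupport h, zero_mul]
  · have h1 : ∫ t, lam t * f 0 t ∂μ ≤ ∫ t, O.indicator (fun _ => M) t ∂μ := by
      refine integral_mono_of_nonneg (Eventually.of_forall fun t => mul_nonneg (h0 t) (f3 _ t).1)
        ((integrable_const M).indicator hO.measurableSet) (Eventually.of_forall fun t => ?_)
      by_cases h : t ∈ O
      · simp only [indicator_of_mem h]
        exact (mul_le_of_le_one_right (h0 t) (f3 _ t).2).trans (hlM t)
      · simp only [indicator_of_notMem h,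
          image_eq_zero_of_notMem_tsupport fun h' => h (f1 0 h'), mul_zero, le_refl]
    rw [integral_indicator_const _ hO.measurableSet, smul_eq_mul] at h1
    have h2 : μ.real O ≤ ε / M := ENNReal.toReal_le_of_le_ofReal (by positivity) hO2.le
    exact h1.trans ((le_div_iff₀ hM).1 h2)

end Vale.P116A
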