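import Mathlib

/-!
Smooth partition of unity in the level variable. The bad set (S minus T) is Lebesgue null, so
mu-null; take an open O containing it with mu O < eps (outer regularity). The compact set S minus O
is contained in T and covered by finitely many balls ball c (eta c) with c in S minus O. Use
`SmoothPartitionOfUnity.exists_isSubordinate` (index Option (Fin n), model on the real line,
`ContMDiff.contDiff`, `finsum_eq_sum_of_fintype`, `Fintype.sum_option`). See also the proof of `l2g`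
in MLL2G.
-/

namespace Vale.P116A

open Set Filter Topology Metric MeasureTheory
open scoped ContDiff

theorem l2g_smooth (μ : Measure ℝ) [IsFiniteMeasure μ] (hμ : μ ≪ volume) {T S : Set ℝ} (η : ℝ → ℝ)
    (hη : ∀ t ∈ T, 0 < η t) (hS : IsCompact S) (hT : ∀ᵐ t, t ∈ S → t ∈ T) {ε : ℝ} (hε : 0 < ε) :
    ∃ (n : ℕ) (c : Fin n → ℝ) (φ : Fin n → ℝ → ℝ) (φ0 : ℝ → ℝ),
      (∀ i, c i ∈ T ∧ c i ∈ S ∧ ContDiff ℝ ∞ (φ i) ∧ (∀ t, 0 ≤ φ i t) ∧
        ∀ t, η (c i) ≤ |t - c i| → φ i t = 0) ∧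
      ContDiff ℝ ∞ φ0 ∧ (∀ t, 0 ≤ φ0 t) ∧ (∀ t, φ0 t + ∑ i, φ i t ≤ 1) ∧
      (∀ t ∈ S, φ0 t + ∑ i, φ i t = 1) ∧ ∫ t in S, φ0 t ∂μ ≤ ε := by
  obtain ⟨O, hO1, hO, hO2⟩ := Set.exists_isOpen_lt_of_lt (μ := μ)
    {t | ¬(t ∈ S → t ∈ T)} (ENNReal.ofReal ε)
    (by rw [hμ (ae_iff.1 hT)]; exact ENNReal.ofReal_pos.2 hε)
  have hKT : ∀ t ∈ S \ O, t ∈ T := fun t ht => by
    by_contra h
    exact ht.2 (hO1 fun h' => h (h' ht.1))
  obtain ⟨K, hK1, hK2⟩ := (hS.diff hO).elim_nhds_subcover (fun c => ball c (η c))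
    fun c hc => ball_mem_nhds c (hη c (hKT c hc))
  let c : Fin K.card → ℝ := fun i => K.equivFin.symm i
  obtain ⟨f, f1⟩ := SmoothPartitionOfUnity.exists_isSubordinate (modelWithCornersSelf ℝ ℝ)
    hS.isClosed (Fin.cons O fun i => ball (c i) (η (c i)) : Fin (K.card + 1) → Set ℝ)
    (fun i => Fin.cases hO (fun _ => isOpen_ball) i) (fun t ht => by
      by_cases h : t ∈ O
      · exact mem_iUnion.2 ⟨0, h⟩
      · obtain ⟨x, hx, hxt⟩ := mem_iUnion₂.1 (hK2 ⟨ht, h⟩)
        refine mem_iUnion.2 ⟨(K.equivFin ⟨x, hx⟩).succ, ?_⟩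
        simpa only [Fin.cons_succ, c, Equiv.symm_apply_apply] using hxt)
  have hsum : ∀ t, f 0 t + ∑ i : Fin K.card, f i.succ t = ∑ᶠ i, f i t := fun t => by
    rw [finsum_eq_sum_of_fintype, Fin.sum_univ_succ]
  refine ⟨K.card, c, fun i t => f i.succ t, fun t => f 0 t, fun i =>
    ⟨hKT _ (hK1 _ (K.equivFin.symm i).2), (hK1 _ (K.equivFin.symm i).2).1,
      (f i.succ).contMDiff.contDiff, f.nonneg _, fun t ht => ?_⟩, (f 0).contMDiff.contDiff,
    f.nonneg _, fun t => (hsum t).trans_le (f.sum_le_one t),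
    fun t ht => (hsum t).trans (f.sum_eq_one ht), ?_⟩
  · refine image_eq_zero_of_notMem_tsupport fun h => ?_
    have h1 := f1 i.succ h
    rw [Fin.cons_succ, mem_ball, Real.dist_eq] at h1
    exact absurd h1 (not_lt.2 ht)
  · have h1 : ∫ t in S, f 0 t ∂μ ≤ ∫ t in S, O.indicator (fun _ => (1 : ℝ)) t ∂μ := by
      refine integral_mono_of_nonneg (Eventually.of_forall (f.nonneg _))
        ((integrable_const 1).indicator hO.measurableSet) (Eventually.of_forall fun t => ?_)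
      by_cases h : t ∈ O
      · simp only [indicator_of_mem h]
        exact f.le_one _ _
      · simp only [indicator_of_notMem h]
        exact (image_eq_zero_of_notMem_tsupport fun h' => h (f1 0 h')).le
    rw [integral_indicator_const _ hO.measurableSet, smul_eq_mul, mul_one] at h1
    exact h1.trans (ENNReal.toReal_le_of_le_ofReal hε.le
      ((Measure.restrict_le_self O).trans hO2.le))

end Vale.P116A
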