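import Vale.Agent.P116A.MLDefs

/-!
Continuous logarithms along chains and the integer index function of a loop made of two chains
and two segments.

`exists_logChain`: the relation (R a b := the conclusion) is reflexive (C = {a}, l = 0),
transitive (union of the C, sum of the l), symmetric (-l) and holds for b in a small ball around a
inside O (C = segment a b, l z = Complex.log ((z - b) / (z - a)), which lies in the slit plane
for z off the segment); conclude with preconnectedness (the set of b with R a b is relatively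
clopen, e.g. `IsPreconnected.induction₂` / `IsPreconnected.induction₂'`).

`exists_index`: take chains (C1, l1) from p + r u to q + r v in Op and (C2, l2) from q - r v to
p - r u in Om. S z = log ((z - (p + r u)) / (z - (p - r u))) + l1 z
+ log ((z - (q - r v)) / (z - (q + r v))) + l2 z has exp (S z) = 1 off C1, C2 and the four end
points, so S z = n z * (2 pi i) (`Complex.exp_eq_one_iff`; define n z := round ((S z / (2 pi i)).re)).
S is continuous off C and the two segments, hence n is locally constant there, and S tends to 0 at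
infinity. Near p put X z = (z - (p + r u)) / (z - (p - r u)); X p = -1, the sign of (X z).im is the
sign of ct p u z, and log X = log (-X) + pi i if im X > 0, log X = log (-X) - pi i if im X < 0;
log (-X) is continuous at p, so (rest + log (-X) + pi i) / (2 pi i) is an integer valued function
continuous at p: it is a constant a + 1 near p. Same at q with the opposite sign.
-/

namespace Vale.P116A

open Set Filter Topology Metric

/-- The principal logarithm of the quotient. -/
noncomputable def mllLg (a b z : ℂ) : ℂ := Complex.log ((z - b) / (z - a))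

/-- The integer `n` with `w = n * (2 pi i)`. -/
noncomputable def mllIdx (w : ℂ) : ℤ := round (w / (2 * Real.pi * Complex.I)).re

lemma mll_idx (n : ℤ) : mllIdx (n * (2 * Real.pi * Complex.I)) = n := by
  rw [mllIdx, mul_div_cancel_right₀ _ Complex.two_pi_I_ne_zero]
  simp

lemma mll_slit {a b z : ℂ} (h : z ∉ segment ℝ a b) : (z - b) / (z - a) ∈ Complex.slitPlane := by
  by_contra hs
  rw [Complex.mem_slitPlane_iff, not_or, not_lt, not_not] at hs
  have hz : z - a ≠ 0 := sub_ne_zero.2 fun e => h (e ▸ left_mem_segment ℝ _ b)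
  obtain ⟨t, ht, e⟩ : ∃ t : ℝ, 0 ≤ t ∧ (z - b) / (z - a) = -(t : ℂ) :=
    ⟨-((z - b) / (z - a)).re, by linarith [hs.1], Complex.ext (by simp) (by simp [hs.2])⟩
  rw [div_eq_iff hz] at e
  have h1 : (1 + t) ≠ 0 := by positivity
  have h2 : (1 + (t : ℂ)) ≠ 0 := by exact_mod_cast h1
  refine h ⟨t / (1 + t), 1 / (1 + t), by positivity, by positivity, by field_simp; ring, ?_⟩
  simp only [Complex.real_smul]
  push_cast
  field_simp
  linear_combination -e

lemma mll_cont {a b z : ℂ} (h : z ∉ segment ℝ a b) : ContinuousAt (mllLg a b) z := by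
  have hz : z - a ≠ 0 := sub_ne_zero.2 fun e => h (e ▸ left_mem_segment ℝ _ b)
  exact ContinuousAt.clog (f := fun z => (z - b) / (z - a))
    (ContinuousAt.div (by fun_prop) (by fun_prop) hz) (mll_slit h)

lemma mll_exp {a b z : ℂ} (ha : z ≠ a) (hb : z ≠ b) :
    Complex.exp (mllLg a b z) = (z - b) / (z - a) :=
  Complex.exp_log (div_ne_zero (sub_ne_zero.2 hb) (sub_ne_zero.2 ha))

lemma mll_tendsto (a b : ℂ) : Tendsto (mllLg a b) (cocompact ℂ) (𝓝 0) := by
  have h1 : Tendsto (fun z : ℂ => (z - a)⁻¹) (cocompact ℂ) (𝓝 0) := by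
    rw [← Metric.cobounded_eq_cocompact]
    exact tendsto_inv₀_cobounded.comp (tendsto_sub_const_cobounded a)
  have h2 : Tendsto (fun z : ℂ => (z - b) / (z - a)) (cocompact ℂ) (𝓝 1) := by
    have h3 := (h1.const_mul (a - b)).const_add 1
    rw [mul_zero, add_zero] at h3
    refine h3.congr' ?_
    filter_upwards [(isCompact_singleton (x := a)).compl_mem_cocompact] with z hz
    have : z - a ≠ 0 := sub_ne_zero.2 hz
    field_simp
    ring
  have := h2.clog Complex.one_mem_slitPlane
  rwa [Complex.log_one] at this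

lemma mll_seg (a b : ℂ) : IsCompact (segment ℝ a b) := by
  rw [segment_eq_image]
  exact isCompact_Icc.image (by fun_prop)

lemma mll_const {α : Type*} {l : Filter α} {F : α → ℂ} {c : ℂ} (h : Tendsto F l (𝓝 c))
    (he : ∀ᶠ z in l, Complex.exp (F z) = Complex.exp c) : ∀ᶠ z in l, F z = c := by
  filter_upwards [he, h.eventually (ball_mem_nhds c one_pos)] with z h1 h2
  obtain ⟨n, hn⟩ := Complex.exp_eq_exp_iff_exists_int.1 h1
  rw [hn, dist_eq_norm, add_sub_cancel_left] at h2
  have h3 : |(n : ℝ)| * (2 * Real.pi) < 1 := by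
    simpa [abs_of_pos Real.pi_pos] using h2
  have h4 : |(n : ℝ)| < 1 := by nlinarith [Real.two_le_pi, abs_nonneg (n : ℝ)]
  have h5 : n = 0 := Int.abs_lt_one_iff.1 (by exact_mod_cast h4)
  rw [hn, h5]
  simp

lemma mll_im (p u z : ℂ) (r : ℝ) :
    ((z - (p + r * u)) / (z - (p - r * u))).im =
      2 * r * ct p u z / Complex.normSq (z - (p - r * u)) := by
  rw [Complex.div_im, ct]
  simp only [Complex.sub_im, Complex.sub_re, Complex.add_im, Complex.add_re, Complex.mul_im,
    Complex.mul_re, Complex.ofReal_re, Complex.ofReal_im, Complex.conj_re, Complex.conj_im]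
  ring

lemma mll_jump {p u A B : ℂ} {r : ℝ} (hu : ‖u‖ = 1) (hr : 0 < r) (hA : A = p - r * u)
    (hB : B = p + r * u) {R : ℂ → ℂ} (hR : ContinuousAt R p)
    (he : ∀ᶠ z in 𝓝 p, (z - B) / (z - A) * Complex.exp (R z) = 1) :
    ∃ a : ℤ, ∀ᶠ z in 𝓝 p, (0 < ct p u z → mllIdx (mllLg A B z + R z) = a + 1) ∧
      (ct p u z < 0 → mllIdx (mllLg A B z + R z) = a) := by
  subst hA hB
  have hru : (r : ℂ) * u ≠ 0 :=
    mul_ne_zero (Complex.ofReal_ne_zero.2 hr.ne')
      (norm_ne_zero_iff.1 (by rw [hu]; exact one_ne_zero))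
  have hp : p - (p - r * u) ≠ 0 := by rwa [sub_sub_cancel]
  have hX : ContinuousAt (fun z => -((z - (p + r * u)) / (z - (p - r * u)))) p :=
    (ContinuousAt.div (continuousAt_id.sub continuousAt_const)
      (continuousAt_id.sub continuousAt_const) hp).neg
  have hX1 : -((p - (p + r * u)) / (p - (p - r * u))) = 1 := by
    rw [sub_sub_cancel, sub_add_cancel_left, neg_div, neg_neg, div_self hru]
  have hG : ContinuousAt (fun z => Complex.log (-((z - (p + r * u)) / (z - (p - r * u))))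
      + Real.pi * Complex.I + R z) p :=
    ((hX.clog (hX1 ▸ Complex.one_mem_slitPlane)).add continuousAt_const).add hR
  have hE : ∀ᶠ z in 𝓝 p, Complex.exp (Complex.log (-((z - (p + r * u)) / (z - (p - r * u))))
      + Real.pi * Complex.I + R z) = 1 := he.mono fun z hz => by
    rw [Complex.exp_add, Complex.exp_add, Complex.exp_pi_mul_I,
      Complex.exp_log (neg_ne_zero.2 (left_ne_zero_of_mul_eq_one hz))]
    linear_combination hz
  obtain ⟨m, hm⟩ := Complex.exp_eq_one_iff.1 hE.self_of_nhds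
  refine ⟨m - 1, ?_⟩
  filter_upwards [mll_const hG.tendsto (hE.mono fun z hz => hz.trans hE.self_of_nhds.symm), he]
    with z hz hz'
  rw [hm] at hz
  have h0 : 0 < Complex.normSq (z - (p - r * u)) := Complex.normSq_pos.2 fun e => by
    rw [e, div_zero, zero_mul] at hz'
    exact zero_ne_one hz'
  constructor
  · intro h
    have h1 : 0 < ((z - (p + r * u)) / (z - (p - r * u))).im := by
      rw [mll_im]
      positivity
    rw [sub_add_cancel, ← mll_idx m, ← hz, mllLg, Complex.log, Complex.log, norm_neg,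
      Complex.arg_neg_eq_arg_sub_pi_of_im_pos h1]
    congr 1
    push_cast
    ring
  · intro h
    have h1 : ((z - (p + r * u)) / (z - (p - r * u))).im < 0 := by
      rw [mll_im]
      exact div_neg_of_neg_of_pos (mul_neg_of_pos_of_neg (by positivity) h) h0
    rw [← mll_idx (m - 1), Int.cast_sub, sub_mul, ← hz, mllLg, Complex.log, Complex.log, norm_neg,
      Complex.arg_neg_eq_arg_add_pi_of_im_neg h1]
    congr 1
    push_cast
    ring

theorem exists_logChain {O : Set ℂ} (hO : IsOpen O) (hc : IsPreconnected O) {a b : ℂ}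
    (ha : a ∈ O) (hb : b ∈ O) :
    ∃ C : Set ℂ, IsCompact C ∧ C ⊆ O ∧ a ∈ C ∧ b ∈ C ∧ ∃ l : ℂ → ℂ, ContinuousOn l Cᶜ ∧
      (∀ z, z ∉ C → Complex.exp (l z) = (z - b) / (z - a)) ∧ Tendsto l (cocompact ℂ) (𝓝 0) := by
  refine hc.induction₂' (fun a b => ∃ C : Set ℂ, IsCompact C ∧ C ⊆ O ∧ a ∈ C ∧ b ∈ C ∧
    ∃ l : ℂ → ℂ, ContinuousOn l Cᶜ ∧ (∀ z, z ∉ C → Complex.exp (l z) = (z - b) / (z - a)) ∧
      Tendsto l (cocompact ℂ) (𝓝 0)) (fun x hx => ?_) ?_ ha hb
  · obtain ⟨ε, hε, hB⟩ := Metric.isOpen_iff.1 hO x hx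
    have key : ∀ a ∈ ball x ε, ∀ b ∈ ball x ε, ∃ C : Set ℂ, IsCompact C ∧ C ⊆ O ∧ a ∈ C ∧ b ∈ C ∧
        ∃ l : ℂ → ℂ, ContinuousOn l Cᶜ ∧ (∀ z, z ∉ C → Complex.exp (l z) = (z - b) / (z - a)) ∧
        Tendsto l (cocompact ℂ) (𝓝 0) := fun a ha b hb =>
      ⟨segment ℝ a b, mll_seg a b, ((convex_ball x ε).segment_subset ha hb).trans hB,
        left_mem_segment ℝ a b, right_mem_segment ℝ a b, mllLg a b,
        fun z hz => (mll_cont hz).continuousWithinAt,
        fun z hz => mll_exp (fun e => hz (e ▸ left_mem_segment ℝ _ b))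
          (fun e => hz (e ▸ right_mem_segment ℝ a _)), mll_tendsto a b⟩
    filter_upwards [mem_nhdsWithin_of_mem_nhds (ball_mem_nhds x hε)] with y hy
    exact ⟨key x (mem_ball_self hε) y hy, key y hy x (mem_ball_self hε)⟩
  · rintro x y w - - - ⟨C, c1, c2, c3, c4, l, l1, l2, l3⟩ ⟨D, d1, d2, d3, d4, m, m1, m2, m3⟩
    refine ⟨C ∪ D, c1.union d1, union_subset c2 d2, Or.inl c3, Or.inr d4, fun z => l z + m z,
      (l1.mono (compl_subset_compl.2 subset_union_left)).add
        (m1.mono (compl_subset_compl.2 subset_union_right)),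
      fun z hz => ?_, by simpa using l3.add m3⟩
    have h1 : z - y ≠ 0 := sub_ne_zero.2 fun e => hz (Or.inl (e ▸ c4))
    rw [Complex.exp_add, l2 z fun e => hz (Or.inl e), m2 z fun e => hz (Or.inr e), mul_comm,
      div_mul_div_cancel₀ h1]

theorem exists_index {Op Om : Set ℂ} (hOp : IsOpen Op) (hcp : IsPreconnected Op)
    (hOm : IsOpen Om) (hcm : IsPreconnected Om) {p q u v : ℂ} {r : ℝ} (hu : ‖u‖ = 1)
    (hv : ‖v‖ = 1) (hr : 0 < r) (h1 : p + r * u ∈ Op) (h2 : q + r * v ∈ Op)
    (h3 : p - r * u ∈ Om) (h4 : q - r * v ∈ Om) (hp : p ∉ Op ∪ Om) (hq : q ∉ Op ∪ Om)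
    (hpq : p ∉ segment ℝ (q - r * v) (q + r * v)) (hqp : q ∉ segment ℝ (p - r * u) (p + r * u)) :
    ∃ (C : Set ℂ) (n : ℂ → ℤ), IsCompact C ∧ C ⊆ Op ∪ Om ∧
      (∀ z, z ∉ C → z ∉ segment ℝ (p - r * u) (p + r * u) →
        z ∉ segment ℝ (q - r * v) (q + r * v) → ∀ᶠ z' in 𝓝 z, n z' = n z) ∧
      (∀ᶠ z in cocompact ℂ, n z = 0) ∧
      ∃ ρ : ℝ, 0 < ρ ∧ ∃ a b : ℤ,
        (∀ z ∈ ball p ρ, (0 < ct p u z → n z = a + 1) ∧ (ct p u z < 0 → n z = a)) ∧
        (∀ z ∈ ball q ρ, (0 < ct q v z → n z = b - 1) ∧ (ct q v z < 0 → n z = b)) := by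
  obtain ⟨C, c1, c2, c3, c4, l, l1, l2, l3⟩ := exists_logChain hOp hcp h1 h2
  obtain ⟨D, d1, d2, d3, d4, m, m1, m2, m3⟩ := exists_logChain hOm hcm h4 h3
  have hK := c1.union d1
  have hsub : C ∪ D ⊆ Op ∪ Om := union_subset_union c2 d2
  have hne : ∀ z, z ∉ C ∪ D → ∀ w ∈ C ∪ D, z ≠ w := fun z hz w hw e => hz (e ▸ hw)
  have hlm : ∀ z, z ∉ C ∪ D → ContinuousAt (fun z => l z + m z) z := fun z hz =>
    (l1.continuousAt (c1.isClosed.isOpen_compl.mem_nhds fun e => hz (Or.inl e))).add
      (m1.continuousAt (d1.isClosed.isOpen_compl.mem_nhds fun e => hz (Or.inr e)))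
  have hE : ∀ z, z ∉ C ∪ D → Complex.exp (mllLg (p - r * u) (p + r * u) z +
      (mllLg (q + r * v) (q - r * v) z + (l z + m z))) = 1 := fun z hz => by
    have e1 := hne z hz _ (Or.inl c3)
    have e2 := hne z hz _ (Or.inl c4)
    have e3 := hne z hz _ (Or.inr d3)
    have e4 := hne z hz _ (Or.inr d4)
    rw [Complex.exp_add, Complex.exp_add, Complex.exp_add, mll_exp e4 e1, mll_exp e2 e3,
      l2 z fun e => hz (Or.inl e), m2 z fun e => hz (Or.inr e)]
    rw [← sub_ne_zero] at e1 e2 e3 e4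
    field_simp
  have hN : ∀ z, z ∉ C ∪ D → ∀ᶠ z' in 𝓝 z, z' ∉ C ∪ D := fun z hz =>
    hK.isClosed.isOpen_compl.mem_nhds hz
  refine ⟨C ∪ D, fun z => mllIdx (mllLg (p - r * u) (p + r * u) z +
    (mllLg (q + r * v) (q - r * v) z + (l z + m z))), hK, hsub, fun z z1 z2 z3 => ?_, ?_, ?_⟩
  · rw [segment_symm] at z3
    exact (mll_const ((mll_cont z2).add ((mll_cont z3).add (hlm z z1))).tendsto
      ((hN z z1).mono fun w hw => (hE w hw).trans (hE z z1).symm)).mono
      fun w hw => congrArg mllIdx hw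
  · have h := (mll_tendsto (p - r * u) (p + r * u)).add
      ((mll_tendsto (q + r * v) (q - r * v)).add (l3.add m3))
    simp only [add_zero] at h
    refine (mll_const h ?_).mono fun w hw => ?_
    · filter_upwards [hK.compl_mem_cocompact] with w hw
      rw [hE w hw, Complex.exp_zero]
    · simp only [hw, mllIdx]
      simp
  have hp' : p ∉ C ∪ D := fun e => hp (hsub e)
  have hq' : q ∉ C ∪ D := fun e => hq (hsub e)
  rw [segment_symm] at hpq
  obtain ⟨a, ha⟩ := mll_jump hu hr rfl rfl ((mll_cont hpq).add (hlm p hp'))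
    ((hN p hp').mono fun z hz => by
      rw [← mll_exp (hne z hz _ (Or.inr d4)) (hne z hz _ (Or.inl c3)), ← Complex.exp_add]
      exact hE z hz)
  obtain ⟨b, hb⟩ := mll_jump (p := q) (u := -v) (A := q + r * v) (B := q - r * v)
    (by rwa [norm_neg]) hr (by ring) (by ring) ((mll_cont hqp).add (hlm q hq'))
    ((hN q hq').mono fun z hz => by
      rw [← mll_exp (hne z hz _ (Or.inl c4)) (hne z hz _ (Or.inr d3)), ← Complex.exp_add,
        ← hE z hz]
      exact congrArg Complex.exp (add_left_comm _ _ _))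
  obtain ⟨ρ, hρ, ha⟩ := Metric.eventually_nhds_iff_ball.1 ha
  obtain ⟨σ, hσ, hb⟩ := Metric.eventually_nhds_iff_ball.1 hb
  refine ⟨min ρ σ, lt_min hρ hσ, a, b + 1, fun z hz => ha z (ball_subset_ball (min_le_left _ _) hz),
    fun z hz => ?_⟩
  have := hb z (ball_subset_ball (min_le_right _ _) hz)
  rw [ct_neg, neg_pos, neg_lt_zero] at this
  simp only [add_sub_cancel_right]
  rw [add_left_comm]
  exact ⟨this.2, this.1⟩

end Vale.P116A
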