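import Vale.Agent.P116A.MLGrid

/-!
A polygonal neighbourhood of K and infinity, and its crossings with generic levels.

`exists_poly`: choose R with K in ball 0 R and {R <= norm} inside V. `exists_grid` for (K, J = K,
V inter ball 0 R) gives U, h; `exists_grid` for (K := closedBall 0 R, J := closedBall 0 R,
ball 0 (R + 1)) gives U', h'. W = U union U'^c, Fr = frontier U union frontier U', C = grid vertices
of both meshes, A = multiples of h and of h'. frontier U lies in ball 0 R, where U' is a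
neighbourhood of every point; frontier U' lies outside closedBall 0 R, which misses closure U.
Points of an open half ball on which membership is constant are not frontier points.

`levels`: exceptional levels: w '' C (countable) and, for c in A, the critical values of
s -> w (s + c I) and of s -> w (c + s I) on the open set where the point is not in K (null by
`MeasureTheory.addHaar_image_eq_zero_of_det_fderivWithin_eq_zero` in dimension one). At a crossing
point the derivative along the line is not zero; replace u by -u if it is negative (`ct_neg`,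
swap the two sides). Finiteness: Fr inter {w = t} is compact and discrete (near such a point Fr lies
on the line, `eq_line_of_ct`, and s -> w (z + s u) has nonzero derivative at 0, so it differs from t
for small s /= 0, `HasDerivAt.eventually_ne`); `IsCompact.finite`.
-/

namespace Vale.P116A

open Set Filter Topology Metric MeasureTheory

/-- Data of a polygonal set `W` whose frontier is contained in `Fr`. -/
def Poly (W Fr C : Set ℂ) (A : Set ℝ) : Prop :=
  C.Countable ∧ A.Countable ∧ IsCompact Fr ∧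
    (∀ z, z ∉ Fr → ∀ᶠ z' in 𝓝 z, (z' ∈ W ↔ z ∈ W)) ∧
    ∀ z ∈ Fr, z ∈ C ∨ ∃ u : ℂ, ((u = 1 ∧ z.im ∈ A) ∨ (u = Complex.I ∧ z.re ∈ A)) ∧
      ∃ ρ : ℝ, 0 < ρ ∧ ∃ α β : Prop, ∀ z' ∈ ball z ρ,
        (0 < ct z u z' → (z' ∈ W ↔ α) ∧ z' ∉ Fr) ∧ (ct z u z' < 0 → (z' ∈ W ↔ β) ∧ z' ∉ Fr)

lemma poly_const {U : Set ℂ} {z : ℂ} (hz : z ∉ frontier U) :
    ∀ᶠ z' in 𝓝 z, (z' ∈ U ↔ z ∈ U) := by
  by_cases h : z ∈ closure U
  · have h1 : z ∈ interior U := by
      by_contra h2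
      exact hz ⟨h, h2⟩
    filter_upwards [mem_interior_iff_mem_nhds.1 h1] with z' hz'
    exact iff_of_true hz' (interior_subset h1)
  · filter_upwards [isClosed_closure.isOpen_compl.mem_nhds h] with z' hz'
    exact iff_of_false (fun h1 => hz' (subset_closure h1)) fun h1 => h (subset_closure h1)

lemma poly_half {U O : Set ℂ} (hO : IsOpen O) {α : Prop} (h : ∀ z ∈ O, (z ∈ U ↔ α)) {z : ℂ}
    (hz : z ∈ O) : z ∉ frontier U := by
  intro h1
  obtain ⟨y, hy, hyU⟩ := mem_closure_iff.1 h1.1 _ hO hz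
  exact h1.2 (mem_interior_iff_mem_nhds.2 (mem_of_superset (hO.mem_nhds hz)
    fun z' hz' => (h z' hz').2 ((h y hy).1 hyU)))

lemma poly_loc {U W Fr O : Set ℂ} (hO : IsOpen O) {z u : ℂ} (hz : z ∈ O) (φ : Prop → Prop)
    (h1 : ∀ z' ∈ O, (z' ∈ W ↔ φ (z' ∈ U))) (h2 : ∀ z' ∈ O, z' ∈ Fr → z' ∈ frontier U)
    (h : ∃ ρ : ℝ, 0 < ρ ∧ ∃ α β : Prop, ∀ z' ∈ ball z ρ,
      (0 < ct z u z' → (z' ∈ U ↔ α)) ∧ (ct z u z' < 0 → (z' ∈ U ↔ β))) :
    ∃ ρ : ℝ, 0 < ρ ∧ ∃ α β : Prop, ∀ z' ∈ ball z ρ,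
      (0 < ct z u z' → (z' ∈ W ↔ α) ∧ z' ∉ Fr) ∧ (ct z u z' < 0 → (z' ∈ W ↔ β) ∧ z' ∉ Fr) := by
  obtain ⟨ρ, hρ, α, β, h⟩ := h
  obtain ⟨ε, hε, hεO⟩ := Metric.isOpen_iff.1 hO z hz
  refine ⟨min ρ ε, lt_min hρ hε, φ α, φ β, fun z' hz' => ?_⟩
  have h3 : z' ∈ ball z ρ := ball_subset_ball (min_le_left _ _) hz'
  have h4 : z' ∈ O := hεO (ball_subset_ball (min_le_right _ _) hz')
  refine ⟨fun h5 => ⟨by rw [h1 z' h4, (h z' h3).1 h5], fun h6 => ?_⟩,
    fun h5 => ⟨by rw [h1 z' h4, (h z' h3).2 h5], fun h6 => ?_⟩⟩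
  · exact poly_half (isOpen_ball.inter (isOpen_lt continuous_const (continuous_ct z u)))
      (fun y hy => (h y hy.1).1 hy.2) ⟨h3, h5⟩ (h2 z' h4 h6)
  · exact poly_half (isOpen_ball.inter (isOpen_lt (continuous_ct z u) continuous_const))
      (fun y hy => (h y hy.1).2 hy.2) ⟨h3, h5⟩ (h2 z' h4 h6)

theorem exists_poly {K V : Set ℂ} (hK : IsCompact K) (hV : IsOpen V) (hKV : K ⊆ V)
    (hinf : ∀ᶠ z in cocompact ℂ, z ∈ V) :
    ∃ (W Fr C : Set ℂ) (A : Set ℝ), Poly W Fr C A ∧ Fr ⊆ V \ K ∧ W ⊆ V ∧ K ⊆ W ∧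
      ∀ᶠ z in cocompact ℂ, z ∈ W := by
  obtain ⟨t, ht, htV⟩ := mem_cocompact.1 hinf
  obtain ⟨R, hR⟩ := (hK.union ht).isBounded.subset_ball 0
  have hout : ∀ z, z ∉ closedBall (0 : ℂ) R → z ∈ V ∧ z ∉ K := fun z hz =>
    ⟨htV fun h => hz (ball_subset_closedBall (hR (Or.inr h))),
      fun h => hz (ball_subset_closedBall (hR (Or.inl h)))⟩
  obtain ⟨U, h, -, hb, hcl, hn, -, hf⟩ := exists_grid (K := K) hK (by simp)
    (hV.inter isOpen_ball) fun z hz => ⟨hKV hz, hR (Or.inl hz)⟩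
  obtain ⟨U', h', -, hb', -, hn', -, hf'⟩ := exists_grid (K := closedBall (0 : ℂ) R)
    (isCompact_closedBall 0 R) (by simp) isOpen_univ (subset_univ _)
  have e1 : ∀ z ∈ closedBall (0 : ℂ) R, z ∉ frontier U' := fun z hz h1 =>
    h1.2 (mem_interior_iff_mem_nhds.2 (hn' z hz))
  refine ⟨U ∪ U'ᶜ, frontier U ∪ frontier U',
    range (fun p : ℤ × ℤ => (⟨p.1 * h, p.2 * h⟩ : ℂ)) ∪
      range (fun p : ℤ × ℤ => (⟨p.1 * h', p.2 * h'⟩ : ℂ)),
    range (fun n : ℤ => n * h) ∪ range (fun n : ℤ => n * h'),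
    ⟨(countable_range _).union (countable_range _), (countable_range _).union (countable_range _),
      ?_, fun z hz => ?_, ?_⟩, ?_, ?_, fun z hz => Or.inl (mem_of_mem_nhds (hn z hz)), ?_⟩
  · exact (isCompact_of_isClosed_isBounded isClosed_frontier
      (hb.closure.subset frontier_subset_closure)).union (isCompact_of_isClosed_isBounded
        isClosed_frontier (hb'.closure.subset frontier_subset_closure))
  · filter_upwards [poly_const fun h1 => hz (Or.inl h1), poly_const fun h1 => hz (Or.inr h1)]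
      with z' h1 h2
    simp only [mem_union, mem_compl_iff, h1, h2]
  · rintro z (hz | hz)
    · rcases hf z hz with ⟨m, n, h1, h2⟩ | ⟨u, hu, h1⟩
      · exact Or.inl (Or.inl ⟨(m, n), Complex.ext h1.symm h2.symm⟩)
      · refine Or.inr ⟨u, hu.imp (fun ⟨h2, n, h3⟩ => ⟨h2, Or.inl ⟨n, h3.symm⟩⟩)
          fun ⟨h2, n, h3⟩ => ⟨h2, Or.inl ⟨n, h3.symm⟩⟩, ?_⟩
        refine poly_loc isOpen_ball (hcl hz.1).2 id (fun z' hz' => ?_) (fun z' hz' h2 => ?_) h1
        · have h2 := mem_of_mem_nhds (hn' z' (ball_subset_closedBall hz'))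
          simp [h2]
        · exact h2.resolve_right (e1 z' (ball_subset_closedBall hz'))
    · rcases hf' z hz with ⟨m, n, h1, h2⟩ | ⟨u, hu, h1⟩
      · exact Or.inl (Or.inr ⟨(m, n), Complex.ext h1.symm h2.symm⟩)
      · refine Or.inr ⟨u, hu.imp (fun ⟨h2, n, h3⟩ => ⟨h2, Or.inr ⟨n, h3.symm⟩⟩)
          fun ⟨h2, n, h3⟩ => ⟨h2, Or.inr ⟨n, h3.symm⟩⟩, ?_⟩
        have e2 : ∀ z' ∈ (closedBall (0 : ℂ) R)ᶜ, z' ∉ closure U := fun z' hz' h2 =>
          hz' (ball_subset_closedBall (hcl h2).2)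
        refine poly_loc isClosed_closedBall.isOpen_compl (fun h2 => e1 z h2 hz) Not
          (fun z' hz' => ?_) (fun z' hz' h2 => ?_) h1
        · have h2 : z' ∉ U := fun h3 => e2 z' hz' (subset_closure h3)
          simp [h2]
        · exact h2.resolve_left fun h3 => e2 z' hz' h3.1
  · rintro z (hz | hz)
    · exact ⟨(hcl hz.1).1, fun h1 => hz.2 (mem_interior_iff_mem_nhds.2 (hn z h1))⟩
    · exact hout z fun h1 => e1 z h1 hz
  · rintro z (hz | hz)
    · exact (hcl (subset_closure hz)).1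
    · exact (hout z fun h1 => hz (mem_of_mem_nhds (hn' z h1))).1
  · exact mem_cocompact.2 ⟨closure U', isCompact_of_isClosed_isBounded isClosed_closure hb'.closure,
      fun z hz => Or.inr fun h1 => hz (subset_closure h1)⟩

lemma poly_line {w : ℂ → ℝ} (p u : ℂ) (s : ℝ) (hw : ContDiffAt ℝ 1 w (p + s * u)) :
    HasDerivAt (fun s : ℝ => w (p + s * u)) (fderiv ℝ w (p + s * u) u) s := by
  have h1 : HasDerivAt (fun s : ℝ => p + s * u) u s := by
    simpa using ((Complex.ofRealCLM.hasDerivAt (x := s)).mul_const u).const_add p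
  exact (hw.differentiableAt one_ne_zero).hasFDerivAt.comp_hasDerivAt s h1

lemma poly_crit {K : Set ℂ} {w : ℂ → ℝ} (hw : ∀ z, z ∉ K → ContDiffAt ℝ 1 w z) (p u : ℂ) :
    ∀ᵐ t : ℝ, ∀ s : ℝ, p + s * u ∉ K → w (p + s * u) = t → fderiv ℝ w (p + s * u) u ≠ 0 := by
  have h1 := addHaar_image_eq_zero_of_det_fderivWithin_eq_zero volume
    (s := {s : ℝ | p + s * u ∉ K ∧ fderiv ℝ w (p + s * u) u = 0})
    (f := fun s : ℝ => w (p + s * u)) (f' := fun _ => 0) (fun s hs => by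
      have h2 := (poly_line p u s (hw _ hs.1)).hasFDerivAt
      rw [hs.2, ContinuousLinearMap.toSpanSingleton_zero] at h2
      exact h2.hasFDerivWithinAt) fun s _ => by simp [ContinuousLinearMap.det]
  filter_upwards [measure_eq_zero_iff_ae_notMem.1 h1] with t ht s h2 h3 h4
  exact ht ⟨s, ⟨h2, h4⟩, h3⟩

theorem levels {K W Fr C : Set ℂ} {A : Set ℝ} (hK : IsClosed K) {w : ℂ → ℝ}
    (hw : ∀ z, z ∉ K → ContDiffAt ℝ 1 w z) (hP : Poly W Fr C A) (hF : Fr ⊆ Kᶜ) :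
    ∀ᵐ t : ℝ, (Fr ∩ {z | w z = t}).Finite ∧ ∀ z ∈ Fr, w z = t →
      ∃ u : ℂ, (u = 1 ∨ u = -1 ∨ u = Complex.I ∨ u = -Complex.I) ∧ 0 < fderiv ℝ w z u ∧
        ∃ ρ : ℝ, 0 < ρ ∧ ∃ α β : Prop, ∀ z' ∈ ball z ρ,
          (0 < ct z u z' → (z' ∈ W ↔ α)) ∧ (ct z u z' < 0 → (z' ∈ W ↔ β)) := by
  obtain ⟨hC, hA, hFr, -, hP⟩ := hP
  filter_upwards [(hC.image w).ae_notMem volume,
    (ae_ball_iff hA).2 fun (c : ℝ) _ => poly_crit hw (c * Complex.I) 1,
    (ae_ball_iff hA).2 fun (c : ℝ) _ => poly_crit hw c Complex.I] with t h1 h2 h3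
  have key : ∀ z ∈ Fr, w z = t → ∃ u : ℂ, (u = 1 ∨ u = Complex.I) ∧ fderiv ℝ w z u ≠ 0 ∧
      ∃ ρ : ℝ, 0 < ρ ∧ ∃ α β : Prop, ∀ z' ∈ ball z ρ,
        (0 < ct z u z' → (z' ∈ W ↔ α) ∧ z' ∉ Fr) ∧ (ct z u z' < 0 → (z' ∈ W ↔ β) ∧ z' ∉ Fr) := by
    intro z hz hwz
    obtain ⟨u, hu, h4⟩ := (hP z hz).resolve_left fun h4 => h1 ⟨z, h4, hwz⟩
    refine ⟨u, hu.imp And.left And.left, ?_, h4⟩
    rcases hu with ⟨rfl, h5⟩ | ⟨rfl, h5⟩
    · have h6 := h2 _ h5 z.re
      rw [mul_one, add_comm, Complex.re_add_im] at h6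
      exact h6 (hF hz) hwz
    · have h6 := h3 _ h5 z.im
      rw [Complex.re_add_im] at h6
      exact h6 (hF hz) hwz
  constructor
  · have hc : ContinuousOn w Fr := fun z hz => (hw z (hF hz)).continuousAt.continuousWithinAt
    refine (hFr.of_isClosed_subset (hc.preimage_isClosed_of_isClosed hFr.isClosed
      (isClosed_singleton (x := t))) inter_subset_left).finite ?_
    refine isDiscrete_iff_nhdsNE.2 fun z hz => inf_principal_eq_bot.2 ?_
    obtain ⟨u, hu, h4, ρ, hρ, α, β, h5⟩ := key z hz.1 hz.2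
    have hn : ‖u‖ = 1 := by rcases hu with rfl | rfl <;> simp
    have h6 := poly_line (w := w) z u 0 (by simpa using hw z (hF hz.1))
    have h7 := h6.eventually_ne (c := t) (by simpa using h4)
    obtain ⟨ε, hε, h8⟩ := Metric.eventually_nhds_iff.1 (eventually_nhdsWithin_iff.1 h7)
    filter_upwards [self_mem_nhdsWithin, mem_nhdsWithin_of_mem_nhds (ball_mem_nhds z hρ),
      mem_nhdsWithin_of_mem_nhds (ball_mem_nhds z hε)] with z' h9 h10 h11 h12
    have h13 : ct z u z' = 0 := by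
      rcases lt_trichotomy (ct z u z') 0 with h14 | h14 | h14
      · exact (((h5 z' h10).2 h14).2 h12.1).elim
      · exact h14
      · exact (((h5 z' h10).1 h14).2 h12.1).elim
    have h14 := eq_line_of_ct hn h13
    refine h8 (y := cs z u z') ?_ (fun h15 => h9 ?_) (h14 ▸ h12.2)
    · rw [Real.dist_0_eq_abs]
      exact (abs_cs_le hn z z').trans_lt (mem_ball_iff_norm.1 h11)
    · rw [h14, mem_singleton_iff.1 h15]
      simp
  · intro z hz hwz
    obtain ⟨u, hu, h4, ρ, hρ, α, β, h5⟩ := key z hz hwz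
    rcases h4.lt_or_gt with h6 | h6
    · refine ⟨-u, ?_, by rw [map_neg]; linarith, ρ, hρ, β, α, fun z' hz' => ?_⟩
      · rcases hu with rfl | rfl <;> simp
      · rw [ct_neg]
        exact ⟨fun h7 => ((h5 z' hz').2 (by linarith)).1, fun h7 => ((h5 z' hz').1 (by linarith)).1⟩
    · refine ⟨u, ?_, h6, ρ, hρ, α, β, fun z' hz' =>
        ⟨fun h7 => ((h5 z' hz').1 h7).1, fun h7 => ((h5 z' hz').2 h7).1⟩⟩
      rcases hu with rfl | rfl <;> simp

end Vale.P116A
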