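import Vale.Agent.P116A.MLCell
import Vale.Agent.P116A.MLPoly
import Vale.Agent.P116A.MLBox
import Vale.Agent.P116A.MLLog

/-!
The labelling at a generic level.
-/

namespace Vale.P116A

open Set Filter Topology Metric MeasureTheory
open scoped NNReal ContDiff

lemma mem_segment_line {p u z : ℂ} {r : ℝ} (hr : 0 ≤ r)
    (hz : z ∈ segment ℝ (p - r * u) (p + r * u)) : ∃ s ∈ Icc (-r) r, z = p + s * u := by
  obtain ⟨a, b, ha, hb, hab, rfl⟩ := hz
  refine ⟨(b - a) * r, ⟨by nlinarith, by nlinarith⟩, ?_⟩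
  have : (a : ℂ) + b = 1 := by exact_mod_cast hab
  simp only [Complex.real_smul]
  push_cast
  linear_combination p * this

/-- From crossing points with their local data to the labelling. -/
theorem lev_of_pts {K B : Set ℂ} (hK : IsClosed K) {w : ℂ → ℝ}
    (hw : ∀ z, z ∉ K → ContDiffAt ℝ ∞ w z) {t : ℝ} {V U : ℝ → Set ℂ}
    (hVo : ∀ τ, IsOpen (V τ)) (hVc : ∀ τ, IsPreconnected (V τ))
    (hVs : ∀ τ, V τ ⊆ {z | z ∉ K ∧ τ < w z}) (hUo : ∀ τ, IsOpen (U τ))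
    (hUc : ∀ τ, IsPreconnected (U τ)) (hUs : ∀ τ, U τ ⊆ Kᶜ)
    (hUB : ∀ τ, ∀ z ∈ B, τ < w z → z ∉ U τ) {Fr : Set ℂ} (hFr : IsCompact Fr) (hFK : Fr ⊆ Kᶜ)
    {Pa : Finset ℂ} (hPa : ∀ z ∈ Fr, w z = t → z ∈ Pa) {u : ℂ → ℂ} {In : ℂ → Prop}
    (hP : ∀ p ∈ Pa, p ∉ K ∧ w p = t ∧ ‖u p‖ = 1 ∧ 0 < fderiv ℝ w p (u p) ∧
      ∃ ρ : ℝ, 0 < ρ ∧ ∃ η : ℝ, 0 < η ∧
        (In p → ∀ z ∈ ball p ρ, (|w z - t| < η → z ∈ B) ∧ ∀ τ, |τ - t| < η →
            (τ < w z → z ∈ V τ) ∧ (w z < τ → z ∈ U τ)) ∧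
        (¬ In p → ∀ z ∈ ball p ρ, |w z - t| < η → z ∉ B))
    {Λ : Type} {M ML MR : ℂ → Λ} (hM : ∀ z, z ∉ Fr → ∀ᶠ z' in 𝓝 z, M z' = M z)
    (hMs : ∀ p ∈ Pa, ∀ᶠ z in 𝓝 p,
      (0 < ct p (u p) z → M z = ML p) ∧ (ct p (u p) z < 0 → M z = MR p))
    (hMi : ∃ s, ∀ᶠ z in cocompact ℂ, M z = s) :
    ∃ (P : Finset ℂ) (n nL nR : ℂ → ℂ × ℂ → ℤ), (∀ p, p ∈ P ↔ p ∈ Pa ∧ In p) ∧
      Lev K B w t P u (fun z => (M z, n z)) (fun z => (ML z, nL z)) (fun z => (MR z, nR z)) ∧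
      ∀ p ∈ P, ∀ q ∈ P, p ≠ q → nL p (p, q) = nR p (p, q) + 1 ∧ nL q (p, q) = nR q (p, q) - 1 ∧
        ∀ x ∈ P, x ≠ p → x ≠ q → nL x (p, q) = nR x (p, q) := by
  classical
  choose! ρ hρ η hη hin hout using fun p hp => (hP p hp).2.2.2.2
  set P : Finset ℂ := Pa.filter In with hPdef
  have hPm : ∀ p, p ∈ P ↔ p ∈ Pa ∧ In p := fun p => Finset.mem_filter
  have hu : ∀ p ∈ Pa, ‖u p‖ = 1 := fun p hp => (hP p hp).2.2.1
  have h2 : ∀ᶠ r in 𝓝[>] (0 : ℝ), ∀ p ∈ Pa, ball p (3 * r) ⊆ Kᶜ ∧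
      ball p (3 * r) ⊆ {z | 0 < fderiv ℝ w z (u p)} ∧ ball p (3 * r) ⊆ ball p (ρ p) := by
    refine (Finset.eventually_all Pa).2 fun p hp => ?_
    exact (ev_ball (hK.isOpen_compl.mem_nhds (hP p hp).1)).and
      ((ev_ball (ev_fderiv_pos (hw p (hP p hp).1) (hP p hp).2.2.2.1)).and
      (ev_ball (ball_mem_nhds p (hρ p hp))))
  obtain ⟨r, hr, hr0⟩ := (h2.and self_mem_nhdsWithin).exists
  replace hr0 : 0 < r := hr0
  have hb : ∀ p ∈ Pa, ∀ s ∈ Icc (-r) r, p + s * u p ∈ ball p (3 * r) := fun p hp s hs =>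
    line_mem_ball (hu p hp) (by rw [abs_lt]; constructor <;> linarith [hs.1, hs.2])
  have hmono : ∀ p ∈ Pa, StrictMonoOn (fun s : ℝ => w (p + s * u p)) (Icc (-r) r) :=
    fun p hp => strictMonoOn_line fun s hs =>
      ⟨(hw _ ((hr p hp).1 (hb p hp s hs))).differentiableAt (by simp), (hr p hp).2.1 (hb p hp s hs)⟩
  have hz0 : (0 : ℝ) ∈ Icc (-r) r := ⟨by linarith, hr0.le⟩
  have hzr : r ∈ Icc (-r) r := ⟨by linarith, le_rfl⟩
  have hzl : -r ∈ Icc (-r) r := ⟨le_rfl, by linarith⟩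
  have e0 : ∀ p ∈ Pa, w (p + (0 : ℝ) * u p) = t := fun p hp => by simpa using (hP p hp).2.1
  have hseg : ∀ p ∈ Pa, ∀ z ∈ segment ℝ (p - r * u p) (p + r * u p), z ∉ K ∧ (w z = t → z = p) := by
    intro p hp z hz
    obtain ⟨s, hs, rfl⟩ := mem_segment_line hr0.le hz
    refine ⟨(hr p hp).1 (hb p hp s hs), fun h => ?_⟩
    have := (hmono p hp).injOn hs hz0 (h.trans (e0 p hp).symm)
    simp [this]
  have h4 : ∀ᶠ m in 𝓝[>] (0 : ℝ), ∀ p ∈ Pa, 2 * m ≤ w (p + r * u p) - t ∧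
      2 * m ≤ t - w (p - r * u p) ∧ 2 * m ≤ η p := by
    refine (Finset.eventually_all Pa).2 fun p hp => ?_
    have e1 := hmono p hp hz0 hzr hr0
    have e2 := hmono p hp hzl hz0 (by linarith)
    simp only [e0 p hp, Complex.ofReal_neg, neg_mul, ← sub_eq_add_neg] at e1 e2
    filter_upwards [ev_le (show 0 < (w (p + r * u p) - t) / 2 by linarith),
      ev_le (show 0 < (t - w (p - r * u p)) / 2 by linarith),
      ev_le (show 0 < η p / 2 by linarith [hη p hp])] with m a1 a2 a3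
    exact ⟨by linarith, by linarith, by linarith⟩
  obtain ⟨m, hm, hm0⟩ := (h4.and self_mem_nhdsWithin).exists
  replace hm0 : 0 < m := hm0
  have hplus : ∀ p ∈ P, p + r * u p ∈ V (t + m) := by
    intro p hp
    obtain ⟨h1, h2⟩ := (hPm p).1 hp
    refine (((hin p h1 h2) _ ((hr p h1).2.2 (hb p h1 r hzr))).2 _ ?_).1 (by linarith [(hm p h1).1])
    rw [add_sub_cancel_left, abs_of_pos hm0]; linarith [(hm p h1).2.2]
  have hminus : ∀ p ∈ P, p - r * u p ∈ U (t - m) := by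
    intro p hp
    obtain ⟨h1, h2⟩ := (hPm p).1 hp
    have h3 := (hr p h1).2.2 (hb p h1 _ hzl)
    rw [Complex.ofReal_neg, neg_mul, ← sub_eq_add_neg] at h3
    refine (((hin p h1 h2) _ h3).2 _ ?_).2 (by linarith [(hm p h1).2.1])
    rw [sub_sub_cancel_left, abs_neg, abs_of_pos hm0]; linarith [(hm p h1).2.2]
  have hPB : ∀ p ∈ P, p ∈ B := fun p hp => by
    obtain ⟨h1, h2⟩ := (hPm p).1 hp
    exact (hin p h1 h2 p (mem_ball_self (hρ p h1))).1 (by simp [(hP p h1).2.1, hη p h1])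
  have hnot : ∀ p ∈ P, p ∉ V (t + m) ∪ U (t - m) := by
    intro p hp h
    have e := (hP p ((hPm p).1 hp).1).2.1
    rcases h with h | h
    · linarith [(hVs _ h).2]
    · exact hUB _ p (hPB p hp) (by linarith) h
  have hns : ∀ p ∈ P, ∀ q ∈ P, p ≠ q → p ∉ segment ℝ (q - r * u q) (q + r * u q) :=
    fun p hp q hq hpq h => hpq ((hseg q ((hPm q).1 hq).1 p h).2 (hP p ((hPm p).1 hp).1).2.1)
  have hidx := fun (c : ℂ × ℂ) (hc : c ∈ P.offDiag) =>
    exists_index (hVo (t + m)) (hVc _) (hUo (t - m)) (hUc _)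
      (hu c.1 ((hPm _).1 (Finset.mem_offDiag.1 hc).1).1)
      (hu c.2 ((hPm _).1 (Finset.mem_offDiag.1 hc).2.1).1) hr0
      (hplus _ (Finset.mem_offDiag.1 hc).1) (hplus _ (Finset.mem_offDiag.1 hc).2.1)
      (hminus _ (Finset.mem_offDiag.1 hc).1) (hminus _ (Finset.mem_offDiag.1 hc).2.1)
      (hnot _ (Finset.mem_offDiag.1 hc).1) (hnot _ (Finset.mem_offDiag.1 hc).2.1)
      (hns _ (Finset.mem_offDiag.1 hc).1 _ (Finset.mem_offDiag.1 hc).2.1
        (Finset.mem_offDiag.1 hc).2.2)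
      (hns _ (Finset.mem_offDiag.1 hc).2.1 _ (Finset.mem_offDiag.1 hc).1
        (Finset.mem_offDiag.1 hc).2.2.symm)
  choose! C n hCc hCs hloc hinf ρ' hρ' a b hjp hjq using hidx
  refine ⟨P, fun z c => if c ∈ P.offDiag then n c z else 0,
    fun z c => if c ∈ P.offDiag then
      (if c.1 = z then a c + 1 else if c.2 = z then b c - 1 else n c z) else 0,
    fun z c => if c ∈ P.offDiag then
      (if c.1 = z then a c else if c.2 = z then b c else n c z) else 0, hPm, ⟨?_, ?_, ?_, ?_⟩, ?_⟩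
  · intro p hp
    obtain ⟨h1, h2⟩ := (hPm p).1 hp
    exact ⟨(hP p h1).1, (hP p h1).2.1, hu p h1, (hP p h1).2.2.2.1, ρ p, hρ p h1, η p, hη p h1,
      fun z hz => (hin p h1 h2 z hz).1⟩
  · refine ⟨Fr ∪ ((⋃ c ∈ P.offDiag, C c) ∪ ⋃ p ∈ P, segment ℝ (p - r * u p) (p + r * u p)),
      U (t - m) ∪ ⋃ p ∈ Pa.filter fun p => ¬ In p, ball p (ρ p), ?_, ?_, ?_, ⟨m, hm0, ?_⟩, ?_, ?_⟩
    · exact hFr.union ((P.offDiag.isCompact_biUnion hCc).union
        (P.isCompact_biUnion fun p _ => mll_seg _ _))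
    · rintro z (hz | hz | hz)
      · exact hFK hz
      · obtain ⟨c, hc, h⟩ := mem_iUnion₂.1 hz
        rcases hCs c hc h with h | h
        · exact (hVs _ h).1
        · exact hUs _ h
      · obtain ⟨p, hp, h⟩ := mem_iUnion₂.1 hz
        exact (hseg p ((hPm p).1 hp).1 z h).1
    · exact (hUo _).union (isOpen_biUnion fun _ _ => isOpen_ball)
    · rintro z (hz | hz) hzB
      · have : w z ≤ t - m := not_lt.1 fun h => hUB _ z hzB h hz
        exact le_abs.2 (Or.inr (by linarith))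
      · obtain ⟨p, hp, h⟩ := mem_iUnion₂.1 hz
        obtain ⟨h1, h2⟩ := Finset.mem_filter.1 hp
        have := not_lt.1 fun h' => hout p h1 h2 z h h' hzB
        linarith [(hm p h1).2.2]
    · rintro z (hz | hz | hz) e
      · by_cases h : In z
        · exact Or.inl ((hPm z).2 ⟨hPa z hz e, h⟩)
        · exact Or.inr (Or.inr (mem_iUnion₂.2 ⟨z, Finset.mem_filter.2 ⟨hPa z hz e, h⟩,
            mem_ball_self (hρ z (hPa z hz e))⟩))
      · obtain ⟨c, hc, h⟩ := mem_iUnion₂.1 hz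
        rcases hCs c hc h with h | h
        · linarith [(hVs _ h).2]
        · exact Or.inr (Or.inl h)
      · obtain ⟨p, hp, h⟩ := mem_iUnion₂.1 hz
        exact Or.inl (((hseg p ((hPm p).1 hp).1 z h).2 e).symm ▸ hp)
    · intro z hz
      simp only [mem_union, mem_iUnion, not_or, not_exists] at hz
      have h1 : ∀ᶠ z' in 𝓝 z, ∀ c ∈ P.offDiag, n c z' = n c z :=
        (Finset.eventually_all _).2 fun c hc => hloc c hc z (hz.2.1 c hc)
          (hz.2.2 _ (Finset.mem_offDiag.1 hc).1) (hz.2.2 _ (Finset.mem_offDiag.1 hc).2.1)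
      filter_upwards [h1, hM z hz.1] with x e1 e2
      refine Prod.ext e2 (funext fun c => ?_)
      by_cases hc : c ∈ P.offDiag
      · simp only [hc, if_true, e1 c hc]
      · simp only [hc, if_false]
  · intro p hp
    have h1 : ∀ᶠ z in 𝓝 p, ∀ c ∈ P.offDiag,
        (0 < ct p (u p) z → n c z =
          if c.1 = p then a c + 1 else if c.2 = p then b c - 1 else n c p) ∧
        (ct p (u p) z < 0 → n c z = if c.1 = p then a c else if c.2 = p then b c else n c p) := by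
      refine (Finset.eventually_all _).2 fun c hc => ?_
      by_cases e1 : c.1 = p
      · subst e1
        filter_upwards [ball_mem_nhds _ (hρ' c hc)] with z hz
        simpa using hjp c hc z hz
      by_cases e2 : c.2 = p
      · subst e2
        filter_upwards [ball_mem_nhds _ (hρ' c hc)] with z hz
        simpa [e1] using hjq c hc z hz
      · filter_upwards [hloc c hc p (fun h => hnot p hp (hCs c hc h))
          (hns p hp _ (Finset.mem_offDiag.1 hc).1 (Ne.symm e1))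
          (hns p hp _ (Finset.mem_offDiag.1 hc).2.1 (Ne.symm e2))] with z hz
        simp [e1, e2, hz]
    filter_upwards [h1, hMs p ((hPm p).1 hp).1] with z e1 e2
    constructor
    · intro h
      refine Prod.ext (e2.1 h) (funext fun c => ?_)
      by_cases hc : c ∈ P.offDiag
      · simp only [hc, if_true, (e1 c hc).1 h]
      · simp only [hc, if_false]
    · intro h
      refine Prod.ext (e2.2 h) (funext fun c => ?_)
      by_cases hc : c ∈ P.offDiag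
      · simp only [hc, if_true, (e1 c hc).2 h]
      · simp only [hc, if_false]
  · obtain ⟨s, hs⟩ := hMi
    refine ⟨(s, fun _ => 0), ?_⟩
    filter_upwards [hs, (Finset.eventually_all _).2 hinf] with z e1 e2
    refine Prod.ext e1 (funext fun c => ?_)
    by_cases hc : c ∈ P.offDiag
    · simp only [hc, if_true, e2 c hc]
    · simp only [hc, if_false]
  · intro p hp q hq hpq
    have hc : (p, q) ∈ P.offDiag := Finset.mem_offDiag.2 ⟨hp, hq, hpq⟩
    refine ⟨by simp [hc], by simp [hc, hpq], fun x _ e1 e2 => by simp [hc, e1.symm, e2.symm]⟩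

end Vale.P116A
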