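import Vale.Agent.P116A.MLDefs

/-!
Functions that are Lipschitz near a point, the wedge of two differentials, and a smooth ramp.
-/

namespace Vale.P116A

open Set Filter Topology Metric MeasureTheory
open scoped NNReal ContDiff
open ComplexConjugate

/-- Lipschitz near the point `z`. -/
def LLAt {E : Type*} [PseudoEMetricSpace E] (f : ℂ → E) (z : ℂ) : Prop :=
  ∃ L : ℝ≥0, ∃ s ∈ 𝓝 z, LipschitzOnWith L f s

/-- The density of `da ∧ db`. -/
noncomputable def wdg (a b : ℂ → ℝ) (z : ℂ) : ℝ :=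
  fderiv ℝ a z 1 * fderiv ℝ b z Complex.I - fderiv ℝ a z Complex.I * fderiv ℝ b z 1

lemma LLAt.congr {E : Type*} [PseudoEMetricSpace E] {f g : ℂ → E} {z : ℂ} (hf : LLAt f z)
    (h : g =ᶠ[𝓝 z] f) : LLAt g z := by
  obtain ⟨L, s, hs, hL⟩ := hf
  refine ⟨L, s ∩ {x | g x = f x}, inter_mem hs h, fun x hx y hy => ?_⟩
  rw [hx.2, hy.2]; exact hL hx.1 hy.1

lemma LLAt.continuousAt {E : Type*} [PseudoEMetricSpace E] {f : ℂ → E} {z : ℂ} (hf : LLAt f z) :
    ContinuousAt f z := by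
  obtain ⟨L, s, hs, hL⟩ := hf
  exact hL.continuousOn.continuousAt hs

lemma LLAt.of_lipschitz {E : Type*} [PseudoEMetricSpace E] {f : ℂ → E} {L : ℝ≥0}
    (hf : LipschitzWith L f) (z : ℂ) : LLAt f z :=
  ⟨L, univ, univ_mem, hf.lipschitzOnWith⟩

lemma LLAt.const {E : Type*} [PseudoEMetricSpace E] (c : E) (z : ℂ) : LLAt (fun _ => c) z :=
  LLAt.of_lipschitz (LipschitzWith.const c) z

lemma LLAt.of_contDiffAt {E : Type*} [NormedAddCommGroup E] [NormedSpace ℝ E] {f : ℂ → E} {z : ℂ}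
    (hf : ContDiffAt ℝ 1 f z) : LLAt f z := hf.exists_lipschitzOnWith

lemma LLAt.comp {E F : Type*} [PseudoEMetricSpace E] [PseudoEMetricSpace F] {f : ℂ → E} {z : ℂ}
    (hf : LLAt f z) {g : E → F} {L : ℝ≥0} {s : Set E} (hs : s ∈ 𝓝 (f z))
    (hg : LipschitzOnWith L g s) : LLAt (fun x => g (f x)) z := by
  have hc := hf.continuousAt
  obtain ⟨M, t, ht, hM⟩ := hf
  refine ⟨L * M, t ∩ f ⁻¹' s, inter_mem ht (hc hs), ?_⟩
  exact hg.comp (hM.mono inter_subset_left) (fun x hx => hx.2)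

lemma LLAt.prodMk {E F : Type*} [PseudoEMetricSpace E] [PseudoEMetricSpace F] {f : ℂ → E}
    {g : ℂ → F} {z : ℂ} (hf : LLAt f z) (hg : LLAt g z) : LLAt (fun x => (f x, g x)) z := by
  obtain ⟨L, s, hs, hL⟩ := hf
  obtain ⟨M, t, ht, hM⟩ := hg
  exact ⟨max L M, s ∩ t, inter_mem hs ht,
    (hL.mono inter_subset_left).prodMk (hM.mono inter_subset_right)⟩

lemma LLAt.mul {f g : ℂ → ℝ} {z : ℂ} (hf : LLAt f z) (hg : LLAt g z) :
    LLAt (fun x => f x * g x) z := by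
  have h : ContDiffAt ℝ 1 (fun x : ℝ × ℝ => x.1 * x.2) (f z, g z) := by fun_prop
  obtain ⟨L, s, hs, hL⟩ := h.exists_lipschitzOnWith
  exact (hf.prodMk hg).comp hs hL

lemma LLAt.sub {f g : ℂ → ℝ} {z : ℂ} (hf : LLAt f z) (hg : LLAt g z) :
    LLAt (fun x => f x - g x) z := by
  have h : ContDiffAt ℝ 1 (fun x : ℝ × ℝ => x.1 - x.2) (f z, g z) := by fun_prop
  obtain ⟨L, s, hs, hL⟩ := h.exists_lipschitzOnWith
  exact (hf.prodMk hg).comp hs hL

lemma LLAt.eventually_ae {f : ℂ → ℝ} {z : ℂ} (hf : LLAt f z) :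
    ∃ s ∈ 𝓝 z, ∀ᵐ x, x ∈ s → DifferentiableAt ℝ f x := by
  obtain ⟨L, s, hs, hL⟩ := hf
  refine ⟨interior s, interior_mem_nhds.2 hs, ?_⟩
  filter_upwards [(hL.mono interior_subset).ae_differentiableWithinAt_of_mem (μ := volume)]
    with x hx hxs
  exact (hx hxs).differentiableAt (isOpen_interior.mem_nhds hxs)

lemma ae_differentiableAt_of_LLAt {f : ℂ → ℝ} {G : Set ℂ} (hf : ∀ z ∈ G, LLAt f z) :
    ∀ᵐ x, x ∈ G → DifferentiableAt ℝ f x := by
  have h : volume {x | x ∈ G ∧ ¬ DifferentiableAt ℝ f x} = 0 := by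
    refine measure_null_of_locally_null _ fun z hz => ?_
    obtain ⟨s, hs, h⟩ := (hf z hz.1).eventually_ae
    refine ⟨{x | x ∈ G ∧ ¬ DifferentiableAt ℝ f x} ∩ s, inter_mem_nhdsWithin _ hs, ?_⟩
    refine measure_mono_null (fun x hx => ?_) (ae_iff.1 h)
    exact fun h' => hx.1.2 (h' hx.2)
  rw [ae_iff]; convert h using 2; ext x; simp

lemma wdg_eq_zero_right {a b : ℂ → ℝ} {z : ℂ} (h : fderiv ℝ b z = 0) : wdg a b z = 0 := by
  simp [wdg, h]

lemma wdg_congr_left {a a' b : ℂ → ℝ} {z : ℂ} (h : a =ᶠ[𝓝 z] a') : wdg a b z = wdg a' b z := by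
  simp [wdg, h.fderiv_eq]

lemma hasFDerivAt_ct (p u z : ℂ) : HasFDerivAt (ct p u)
    (Complex.imCLM.comp ((ContinuousLinearMap.mul ℝ ℂ).flip (conj u))) z := by
  have h : ct p u = fun x => (Complex.imCLM.comp ((ContinuousLinearMap.mul ℝ ℂ).flip (conj u))) x
      - (p * conj u).im := by
    funext x; simp [ct, sub_mul]; ring
  rw [h]
  exact (ContinuousLinearMap.hasFDerivAt _).sub_const _

/-- The wedge of `psi * (chi - F (ct))` with `b`. -/
lemma wdg_mul_sub {ψ χ b : ℂ → ℝ} {F : ℝ → ℝ} {F' : ℝ} {p u z : ℂ} (hψ : DifferentiableAt ℝ ψ z)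
    (hχ : DifferentiableAt ℝ χ z) (hF : HasDerivAt F F' (ct p u z)) :
    wdg (fun x => ψ x * (χ x - F (ct p u x))) b z =
      wdg (fun x => ψ x * χ x) b z - F (ct p u z) * wdg ψ b z + ψ z * F' * fderiv ℝ b z u := by
  have h1 := (hF.comp_hasFDerivAt z (hasFDerivAt_ct p u z))
  have h2 := hψ.hasFDerivAt.mul (hχ.hasFDerivAt.sub h1)
  have h3 := hψ.hasFDerivAt.mul hχ.hasFDerivAt
  have e2 : fderiv ℝ (fun x => ψ x * (χ x - F (ct p u x))) z = _ := h2.fderiv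
  have e3 : fderiv ℝ (fun x => ψ x * χ x) z = _ := h3.fderiv
  have hu : fderiv ℝ b z u = u.re * fderiv ℝ b z 1 + u.im * fderiv ℝ b z Complex.I := by
    conv_lhs => rw [show u = u.re • (1 : ℂ) + u.im • Complex.I by
      simp [Complex.re_add_im]]
    rw [map_add, map_smul, map_smul]; simp
  simp only [wdg, e2, e3, hu]
  simp
  ring

lemma exists_ramp {δ : ℝ} (hδ : 0 < δ) : ∃ (R ρ : ℝ → ℝ) (L : ℝ≥0), ContDiff ℝ ∞ R ∧
    (∀ τ, HasDerivAt R (ρ τ) τ) ∧ LipschitzWith L ρ ∧ (∀ τ, 0 ≤ ρ τ) ∧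
    (∀ τ, δ ≤ |τ| → ρ τ = 0) ∧ (∫ τ, ρ τ) = 1 ∧ (∀ τ, τ ≤ 0 → R τ = 0) ∧
    (∀ τ, δ ≤ τ → R τ = 1) ∧ (∀ τ, 0 ≤ R τ ∧ R τ ≤ 1) := by
  set R : ℝ → ℝ := fun τ => Real.smoothTransition (τ / δ) with hR
  have hc : ContDiff ℝ 2 R := Real.smoothTransition.contDiff.comp (contDiff_id.div_const δ)
  have h0 : ∀ τ, τ ≤ 0 → R τ = 0 := fun τ h =>
    Real.smoothTransition.zero_of_nonpos (div_nonpos_of_nonpos_of_nonneg h hδ.le)
  have h1 : ∀ τ, δ ≤ τ → R τ = 1 := fun τ h =>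
    Real.smoothTransition.one_of_one_le ((one_le_div hδ).2 h)
  have hb : ∀ τ, 0 ≤ R τ ∧ R τ ≤ 1 := fun τ =>
    ⟨Real.smoothTransition.nonneg _, Real.smoothTransition.le_one _⟩
  have hm : Monotone R := Real.smoothTransition.monotone.comp
    (fun x y h => div_le_div_of_nonneg_right h hδ.le)
  have hz : ∀ τ, δ ≤ |τ| → deriv R τ = 0 := by
    intro τ h
    rcases le_abs.1 h with h | h
    · exact IsLocalMax.deriv_eq_zero (Eventually.of_forall fun x => by rw [h1 τ h]; exact (hb x).2)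
    · exact IsLocalMin.deriv_eq_zero (Eventually.of_forall fun x => by
        rw [h0 τ (by linarith)]; exact (hb x).1)
  have hd : ContDiff ℝ 1 (deriv R) := hc.deriv'
  have hs : HasCompactSupport (deriv R) := by
    refine HasCompactSupport.intro (isCompact_Icc (a := -δ) (b := δ)) fun x hx => hz x ?_
    by_contra h
    push Not at h
    exact hx ⟨(abs_lt.1 h).1.le, (abs_lt.1 h).2.le⟩
  obtain ⟨L, hL⟩ := hd.lipschitzWith_of_hasCompactSupport hs one_ne_zero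
  have hder : ∀ τ, HasDerivAt R (deriv R τ) τ := fun τ =>
    (hc.differentiable (by norm_num) τ).hasDerivAt
  refine ⟨R, deriv R, L, Real.smoothTransition.contDiff.comp (contDiff_id.div_const δ), hder, hL, fun τ => hm.deriv_nonneg, hz, ?_, h0,
    h1, hb⟩
  have := integral_of_hasDerivAt_of_tendsto (m := 0) (n := 1) hder
    (hd.continuous.integrable_of_hasCompactSupport hs)
    (tendsto_const_nhds.congr' (by filter_upwards [eventually_le_atBot 0] with x hx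
      using (h0 x hx).symm))
    (tendsto_const_nhds.congr' (by filter_upwards [eventually_ge_atTop δ] with x hx
      using (h1 x hx).symm))
  simpa using this

end Vale.P116A
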