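import Vale.Agent.P116A.MLLev
import Vale.Agent.P116A.MLComb
import Vale.Agent.P116A.MLPoly
import Vale.Agent.P116A.MLBox

/-!
The labelling at almost every level, and the cycle of crossing points.
-/

namespace Vale.P116A

open Set Filter Topology Metric MeasureTheory
open scoped NNReal ContDiff

lemma const_of_loc {σ : Type} {S : Set ℂ} (hS : IsPreconnected S) {N : ℂ → σ}
    (h : ∀ z ∈ S, ∀ᶠ z' in 𝓝 z, N z' = N z) {p q : ℂ} (hp : p ∈ S) (hq : q ∈ S) : N p = N q := by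
  let _ : TopologicalSpace σ := ⊥
  have _ : DiscreteTopology σ := ⟨rfl⟩
  refine hS.constant (fun z hz => ContinuousAt.continuousWithinAt ?_) hp hq
  exact (continuousAt_const (y := N z)).congr ((h z hz).mono fun _ e => e.symm)

lemma bs_sub (K : Set ℂ) (w : ℂ → ℝ) (ap am : ℂ) (t1 t2 : ℝ) : Bs K w ap am t1 t2 ⊆ Kᶜ :=
  fun _ h => h.1

open Classical in
theorem ml_lev {K : Set ℂ} (hK : IsCompact K) {w : ℂ → ℝ}
    (hw : ∀ z, z ∉ K → ContDiffAt ℝ ∞ w z) {am u0 : ℂ} {l t1 t2 : ℝ} (hu0 : ‖u0‖ = 1)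
    (hl : 0 ≤ l) (hs : ∀ s ∈ Icc 0 l, am + s * u0 ∉ K ∧ 0 < fderiv ℝ w (am + s * u0) u0)
    (h1 : w am ≤ t1) (h2 : t2 ≤ w (am + l * u0)) {V : Set ℂ} (hV : IsOpen V) (hKV : K ⊆ V)
    (hVi : ∀ᶠ z in cocompact ℂ, z ∈ V) {Λ : Type} {lab : ℂ → Λ}
    (hlab : ∀ z ∈ V, ∀ᶠ z' in 𝓝 z, lab z' = lab z) (hli : ∃ s, ∀ᶠ z in cocompact ℂ, lab z = s) :
    ∀ᵐ t : ℝ, t ∈ Ioo t1 t2 → ∃ (P : Finset ℂ) (u : ℂ → ℂ)
      (N NL NR : ℂ → Option Λ × (ℂ × ℂ → ℤ)) (p0 : ℂ),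
      Lev K (Bs K w (am + l * u0) am t1 t2) w t P u N NL NR ∧ p0 ∈ P ∧
      (∃ s ∈ Icc 0 l, p0 = am + s * u0) ∧
      (∀ p ∈ P, ∀ q ∈ P, p ≠ q → (NL p).2 (p, q) = (NR p).2 (p, q) + 1 ∧
        (NL q).2 (p, q) = (NR q).2 (p, q) - 1 ∧
        ∀ x ∈ P, x ≠ p → x ≠ q → (NL x).2 (p, q) = (NR x).2 (p, q)) ∧
      (∀ z a, (N z).1 = some a → z ∈ V ∧ lab z = a) ∧ (∀ z ∈ K, (N z).1 = some (lab z)) ∧
      (∀ᶠ z in cocompact ℂ, (N z).1 = some (lab z)) ∧
      ∀ p ∈ P, ∀ a, ((NL p).1 = some a → lab p = a) ∧ ((NR p).1 = some a → lab p = a) := by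
  have hw1 : ∀ z, z ∉ K → ContDiffAt ℝ 1 w z := fun z hz => (hw z hz).of_le (by simp)
  have hKc := hK.isClosed
  obtain ⟨W, Fr, C, A, hP, hF, hWV, hKW, hWi⟩ := exists_poly hK hV hKV hVi
  have hFK : Fr ⊆ Kᶜ := fun z hz => (hF hz).2
  set ap := am + l * u0 with hap
  set B := Bs K w ap am t1 t2 with hB
  have hD : ∀ u : ℂ, ‖u‖ = 1 → ∀ᵐ t : ℝ, t1 < t → t < t2 → ∀ p, p ∉ K → w p = t →
      0 < fderiv ℝ w p u → ∃ ρ : ℝ, 0 < ρ ∧ ∃ η : ℝ, 0 < η ∧
        (p ∈ B → ∀ z ∈ ball p ρ, (|w z - t| < η → z ∈ B) ∧ ∀ τ, |τ - t| < η →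
            (τ < w z → z ∈ Vt K w ap τ) ∧ (w z < τ → z ∈ Ut K w ap am τ)) ∧
        (¬ p ∈ B → ∀ z ∈ ball p ρ, |w z - t| < η → z ∉ B) := by
    intro u hu
    obtain ⟨N, hN, h⟩ := dichotomy hKc hw1 ap am t1 t2 hu
    filter_upwards [compl_mem_ae_iff.2 (hN.measure_zero volume)] with t ht a1 a2 p hp hpt hd
    obtain ⟨ρ, hρ, η, hη, h'⟩ := h t ht a1 a2 p hp hpt hd
    have e : |w p - t| < η := by simpa [hpt] using hη
    refine ⟨ρ, hρ, η, hη, ?_⟩
    rcases h' with h' | h'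
    · exact ⟨fun _ => h', fun hn => absurd ((h' p (mem_ball_self hρ)).1 e) hn⟩
    · exact ⟨fun hn => absurd hn (h' p (mem_ball_self hρ) e), fun _ => h'⟩
  filter_upwards [levels hKc hw1 hP hFK, hD 1 (by simp), hD (-1) (by simp), hD Complex.I (by simp),
    hD (-Complex.I) (by simp), hD u0 hu0] with t ⟨hfin, hlev⟩ d1 d2 d3 d4 d5 ht
  obtain ⟨s0, hs0, e0⟩ : t ∈ (fun s : ℝ => w (am + s * u0)) '' Icc 0 l := by
    refine intermediate_value_Icc hl (fun s hs' => ContinuousAt.continuousWithinAt ?_) ?_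
    · exact ContinuousAt.comp (f := fun s : ℝ => am + s * u0) (hw _ (hs s hs').1).continuousAt
        (by fun_prop)
    · simp only [Complex.ofReal_zero, zero_mul, add_zero]
      exact ⟨by linarith [ht.1], by linarith [ht.2]⟩
  set p0 := am + s0 * u0 with hp0
  replace e0 : w p0 = t := e0
  have hp0B : p0 ∈ B := anchor_mem hKc hw1 hs hs0 (e0 ▸ ht.1) (e0 ▸ ht.2)
  set Pa : Finset ℂ := insert p0 hfin.toFinset with hPa
  have key : ∀ p ∈ Pa, ∃ (u : ℂ) (α β : Prop), (p ∉ K ∧ w p = t ∧ ‖u‖ = 1 ∧ 0 < fderiv ℝ w p u ∧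
      ∃ ρ : ℝ, 0 < ρ ∧ ∃ η : ℝ, 0 < η ∧
        (p ∈ B → ∀ z ∈ ball p ρ, (|w z - t| < η → z ∈ B) ∧ ∀ τ, |τ - t| < η →
            (τ < w z → z ∈ Vt K w ap τ) ∧ (w z < τ → z ∈ Ut K w ap am τ)) ∧
        (¬ p ∈ B → ∀ z ∈ ball p ρ, |w z - t| < η → z ∉ B)) ∧ (α ∨ β → p ∈ V) ∧
      ∀ᶠ z in 𝓝 p, (0 < ct p u z → (z ∈ W ↔ α)) ∧ (ct p u z < 0 → (z ∈ W ↔ β)) := by
    intro p hp
    by_cases hpF : p ∈ Fr ∧ w p = t
    · obtain ⟨u, hu, hd, ρ, hρ, α, β, h⟩ := hlev p hpF.1 hpF.2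
      have hpK : p ∉ K := hFK hpF.1
      refine ⟨u, α, β, ⟨hpK, hpF.2, ?_, hd, ?_⟩, fun _ => (hF hpF.1).1, ?_⟩
      · rcases hu with rfl | rfl | rfl | rfl <;> simp
      · rcases hu with rfl | rfl | rfl | rfl
        exacts [d1 ht.1 ht.2 p hpK hpF.2 hd, d2 ht.1 ht.2 p hpK hpF.2 hd,
          d3 ht.1 ht.2 p hpK hpF.2 hd, d4 ht.1 ht.2 p hpK hpF.2 hd]
      · filter_upwards [ball_mem_nhds p hρ] with z hz using h z hz
    · have e : p = p0 := by
        rcases Finset.mem_insert.1 hp with h | h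
        · exact h
        · exact absurd (hfin.mem_toFinset.1 h) hpF
      have hpF' : p ∉ Fr := fun h => hpF ⟨h, e ▸ e0⟩
      rw [e] at hpF' ⊢
      refine ⟨u0, p0 ∈ W, p0 ∈ W, ⟨(hs s0 hs0).1, e0, hu0, (hs s0 hs0).2,
        d5 ht.1 ht.2 p0 (hs s0 hs0).1 e0 (hs s0 hs0).2⟩, fun h => hWV (h.elim id id), ?_⟩
      filter_upwards [hP.2.2.2.1 p0 hpF'] with z hz using ⟨fun _ => hz, fun _ => hz⟩
  choose! u α β k1 k2 k3 using key
  obtain ⟨si, hsi⟩ := hli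
  have main := lev_of_pts (B := B) hKc hw (t := t) (V := Vt K w ap)
    (U := Ut K w ap am) (isOpen_Vt hKc (fun z hz => (hw z hz).continuousAt.continuousWithinAt) ap) (isPreconnected_Vt K w ap)
    (Vt_subset K w ap) (isOpen_Ut hKc w ap am) (isPreconnected_Ut K w ap am)
    (fun τ z hz => (Ut_subset K w ap am τ hz).1) (fun τ z hz h => hz.2.2.2.1 τ h) hP.2.2.1 hFK
    (Pa := Pa) (fun z hz h => Finset.mem_insert_of_mem (hfin.mem_toFinset.2 ⟨hz, h⟩)) (u := u)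
    (In := fun p => p ∈ B) k1 (M := fun z => if z ∈ W then some (lab z) else none)
    (ML := fun p => if α p then some (lab p) else none)
    (MR := fun p => if β p then some (lab p) else none) (fun z hz => ?_) (fun p hp => ?_)
    ⟨some si, ?_⟩
  · obtain ⟨P, n, nL, nR, m1, m2, m3⟩ := main
    refine ⟨P, u, _, _, _, p0, m2, (m1 p0).2 ⟨Finset.mem_insert_self _ _, hp0B⟩, ⟨s0, hs0, rfl⟩,
      m3, fun z a h => ?_, fun z hz => if_pos (hKW hz), hWi.mono fun z hz => if_pos hz,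
      fun p _ a => ⟨fun h => ?_, fun h => ?_⟩⟩
    · by_cases hz : z ∈ W
      · exact ⟨hWV hz, by simpa [hz] using h⟩
      · simp [hz] at h
    · by_cases hz : α p
      · simpa [hz] using h
      · simp [hz] at h
    · by_cases hz : β p
      · simpa [hz] using h
      · simp [hz] at h
  · by_cases hzW : z ∈ W
    · filter_upwards [hP.2.2.2.1 z hz, hlab z (hWV hzW)] with x e1 e2
      simp [e1, e2, hzW]
    · filter_upwards [hP.2.2.2.1 z hz] with x e1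
      simp [e1, hzW]
  · by_cases h : α p ∨ β p
    · filter_upwards [k3 p hp, hlab p (k2 p hp h)] with z e1 e2
      exact ⟨fun h' => by simp [e1.1 h', e2], fun h' => by simp [e1.2 h', e2]⟩
    · rw [not_or] at h
      filter_upwards [k3 p hp] with z e1
      exact ⟨fun h' => by simp [e1.1 h', h.1], fun h' => by simp [e1.2 h', h.2]⟩
  · filter_upwards [hWi, hsi] with z e1 e2
    simp [e1, e2]

open Classical in
lemma sum_two {P : Finset ℂ} {a b : ℂ → ℝ} {p q : ℂ} (hp : p ∈ P) (hq : q ∈ P) (h : p ≠ q)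
    (hs : ∑ x ∈ P, a x = ∑ x ∈ P, b x) (he : ∀ x ∈ P, x ≠ p → x ≠ q → a x = b x) :
    a p + a q = b p + b q := by
  have hq' : q ∈ P.erase p := Finset.mem_erase.2 ⟨h.symm, hq⟩
  rw [← Finset.add_sum_erase P a hp, ← Finset.add_sum_erase P b hp,
    ← Finset.add_sum_erase _ a hq', ← Finset.add_sum_erase _ b hq',
    Finset.sum_congr rfl fun x hx => he x (Finset.mem_of_mem_erase (Finset.mem_of_mem_erase hx))
      (Finset.ne_of_mem_erase (Finset.mem_of_mem_erase hx)) (Finset.ne_of_mem_erase hx)] at hs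
  linarith

open Classical in
/-- The crossing points form one cycle whose edges are labelled by the cells. -/
theorem ml_cycle {σ : Type} {P : Finset ℂ} {NL NR : ℂ → σ} (idx : σ → ℂ × ℂ → ℤ)
    (hpar : ∀ T : σ → Prop,
      ∑ p ∈ P, (if T (NR p) then (1 : ℝ) else 0) = ∑ p ∈ P, if T (NL p) then (1 : ℝ) else 0)
    (hidx : ∀ p ∈ P, ∀ q ∈ P, p ≠ q → idx (NL p) (p, q) = idx (NR p) (p, q) + 1 ∧
      idx (NL q) (p, q) = idx (NR q) (p, q) - 1 ∧
      ∀ x ∈ P, x ≠ p → x ≠ q → idx (NL x) (p, q) = idx (NR x) (p, q))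
    {p0 : ℂ} (h0 : p0 ∈ P) (S0 : Finset σ) :
    ∃ (S : Finset σ) (A B : σ → ℂ), S0 ⊆ S ∧
      (∀ s, A s ∈ P ∧ B s ∈ P ∧ (A s = B s ∨ (NL (A s) = s ∧ NR (B s) = s))) ∧
      (∀ s, A s ≠ B s → ∀ f : ℂ → ℝ,
        |f (A s) - f p0| ≤ ∑ j ∈ S.erase s, |f (B j) - f (A j)| ∧
        |f (B s) - f p0| ≤ ∑ j ∈ S.erase s, |f (B j) - f (A j)|) ∧
      ∀ s (ψ : ℂ → ℝ), ∑ p ∈ P, ((if NR p = s then (1 : ℝ) else 0) - if NL p = s then 1 else 0) *
        ψ p = ψ (B s) - ψ (A s) := by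
  have hL : ∀ p ∈ P, ∀ q ∈ P, NL p = NL q → p = q := by
    intro p hp q hq e
    by_contra h
    obtain ⟨a1, a2, a3⟩ := hidx p hp q hq h
    have := sum_two hp hq h (hpar fun s => idx s (p, q) = idx (NL p) (p, q))
      fun x hx b1 b2 => by rw [a3 x hx b1 b2]
    rw [if_neg (by omega), if_neg (by rw [e]; omega), if_pos rfl, if_pos (by rw [e])] at this
    linarith
  have hR : ∀ p ∈ P, ∀ q ∈ P, NR p = NR q → p = q := by
    intro p hp q hq e
    by_contra h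
    obtain ⟨a1, a2, a3⟩ := hidx p hp q hq h
    have := sum_two hp hq h (hpar fun s => idx s (p, q) = idx (NR p) (p, q))
      fun x hx b1 b2 => by rw [a3 x hx b1 b2]
    rw [if_pos rfl, if_pos (by rw [e]), if_neg (by omega), if_neg (by rw [e]; omega)] at this
    linarith
  have hex : ∀ (a b : ℂ → σ), (∀ s, ∑ p ∈ P, (if a p = s then (1 : ℝ) else 0) =
      ∑ p ∈ P, if b p = s then (1 : ℝ) else 0) → ∀ p ∈ P, ∃ q ∈ P, a q = b p := by
    intro a b h p hp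
    by_contra hn
    have e := h (b p)
    rw [Finset.sum_eq_zero fun q hq => if_neg fun h' => hn ⟨q, hq, h'⟩] at e
    have := Finset.single_le_sum (f := fun x => if b x = b p then (1 : ℝ) else 0)
      (fun x _ => by split_ifs <;> norm_num) hp
    simp only [if_true] at this
    linarith
  have h1 := hex NR NL fun s => by convert hpar (· = s)
  have h2 := hex NL NR fun s => by convert (hpar (· = s)).symm
  choose! π hπ hπ' using h1
  have hinj : InjOn π P := fun p hp q hq e => hL p hp q hq (by rw [← hπ' p hp, ← hπ' q hq, e])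
  have hcyc := cyc_of_index P π hπ hinj fun p hp q hq h =>
    ⟨fun x => idx (NL x) (p, q), fun x => idx (NR x) (p, q), fun x hx => by simp only [hπ' x hx],
      (hidx p hp q hq h).2.2, by have := (hidx p hp q hq h).1; simp only; omega⟩
  have h3 : ∀ s, ∃ a b : ℂ, (∀ p ∈ P, NL p = s → a = p ∧ b = π p) ∧
      ((∀ p ∈ P, NL p ≠ s) → a = p0 ∧ b = p0) := by
    intro s
    by_cases h : ∃ p ∈ P, NL p = s
    · obtain ⟨p, hp, e⟩ := h
      exact ⟨p, π p, fun q hq e' => by rw [hL p hp q hq (e.trans e'.symm)]; exact ⟨rfl, rfl⟩,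
        fun h' => absurd e (h' p hp)⟩
    · exact ⟨p0, p0, fun p hp e => absurd ⟨p, hp, e⟩ h, fun _ => ⟨rfl, rfl⟩⟩
  choose A B h3 h4 using h3
  refine ⟨S0 ∪ P.image NL, A, B, Finset.subset_union_left, fun s => ?_, fun s hs f => ?_,
    fun s ψ => ?_⟩
  · by_cases h : ∃ p ∈ P, NL p = s
    · obtain ⟨p, hp, e⟩ := h
      rw [(h3 s p hp e).1, (h3 s p hp e).2]
      exact ⟨hp, hπ p hp, Or.inr ⟨e, (hπ' p hp).trans e⟩⟩
    · have := h4 s fun p hp e => h ⟨p, hp, e⟩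
      rw [this.1, this.2]
      exact ⟨h0, h0, Or.inl rfl⟩
  · obtain ⟨p, hp, e⟩ : ∃ p ∈ P, NL p = s := by
      by_contra h
      have := h4 s fun p hp e => h ⟨p, hp, e⟩
      exact hs (this.1.trans this.2.symm)
    have k : ∑ x ∈ P.erase p, |f (π x) - f x| ≤
        ∑ j ∈ (S0 ∪ P.image NL).erase s, |f (B j) - f (A j)| := by
      rw [Finset.sum_congr rfl (g := fun x => |f (B (NL x)) - f (A (NL x))|) fun x hx => by
        rw [(h3 _ x (Finset.mem_of_mem_erase hx) rfl).1, (h3 _ x (Finset.mem_of_mem_erase hx) rfl).2],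
        ← Finset.sum_image (f := fun j => |f (B j) - f (A j)|) fun x hx y hy e =>
          hL x (Finset.mem_of_mem_erase hx) y (Finset.mem_of_mem_erase hy) e]
      refine Finset.sum_le_sum_of_subset_of_nonneg (fun j hj => ?_) fun _ _ _ => abs_nonneg _
      obtain ⟨x, hx, rfl⟩ := Finset.mem_image.1 hj
      refine Finset.mem_erase.2 ⟨fun e' => Finset.ne_of_mem_erase hx ?_, Finset.mem_union_right _
        (Finset.mem_image_of_mem _ (Finset.mem_of_mem_erase hx))⟩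
      exact hL x (Finset.mem_of_mem_erase hx) p hp (e'.trans e.symm)
    rw [(h3 s p hp e).1, (h3 s p hp e).2]
    exact ⟨(tele P π hπ hcyc h0 hp f).1.trans k, (tele P π hπ hcyc h0 hp f).2.trans k⟩
  · simp only [sub_mul, ite_mul, one_mul, zero_mul, Finset.sum_sub_distrib]
    by_cases h : ∃ p ∈ P, NL p = s
    · obtain ⟨p, hp, e⟩ := h
      rw [(h3 s p hp e).1, (h3 s p hp e).2, Finset.sum_eq_single_of_mem (π p) (hπ p hp),
        Finset.sum_eq_single_of_mem p hp, if_pos e, if_pos ((hπ' p hp).trans e)]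
      · exact fun q hq hne => if_neg fun e' => hne (hL q hq p hp (e'.trans e.symm))
      · exact fun q hq hne => if_neg fun e' =>
          hne (hR q hq _ (hπ p hp) (e'.trans ((hπ' p hp).trans e).symm))
    · have := h4 s fun p hp e => h ⟨p, hp, e⟩
      rw [this.1, this.2, Finset.sum_eq_zero fun q hq => if_neg fun e => ?_,
        Finset.sum_eq_zero fun q hq => if_neg fun e => h ⟨q, hq, e⟩, sub_self, sub_self]
      obtain ⟨x, hx, e'⟩ := h2 q hq
      exact h ⟨x, hx, e'.trans e⟩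

open Classical in
lemma finite_labels {σ : Type} {K : Set ℂ} (hK : IsCompact K) {N : ℂ → σ}
    (h : ∀ z ∈ K, ∀ᶠ z' in 𝓝 z, N z' = N z) : ∃ S : Finset σ, ∀ z ∈ K, N z ∈ S := by
  obtain ⟨T, -, hT⟩ := hK.elim_nhds_subcover (fun z => {z' | N z' = N z}) h
  refine ⟨T.image N, fun z hz => ?_⟩
  obtain ⟨x, hx, e⟩ := mem_iUnion₂.1 (hT hz)
  exact Finset.mem_image.2 ⟨x, hx, (e : N z = N x).symm⟩

end Vale.P116A
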