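import Vale.Agent.P116A.MLDefs

/-!
The upper component, the lower component and the monotone part of a function.
-/

namespace Vale.P116A

open Set

/-- Component of `{w > t}` in the complement of `K` containing `ap`. -/
def Vt (K : Set ℂ) (w : ℂ → ℝ) (ap : ℂ) (t : ℝ) : Set ℂ :=
  connectedComponentIn {z | z ∉ K ∧ t < w z} ap

/-- Component of the complement of `K` and of the closure of `Vt` containing `am`. -/
def Ut (K : Set ℂ) (w : ℂ → ℝ) (ap am : ℂ) (t : ℝ) : Set ℂ :=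
  connectedComponentIn (Kᶜ \ closure (Vt K w ap t)) am

/-- The monotone part of `w` between the levels `t1` and `t2`. -/
def Bs (K : Set ℂ) (w : ℂ → ℝ) (ap am : ℂ) (t1 t2 : ℝ) : Set ℂ :=
  {z | z ∉ K ∧ t1 < w z ∧ w z < t2 ∧ (∀ t, t < w z → z ∉ Ut K w ap am t) ∧
    ∀ t, w z < t → z ∈ Ut K w ap am t}

lemma Vt_anti (K : Set ℂ) (w : ℂ → ℝ) (ap : ℂ) {s t : ℝ} (h : s ≤ t) :
    Vt K w ap t ⊆ Vt K w ap s :=
  connectedComponentIn_mono _ fun _ hz => ⟨hz.1, h.trans_lt hz.2⟩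

lemma Ut_mono (K : Set ℂ) (w : ℂ → ℝ) (ap am : ℂ) {s t : ℝ} (h : s ≤ t) :
    Ut K w ap am s ⊆ Ut K w ap am t :=
  connectedComponentIn_mono _ fun _ hz => ⟨hz.1, fun h' => hz.2 (closure_mono (Vt_anti K w ap h) h')⟩

lemma Vt_subset (K : Set ℂ) (w : ℂ → ℝ) (ap : ℂ) (t : ℝ) :
    Vt K w ap t ⊆ {z | z ∉ K ∧ t < w z} := connectedComponentIn_subset _ _

lemma Ut_subset (K : Set ℂ) (w : ℂ → ℝ) (ap am : ℂ) (t : ℝ) :
    Ut K w ap am t ⊆ Kᶜ \ closure (Vt K w ap t) := connectedComponentIn_subset _ _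

lemma isPreconnected_Vt (K : Set ℂ) (w : ℂ → ℝ) (ap : ℂ) (t : ℝ) :
    IsPreconnected (Vt K w ap t) := isPreconnected_connectedComponentIn

lemma isPreconnected_Ut (K : Set ℂ) (w : ℂ → ℝ) (ap am : ℂ) (t : ℝ) :
    IsPreconnected (Ut K w ap am t) := isPreconnected_connectedComponentIn

lemma isOpen_Vt {K : Set ℂ} (hK : IsClosed K) {w : ℂ → ℝ} (hw : ContinuousOn w Kᶜ) (ap : ℂ)
    (t : ℝ) : IsOpen (Vt K w ap t) :=
  IsOpen.connectedComponentIn (hw.isOpen_inter_preimage hK.isOpen_compl (isOpen_Ioi (a := t)))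

lemma isOpen_Ut {K : Set ℂ} (hK : IsClosed K) (w : ℂ → ℝ) (ap am : ℂ) (t : ℝ) :
    IsOpen (Ut K w ap am t) :=
  IsOpen.connectedComponentIn (hK.isOpen_compl.sdiff isClosed_closure)

end Vale.P116A
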