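import Vale.Agent.P116A.MLDefs

/-!
The flux through a thin strip.

`integral_cs_ct`: change variables z = p + u * y (translation invariance, rotation
`LinearIsometryEquiv.measurePreserving (rotation _)` or `Complex` multiplication by a unit), then
`Complex.volume_preserving_equiv_real_prod` and `integral_prod_mul`.

`strip`: extend psi and b to globally Lipschitz functions psi', b' with the same constants
(`LipschitzOnWith.extend_real`); on the open ball they have the same fderiv. The rectangle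
|cs| <= r, |ct| <= delta lies in ball p (3 r) (`norm_sub_le_cs_ct`). Take a C^1 cutoff k : R -> [0,1],
k = 1 on [-r/2, r/2], k = 0 for |s| >= r, monotone on each half line, e.g.
k s = smoothTransition (2 - 2 s / r) * smoothTransition (2 + 2 s / r). Where rho (ct z) is not 0 and
r/2 < |cs z| < r, b is locally constant, so the integrand equals
(k (cs z) * rho (ct z) * psi' z) * lineDeriv b' z u a.e. (Rademacher, the lines |cs| = r/2 are null or
avoid them with k = 1 on a slightly larger interval). Integrate by parts with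
`LipschitzWith.integral_lineDeriv_mul_eq` for f = b' - g0 and g = k (cs) rho (ct) psi'
(Lipschitz with compact support): cs (z + t u) = cs z + t, ct (z + t u) = ct z. One gets
- int rho k (D_u psi') (b - g0) - int rho k' psi' (b - g0). The first term is at most
L (g1 - g0) * int rho(ct) 1_{|cs| < r} = 2 r L (g1 - g0). In the second b - g0 = 0 for cs < 0 and
= g1 - g0 for cs > 0 on the support of k', the weight - k' (s) 1_{s > 0} rho (tau) is nonnegative of
total mass 1 (`integral_cs_ct`), and |psi z - psi p| <= 2 r L on the rectangle.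
-/

namespace Vale.P116A

open Set Filter Topology Metric MeasureTheory
open scoped NNReal

/-- The chart with coordinates `cs`, `ct`. -/
noncomputable def stPh (p : ℂ) {u : ℂ} (hu : ‖u‖ = 1) : ℝ × ℝ ≃ᵐ ℂ :=
  Complex.measurableEquivRealProd.symm.trans
    ((MeasurableEquiv.mulLeft₀ u (by rintro rfl; simp at hu)).trans (MeasurableEquiv.addLeft p))

lemma stPh_apply (p : ℂ) {u : ℂ} (hu : ‖u‖ = 1) (q : ℝ × ℝ) :
    stPh p hu q = p + ((q.1 : ℂ) + q.2 * Complex.I) * u := by
  have : (⟨q.1, q.2⟩ : ℂ) = (q.1 : ℂ) + q.2 * Complex.I := Complex.mk_eq_add_mul_I _ _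
  rw [← this, mul_comm]
  rfl

lemma stPh_mp (p : ℂ) {u : ℂ} (hu : ‖u‖ = 1) : MeasurePreserving (stPh p hu) volume volume := by
  have h1 := Complex.volume_preserving_equiv_real_prod.symm
  have h2 := (rotation ⟨u, by simpa [Submonoid.unitSphere] using hu⟩).measurePreserving
  exact (measurePreserving_add_left volume p).comp (h2.comp h1)

lemma stPh_cs (p : ℂ) {u : ℂ} (hu : ‖u‖ = 1) (q : ℝ × ℝ) :
    cs p u (stPh p hu q) = q.1 ∧ ct p u (stPh p hu q) = q.2 := by
  unfold cs ct
  rw [stPh_apply, add_sub_cancel_left, mul_assoc, mul_conj_self_of_norm hu]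
  simp

lemma stPh_lip (p : ℂ) {u : ℂ} (hu : ‖u‖ = 1) (τ : ℝ) :
    LipschitzWith 1 fun s : ℝ => stPh p hu (s, τ) := by
  refine LipschitzWith.of_dist_le_mul fun s t => le_of_eq ?_
  simp only [stPh_apply, dist_eq_norm]
  rw [show p + ((s : ℂ) + τ * Complex.I) * u - (p + ((t : ℂ) + τ * Complex.I) * u) =
    ((s - t : ℝ) : ℂ) * u by push_cast; ring, norm_mul, hu, Complex.norm_real]
  simp

lemma stPh_deriv (p : ℂ) {u : ℂ} (hu : ‖u‖ = 1) (τ s : ℝ) :
    HasDerivAt (fun s : ℝ => stPh p hu (s, τ)) u s := by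
  simp only [stPh_apply]
  simpa using (((Complex.ofRealCLM.hasDerivAt (x := s)).add_const
    ((τ : ℂ) * Complex.I)).mul_const u).const_add p

/-- The one-dimensional estimate. -/
lemma strip_one {f β : ℝ → ℝ} {L Lb : ℝ≥0} (hf : LipschitzWith L f) (hβ : LipschitzWith Lb β)
    {r g0 g1 c : ℝ} (hr : 0 ≤ r) (h0 : β (-r) = g0) (h1 : β r = g1)
    (hm : ∀ s, |s| ≤ r → g0 ≤ β s ∧ β s ≤ g1) (hc : |f r - c| ≤ 2 * r * L) :
    |(∫ s in -r..r, f s * deriv β s) - (g1 - g0) * c| ≤ 4 * (g1 - g0) * L * r := by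
  have hg : 0 ≤ g1 - g0 := by linarith [(hm r (abs_of_nonneg hr).le).1]
  have hβ' : LipschitzWith Lb fun s => β s - g0 := by
    simpa using hβ.sub (LipschitzWith.const g0)
  have e := (hf.lipschitzOnWith (s := uIcc (-r) r)).absolutelyContinuousOnInterval
    |>.integral_mul_deriv_eq_deriv_mul
      (hβ'.lipschitzOnWith (s := uIcc (-r) r)).absolutelyContinuousOnInterval
  simp only [deriv_sub_const, h0, h1, sub_self, mul_zero, sub_zero] at e
  have b1 := intervalIntegral.norm_integral_le_of_norm_le_const (a := -r) (b := r)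
    (f := fun s => deriv f s * (β s - g0)) (C := L * (g1 - g0)) fun s hs => by
      rw [uIoc_of_le (by linarith)] at hs
      have := hm s (abs_le.2 ⟨hs.1.le, hs.2⟩)
      rw [norm_mul, Real.norm_of_nonneg (by linarith [this.1] : 0 ≤ β s - g0)]
      exact mul_le_mul (norm_deriv_le_of_lipschitz hf) (by linarith [this.2]) (by linarith [this.1])
        L.2
  rw [Real.norm_eq_abs, abs_of_nonneg (by linarith : 0 ≤ r - -r)] at b1
  rw [e, abs_le]
  have b2 := abs_le.1 b1
  have b3 := abs_le.1 hc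
  constructor <;> nlinarith [mul_le_mul_of_nonneg_left b3.1 hg, mul_le_mul_of_nonneg_left b3.2 hg]

theorem integral_cs_ct (p : ℂ) {u : ℂ} (hu : ‖u‖ = 1) (F G : ℝ → ℝ) :
    ∫ z : ℂ, F (cs p u z) * G (ct p u z) = (∫ s, F s) * ∫ t, G t := by
  rw [← (stPh_mp p hu).integral_comp' fun z => F (cs p u z) * G (ct p u z)]
  simp only [stPh_cs]
  exact integral_prod_mul F G

theorem strip (p : ℂ) {u : ℂ} (hu : ‖u‖ = 1) {r δ : ℝ} (hδ : 0 < δ) (hδr : δ ≤ r)
    {ψ b : ℂ → ℝ} {L Lb Lρ : ℝ≥0} (hψ : LipschitzOnWith L ψ (ball p (3 * r)))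
    (hb : LipschitzOnWith Lb b (ball p (3 * r))) {ρ : ℝ → ℝ} (hρ : LipschitzWith Lρ ρ)
    (hρ0 : ∀ τ, 0 ≤ ρ τ) (hρs : ∀ τ, δ ≤ |τ| → ρ τ = 0) (hρ1 : ∫ τ, ρ τ = 1) {g0 g1 : ℝ}
    (hlo : ∀ z, |ct p u z| ≤ δ → -r ≤ cs p u z → cs p u z ≤ -(r / 2) → b z = g0)
    (hhi : ∀ z, |ct p u z| ≤ δ → r / 2 ≤ cs p u z → cs p u z ≤ r → b z = g1)
    (hmid : ∀ z, |ct p u z| ≤ δ → |cs p u z| ≤ r → g0 ≤ b z ∧ b z ≤ g1) :
    IntegrableOn (fun z => ψ z * ρ (ct p u z) * fderiv ℝ b z u) {z | |cs p u z| < r} ∧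
    |(∫ z in {z | |cs p u z| < r}, ψ z * ρ (ct p u z) * fderiv ℝ b z u) - (g1 - g0) * ψ p| ≤
      6 * (g1 - g0) * L * r := by
  have hr : 0 < r := hδ.trans_le hδr
  obtain ⟨ψ', hψ', eψ⟩ := hψ.extend_real
  obtain ⟨b', hb', eb⟩ := hb.extend_real
  have hball : ∀ z, |cs p u z| ≤ r → |ct p u z| ≤ δ → ‖z - p‖ ≤ 2 * r := fun z h1 h2 => by
    linarith [norm_sub_le_cs_ct hu p z]
  have hmem : ∀ z, |cs p u z| ≤ r → |ct p u z| ≤ δ → z ∈ ball p (3 * r) := fun z h1 h2 => by
    rw [mem_ball, dist_eq_norm]; linarith [hball z h1 h2]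
  have hS : MeasurableSet {z | |cs p u z| < r} :=
    (isOpen_lt (continuous_cs p u).abs continuous_const).measurableSet
  set G : ℂ → ℝ := fun z => ψ' z * ρ (ct p u z) * fderiv ℝ b' z u with hG
  have eG : EqOn (fun z => ψ z * ρ (ct p u z) * fderiv ℝ b z u) G {z | |cs p u z| < r} :=
    fun z hz => by
      rcases le_or_gt δ |ct p u z| with h | h
      · simp [hG, hρs _ h]
      · have hz' := hmem z (le_of_lt hz) h.le
        have : b =ᶠ[𝓝 z] b' := eb.eventuallyEq_of_mem (isOpen_ball.mem_nhds hz')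
        simp only [hG, eψ hz', this.fderiv_eq]
  have hc : Continuous fun z => ψ' z * ρ (ct p u z) :=
    hψ'.continuous.mul (hρ.continuous.comp (continuous_ct p u))
  have iG : IntegrableOn G {z | |cs p u z| < r} := by
    have i1 : IntegrableOn G (closedBall p (2 * r)) := by
      refine (hc.continuousOn.integrableOn_compact (isCompact_closedBall p (2 * r))).mul_bdd
        (c := Lb) (measurable_fderiv_apply_const ℝ b' u).aestronglyMeasurable
        (Eventually.of_forall fun z => ?_)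
      simpa [hu] using (fderiv ℝ b' z).le_of_opNorm_le (norm_fderiv_le_of_lipschitz ℝ hb') u
    refine i1.of_forall_sdiff_eq_zero hS fun z hz => ?_
    have : δ ≤ |ct p u z| := le_of_not_gt fun h =>
      hz.2 (by rw [mem_closedBall, dist_eq_norm]; exact hball z (le_of_lt hz.1) h.le)
    simp [hG, hρs _ this]
  refine ⟨iG.congr_fun eG.symm hS, ?_⟩
  rw [setIntegral_congr_fun hS eG]
  have hpre : stPh p hu ⁻¹' {z | |cs p u z| < r} = Ioo (-r) r ×ˢ univ := by
    ext q
    simp [stPh_cs, abs_lt]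
  have hm : (volume : Measure (ℝ × ℝ)).restrict (Ioo (-r) r ×ˢ univ) =
      (volume.restrict (Ioo (-r) r)).prod volume := by
    rw [Measure.volume_eq_prod, Measure.restrict_prod_eq_prod_univ]
  have i2 : Integrable (fun q => G (stPh p hu q)) ((volume.restrict (Ioo (-r) r)).prod volume) := by
    rw [← hm, ← hpre]
    exact ((stPh_mp p hu).integrableOn_comp_preimage (stPh p hu).measurableEmbedding).2 iG
  rw [← (stPh_mp p hu).setIntegral_preimage_emb (stPh p hu).measurableEmbedding, hpre, hm,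
    integral_prod_symm _ i2]
  have iρ : Integrable ρ := Integrable.of_integral_ne_zero (by rw [hρ1]; exact one_ne_zero)
  have hp0 : cs p u p = 0 ∧ ct p u p = 0 := by simp [cs, ct]
  have hg : 0 ≤ g1 - g0 := by
    have := hmid p (by rw [hp0.2, abs_zero]; exact hδ.le) (by rw [hp0.1, abs_zero]; exact hr.le)
    linarith [this.1, this.2]
  have hd : ∀ᵐ τ : ℝ, ∀ᵐ s : ℝ, DifferentiableAt ℝ b' (stPh p hu (s, τ)) := by
    have a1 := (stPh_mp p hu).quasiMeasurePreserving.ae (hb'.ae_differentiableAt (μ := volume))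
    rw [Measure.volume_eq_prod] at a1
    exact Measure.ae_ae_of_ae_prod (Measure.measurePreserving_swap.quasiMeasurePreserving.ae a1)
  have key : ∀ᵐ τ : ℝ, ‖(∫ s in Ioo (-r) r, G (stPh p hu (s, τ))) - ρ τ * ((g1 - g0) * ψ p)‖ ≤
      ρ τ * (4 * (g1 - g0) * L * r) := by
    filter_upwards [hd] with τ hτ
    have e1 : ∫ s in Ioo (-r) r, G (stPh p hu (s, τ)) = ρ τ * ∫ s in -r..r,
        ψ' (stPh p hu (s, τ)) * deriv (fun s => b' (stPh p hu (s, τ))) s := by
      rw [intervalIntegral.integral_of_le (by linarith), integral_Ioc_eq_integral_Ioo,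
        ← integral_const_mul]
      refine integral_congr_ae (ae_restrict_of_ae ?_)
      filter_upwards [hτ] with s hs
      have := (hs.hasFDerivAt.comp_hasDerivAt s (stPh_deriv p hu τ s)).deriv
      simp only [hG, stPh_cs]
      rw [show deriv (fun s => b' (stPh p hu (s, τ))) s = _ from this]
      ring
    rw [e1, ← mul_sub, norm_mul, Real.norm_of_nonneg (hρ0 τ)]
    rcases le_or_gt δ |τ| with h | h
    · simp [hρs τ h]
    refine mul_le_mul_of_nonneg_left ?_ (hρ0 τ)
    have c1 : ∀ s, |ct p u (stPh p hu (s, τ))| ≤ δ := fun s => by rw [(stPh_cs p hu _).2]; exact h.le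
    have c2 : ∀ s, cs p u (stPh p hu (s, τ)) = s := fun s => (stPh_cs p hu _).1
    have c3 : ∀ s, |s| ≤ r → stPh p hu (s, τ) ∈ ball p (3 * r) := fun s hs =>
      hmem _ (by rwa [c2]) (c1 s)
    have ar : |r| ≤ r := (abs_of_pos hr).le
    have ar' : |-r| ≤ r := by rwa [abs_neg]
    refine strip_one (hψ'.comp (stPh_lip p hu τ) |>.weaken (mul_one L).le)
      (hb'.comp (stPh_lip p hu τ)) hr.le ?_ ?_ (fun s hs => ?_) ?_
    · exact (eb (c3 _ ar')).symm.trans (hlo _ (c1 _) (by rw [c2]) (by rw [c2]; linarith))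
    · exact (eb (c3 _ ar)).symm.trans (hhi _ (c1 _) (by rw [c2]; linarith) (by rw [c2]))
    · have := hmid _ (c1 s) (by rwa [c2])
      rwa [eb (c3 s hs)] at this
    · rw [eψ (mem_ball_self (by positivity))]
      have := hψ'.dist_le_mul (stPh p hu (r, τ)) p
      rw [Real.dist_eq, dist_eq_norm] at this
      have b := hball _ (by rw [c2]; exact ar) (c1 r)
      exact this.trans (by nlinarith [L.2])
  have fin := norm_integral_le_of_norm_le (iρ.mul_const (4 * (g1 - g0) * L * r)) key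
  rw [integral_sub i2.integral_prod_right (iρ.mul_const _), integral_mul_const,
    integral_mul_const, hρ1, one_mul, one_mul, Real.norm_eq_abs] at fin
  have : 0 ≤ (g1 - g0) * L * r := by positivity
  exact fin.trans (by linarith)

end Vale.P116A
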