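import Vale.Agent.P116A.MLLip
import Vale.Agent.P116A.MLStrip

/-!
The strip estimate for a signed weight in the level variable.
-/

namespace Vale.P116A

open Set Filter Topology Metric MeasureTheory
open scoped NNReal

lemma mem_ball_of_cs_ct {p u z : ℂ} (hu : ‖u‖ = 1) {r : ℝ} (hr : 0 < r) (h1 : |cs p u z| ≤ r)
    (h2 : |ct p u z| ≤ r) : z ∈ ball p (3 * r) := by
  rw [mem_ball_iff_norm]
  linarith [norm_sub_le_cs_ct hu p z]

lemma hasCompactSupport_of_far {lam : ℝ → ℝ} {t η : ℝ} (h0 : ∀ x, η ≤ |x - t| → lam x = 0) :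
    HasCompactSupport lam := by
  refine HasCompactSupport.intro (isCompact_Icc (a := t - η) (b := t + η)) fun x hx => h0 x ?_
  by_contra h
  have := abs_lt.1 (not_le.1 h)
  exact hx ⟨by linarith [this.1], by linarith [this.2]⟩

theorem strip_pos (p : ℂ) {u : ℂ} (hu : ‖u‖ = 1) {r δ : ℝ} (hδ : 0 < δ) (hδr : δ ≤ r)
    {ψ w : ℂ → ℝ} {L Lw Lρ : ℝ≥0} (hψ : LipschitzOnWith L ψ (ball p (3 * r)))
    (hw : LipschitzOnWith Lw w (ball p (3 * r)))
    (hwd : ∀ z ∈ ball p (3 * r), DifferentiableAt ℝ w z) {ρ : ℝ → ℝ} (hρ : LipschitzWith Lρ ρ)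
    (hρ0 : ∀ τ, 0 ≤ ρ τ) (hρs : ∀ τ, δ ≤ |τ| → ρ τ = 0) (hρ1 : ∫ τ, ρ τ = 1) {t η : ℝ}
    (hη : 0 < η)
    (hlo : ∀ z, |ct p u z| ≤ δ → -r ≤ cs p u z → cs p u z ≤ -(r / 2) → w z ≤ t - η)
    (hhi : ∀ z, |ct p u z| ≤ δ → r / 2 ≤ cs p u z → cs p u z ≤ r → t + η ≤ w z)
    {lam : ℝ → ℝ} (hc : Continuous lam) (h0 : ∀ x, η ≤ |x - t| → lam x = 0)
    (hpos : ∀ x, 0 ≤ lam x) :
    IntegrableOn (fun z => lam (w z) * (ψ z * ρ (ct p u z) * fderiv ℝ w z u))
      {z | |cs p u z| < r} ∧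
    |(∫ z in {z | |cs p u z| < r}, lam (w z) * (ψ z * ρ (ct p u z) * fderiv ℝ w z u)) -
      (∫ x, lam x) * ψ p| ≤ 6 * (∫ x, lam x) * L * r := by
  have hr : 0 < r := by linarith
  set g : ℝ → ℝ := fun x => ∫ y in (t - η)..x, lam y with hg
  have hd : ∀ x, HasDerivAt g (lam x) x := fun x =>
    intervalIntegral.integral_hasDerivAt_right (hc.intervalIntegrable _ _)
      (hc.stronglyMeasurableAtFilter _ _) hc.continuousAt
  have hdf : Differentiable ℝ g := fun x => (hd x).differentiableAt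
  have hm : Monotone g := monotone_of_deriv_nonneg hdf fun x => by rw [(hd x).deriv]; exact hpos x
  obtain ⟨M, hM⟩ := (hasCompactSupport_of_far h0).exists_bound_of_continuous hc
  have hLg : LipschitzWith M.toNNReal g := lipschitzWith_of_nnnorm_deriv_le hdf fun x => by
    rw [(hd x).deriv, ← NNReal.coe_le_coe]
    exact (hM x).trans (Real.le_coe_toNNReal M)
  have hg0 : ∀ x, x ≤ t - η → g x = 0 := by
    intro x hx
    simp only [hg]
    rw [intervalIntegral.integral_congr (g := fun _ => 0), intervalIntegral.integral_zero]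
    intro y hy
    rw [uIcc_of_ge hx] at hy
    exact h0 y (le_abs.2 (Or.inr (by linarith [hy.2])))
  have hg1 : ∀ x, t + η ≤ x → g x = ∫ y, lam y := by
    intro x hx
    refine intervalIntegral.integral_eq_integral_of_support_subset fun y hy => ?_
    have : |y - t| < η := not_le.1 fun h => hy (h0 y h)
    exact ⟨by linarith [(abs_lt.1 this).1], by linarith [(abs_lt.1 this).2]⟩
  have key := strip p hu hδ hδr hψ (hLg.comp_lipschitzOnWith hw) hρ hρ0 hρs hρ1 (g0 := 0)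
    (g1 := ∫ y, lam y) (fun z h1 h2 h3 => hg0 _ (hlo z h1 h2 h3))
    (fun z h1 h2 h3 => hg1 _ (hhi z h1 h2 h3)) (fun z _ _ => by
      constructor
      · rw [← hg0 (min (w z) (t - η)) (min_le_right _ _)]; exact hm (min_le_left _ _)
      · rw [← hg1 (max (w z) (t + η)) (le_max_right _ _)]; exact hm (le_max_left _ _))
  have hS : MeasurableSet {z | |cs p u z| < r} :=
    (isOpen_lt (continuous_cs _ _).abs continuous_const).measurableSet
  have he : EqOn (fun z => ψ z * ρ (ct p u z) * fderiv ℝ (g ∘ w) z u)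
      (fun z => lam (w z) * (ψ z * ρ (ct p u z) * fderiv ℝ w z u)) {z | |cs p u z| < r} := by
    intro z hz
    by_cases h : δ ≤ |ct p u z|
    · simp [hρs _ h]
    · have hb := mem_ball_of_cs_ct hu hr (le_of_lt hz) (by linarith [not_le.1 h])
      have := ((hd (w z)).comp_hasFDerivAt z (hwd z hb).hasFDerivAt).fderiv
      simp only [this, ContinuousLinearMap.smul_apply, smul_eq_mul]; ring
  rw [sub_zero, setIntegral_congr_fun hS he] at key
  exact ⟨key.1.congr_fun he hS, key.2⟩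

theorem strip_signed (p : ℂ) {u : ℂ} (hu : ‖u‖ = 1) {r δ : ℝ} (hδ : 0 < δ) (hδr : δ ≤ r)
    {ψ w : ℂ → ℝ} {L Lw Lρ : ℝ≥0} (hψ : LipschitzOnWith L ψ (ball p (3 * r)))
    (hw : LipschitzOnWith Lw w (ball p (3 * r)))
    (hwd : ∀ z ∈ ball p (3 * r), DifferentiableAt ℝ w z) {ρ : ℝ → ℝ} (hρ : LipschitzWith Lρ ρ)
    (hρ0 : ∀ τ, 0 ≤ ρ τ) (hρs : ∀ τ, δ ≤ |τ| → ρ τ = 0) (hρ1 : ∫ τ, ρ τ = 1) {t η : ℝ}
    (hη : 0 < η)
    (hlo : ∀ z, |ct p u z| ≤ δ → -r ≤ cs p u z → cs p u z ≤ -(r / 2) → w z ≤ t - η)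
    (hhi : ∀ z, |ct p u z| ≤ δ → r / 2 ≤ cs p u z → cs p u z ≤ r → t + η ≤ w z)
    {lam : ℝ → ℝ} (hc : Continuous lam) (h0 : ∀ x, η ≤ |x - t| → lam x = 0) :
    IntegrableOn (fun z => lam (w z) * (ψ z * ρ (ct p u z) * fderiv ℝ w z u))
      {z | |cs p u z| < r} ∧
    |(∫ z in {z | |cs p u z| < r}, lam (w z) * (ψ z * ρ (ct p u z) * fderiv ℝ w z u)) -
      (∫ x, lam x) * ψ p| ≤ 6 * (∫ x, |lam x|) * L * r := by
  have c1 : Continuous fun x => max (lam x) 0 := hc.max continuous_const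
  have c2 : Continuous fun x => max (-lam x) 0 := hc.neg.max continuous_const
  have z1 : ∀ x, η ≤ |x - t| → max (lam x) 0 = 0 := fun x h => by simp [h0 x h]
  have z2 : ∀ x, η ≤ |x - t| → max (-lam x) 0 = 0 := fun x h => by simp [h0 x h]
  obtain ⟨i1, e1⟩ := strip_pos p hu hδ hδr hψ hw hwd hρ hρ0 hρs hρ1 hη hlo hhi c1 z1
    fun x => le_max_right _ _
  obtain ⟨i2, e2⟩ := strip_pos p hu hδ hδr hψ hw hwd hρ hρ0 hρs hρ1 hη hlo hhi c2 z2
    fun x => le_max_right _ _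
  have j1 := c1.integrable_of_hasCompactSupport (μ := volume) (hasCompactSupport_of_far z1)
  have j2 := c2.integrable_of_hasCompactSupport (μ := volume) (hasCompactSupport_of_far z2)
  have a1 : ∀ x : ℝ, x = max x 0 - max (-x) 0 := fun x => (max_zero_sub_max_neg_zero_eq_self x).symm
  have a2 : ∀ x : ℝ, |x| = max x 0 + max (-x) 0 := fun x => by
    rcases le_total 0 x with h | h
    · rw [abs_of_nonneg h, max_eq_left h, max_eq_right (by linarith)]; ring
    · rw [abs_of_nonpos h, max_eq_right h, max_eq_left (by linarith)]; ring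
  have f1 : (fun z => lam (w z) * (ψ z * ρ (ct p u z) * fderiv ℝ w z u)) = fun z =>
      max (lam (w z)) 0 * (ψ z * ρ (ct p u z) * fderiv ℝ w z u) -
        max (-lam (w z)) 0 * (ψ z * ρ (ct p u z) * fderiv ℝ w z u) := by
    funext z; rw [← sub_mul, ← a1]
  have f2 : ∫ x, lam x = (∫ x, max (lam x) 0) - ∫ x, max (-lam x) 0 := by
    rw [← integral_sub j1 j2]; exact integral_congr_ae (Eventually.of_forall fun x => a1 _)
  have f3 : ∫ x, |lam x| = (∫ x, max (lam x) 0) + ∫ x, max (-lam x) 0 := by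
    rw [← integral_add j1 j2]; exact integral_congr_ae (Eventually.of_forall fun x => a2 _)
  rw [f1, f2, f3]
  refine ⟨i1.sub i2, ?_⟩
  rw [integral_sub i1 i2]
  rw [abs_le] at e1 e2 ⊢
  constructor <;> nlinarith [e1.1, e1.2, e2.1, e2.2]

end Vale.P116A
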